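import Mathlib

/-!
# Geometric Brascamp-Lieb inequality in rank one (Barthe's transport proof)

`ball_det`: Ball's determinant lemma (logarithmic form): if `∑ c_i ⟪y_i,x⟫² = ‖x‖²`, `‖y_i‖ = 1`,
`c_i, l_i > 0`, then `∑ c_i log l_i ≤ log det (∑ c_i l_i y_i ⊗ y_i)`.

`barthe_bl`: for densities `g_i` positive and continuous on an open interval, zero outside it, of
integral one: `∫⁻ ∏ g_i(⟪y_i,x⟫)^(c_i) dx ≤ 1`.
-/

open MeasureTheory Set Module Filter Topology
open scoped RealInnerProductSpace ENNReal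

namespace Vale.Agent.Lib.P237.PN

noncomputable section

section BallReal

variable {ι κ : Type*} [Fintype ι] [Fintype κ]

/-- Real form of Ball's determinant lemma. -/
lemma ball_real (c lam : ι → ℝ) (p : ι → κ → ℝ) (mu : κ → ℝ)
    (hc : ∀ i, 0 < c i) (hl : ∀ i, 0 < lam i) (hp : ∀ i k, 0 ≤ p i k)
    (h1 : ∀ i, ∑ k, p i k = 1) (h2 : ∀ k, ∑ i, c i * p i k = 1)
    (h3 : ∀ k, mu k = ∑ i, c i * lam i * p i k) (hmu : ∀ k, 0 < mu k) :
    ∑ i, c i * Real.log (lam i) ≤ ∑ k, Real.log (mu k) := by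
  set b : ι → ℝ := fun i => ∑ k, p i k * (mu k)⁻¹ with hb
  have hbpos : ∀ i, 0 < b i := by
    intro i
    have hne : ∃ k, 0 < p i k := by
      by_contra hno
      push Not at hno
      have : ∑ k, p i k ≤ 0 := Finset.sum_nonpos fun k _ => hno k
      rw [h1 i] at this
      linarith
    obtain ⟨k, hk⟩ := hne
    refine Finset.sum_pos' (fun k _ => mul_nonneg (hp i k) (inv_pos.mpr (hmu k)).le) ⟨k, Finset.mem_univ k, ?_⟩
    exact mul_pos hk (inv_pos.mpr (hmu k))
  have key1 : ∀ i, ∑ k, p i k * (-Real.log (mu k)) ≤ Real.log (b i) := by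
    intro i
    have hb0 := hbpos i
    have hterm : ∀ k, p i k * (-Real.log (mu k)) ≤
        p i k * (mu k)⁻¹ / b i - p i k + p i k * Real.log (b i) := by
      intro k
      have hmk := hmu k
      have hpos : 0 < (mu k)⁻¹ / b i := div_pos (inv_pos.mpr hmk) hb0
      have h := Real.log_le_sub_one_of_pos hpos
      rw [Real.log_div (inv_pos.mpr hmk).ne' hb0.ne', Real.log_inv] at h
      have h' := mul_le_mul_of_nonneg_left h (hp i k)
      have e : p i k * ((mu k)⁻¹ / b i - 1) = p i k * (mu k)⁻¹ / b i - p i k := by ring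
      rw [e] at h'
      have e2 : p i k * (-Real.log (mu k) - Real.log (b i)) =
          p i k * (-Real.log (mu k)) - p i k * Real.log (b i) := by ring
      rw [e2] at h'
      linarith
    calc ∑ k, p i k * (-Real.log (mu k))
        ≤ ∑ k, (p i k * (mu k)⁻¹ / b i - p i k + p i k * Real.log (b i)) :=
          Finset.sum_le_sum fun k _ => hterm k
      _ = Real.log (b i) := by
          rw [Finset.sum_add_distrib, Finset.sum_sub_distrib, ← Finset.sum_div, ← Finset.sum_mul,
            h1 i, div_self hb0.ne']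
          ring
  have hsumc : ∑ i, c i = (Fintype.card κ : ℝ) := by
    calc ∑ i, c i = ∑ i, c i * ∑ k, p i k := by simp [h1]
      _ = ∑ i, ∑ k, c i * p i k := by simp only [Finset.mul_sum]
      _ = ∑ k, ∑ i, c i * p i k := Finset.sum_comm
      _ = (Fintype.card κ : ℝ) := by simp [h2]
  have hsuma : ∑ i, c i * (lam i * b i) = (Fintype.card κ : ℝ) := by
    calc ∑ i, c i * (lam i * b i) = ∑ i, ∑ k, (c i * lam i * p i k) * (mu k)⁻¹ := by
          refine Finset.sum_congr rfl fun i _ => ?_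
          simp only [hb, Finset.mul_sum]
          refine Finset.sum_congr rfl fun k _ => ?_
          ring
      _ = ∑ k, ∑ i, (c i * lam i * p i k) * (mu k)⁻¹ := Finset.sum_comm
      _ = ∑ k, mu k * (mu k)⁻¹ := by
          refine Finset.sum_congr rfl fun k _ => ?_
          rw [← Finset.sum_mul, ← h3 k]
      _ = (Fintype.card κ : ℝ) := by
          have : ∀ k, mu k * (mu k)⁻¹ = 1 := fun k => mul_inv_cancel₀ (hmu k).ne'
          simp [this]
  have key2 : ∑ i, c i * (Real.log (lam i) + Real.log (b i)) ≤ 0 := by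
    have hterm : ∀ i, c i * (Real.log (lam i) + Real.log (b i)) ≤ c i * (lam i * b i) - c i := by
      intro i
      have hpos := mul_pos (hl i) (hbpos i)
      have h := Real.log_le_sub_one_of_pos hpos
      rw [Real.log_mul (hl i).ne' (hbpos i).ne'] at h
      have h' := mul_le_mul_of_nonneg_left h (hc i).le
      have e : c i * (lam i * b i - 1) = c i * (lam i * b i) - c i := by ring
      rwa [e] at h'
    calc ∑ i, c i * (Real.log (lam i) + Real.log (b i))
        ≤ ∑ i, (c i * (lam i * b i) - c i) := Finset.sum_le_sum fun i _ => hterm i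
      _ = 0 := by rw [Finset.sum_sub_distrib, hsuma, hsumc]; ring
  have key3 : -∑ k, Real.log (mu k) ≤ ∑ i, c i * Real.log (b i) := by
    calc -∑ k, Real.log (mu k) = ∑ k, (∑ i, c i * p i k) * (-Real.log (mu k)) := by
          simp [h2]
      _ = ∑ k, ∑ i, c i * (p i k * (-Real.log (mu k))) := by
          refine Finset.sum_congr rfl fun k _ => ?_
          rw [Finset.sum_mul]
          refine Finset.sum_congr rfl fun i _ => ?_
          ring
      _ = ∑ i, ∑ k, c i * (p i k * (-Real.log (mu k))) := Finset.sum_comm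
      _ = ∑ i, c i * ∑ k, p i k * (-Real.log (mu k)) := by
          simp only [Finset.mul_sum]
      _ ≤ ∑ i, c i * Real.log (b i) := Finset.sum_le_sum fun i _ =>
          mul_le_mul_of_nonneg_left (key1 i) (hc i).le
  have e : ∑ i, c i * (Real.log (lam i) + Real.log (b i)) =
      ∑ i, c i * Real.log (lam i) + ∑ i, c i * Real.log (b i) := by
    rw [← Finset.sum_add_distrib]
    exact Finset.sum_congr rfl fun i _ => by ring
  rw [e] at key2
  linarith

end BallReal

section BallMap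

variable {ι : Type*} [Fintype ι]
variable {E : Type*} [NormedAddCommGroup E] [InnerProductSpace ℝ E] [FiniteDimensional ℝ E]

/-- `x ↦ ∑ i, w i ⟪y i, x⟫ y i`. -/
def ballMap (y : ι → E) (w : ι → ℝ) : E →L[ℝ] E :=
  ∑ i, (w i) • (innerSL ℝ (y i)).smulRight (y i)

lemma ballMap_apply (y : ι → E) (w : ι → ℝ) (x : E) :
    ballMap y w x = ∑ i, (w i * ⟪y i, x⟫) • y i := by
  simp only [ballMap, ContinuousLinearMap.sum_apply, ContinuousLinearMap.smul_apply,
    ContinuousLinearMap.smulRight_apply, innerSL_apply_apply, smul_smul]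

lemma inner_ballMap (y : ι → E) (w : ι → ℝ) (x z : E) :
    ⟪ballMap y w x, z⟫ = ∑ i, w i * ⟪y i, x⟫ * ⟪y i, z⟫ := by
  rw [ballMap_apply, sum_inner]
  refine Finset.sum_congr rfl fun i _ => ?_
  rw [real_inner_smul_left]

/-- The weights of a decomposition of the identity add up to the dimension. -/
lemma sum_weights_eq (y : ι → E) (c : ι → ℝ) (hy : ∀ i, ‖y i‖ = 1)
    (hJ : ∀ x : E, ∑ i, c i * ⟪y i, x⟫ ^ 2 = ‖x‖ ^ 2) : ∑ i, c i = (finrank ℝ E : ℝ) := by
  set e := stdOrthonormalBasis ℝ E with he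
  have h1 : ∑ k, ‖e k‖ ^ 2 = (finrank ℝ E : ℝ) := by
    simp [e.norm_eq_one]
  have h2 : ∑ k, ∑ i, c i * ⟪y i, e k⟫ ^ 2 = ∑ i, c i := by
    rw [Finset.sum_comm]
    refine Finset.sum_congr rfl fun i _ => ?_
    rw [← Finset.mul_sum]
    have h3 := e.sum_sq_norm_inner_left (y i)
    simp only [Real.norm_eq_abs, sq_abs] at h3
    rw [h3, hy i]
    norm_num
  rw [← h2, ← h1]
  exact Finset.sum_congr rfl fun k _ => hJ (e k)

/-- **Ball's determinant lemma** in logarithmic form. -/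
theorem ball_det (y : ι → E) (c lam : ι → ℝ) (hc : ∀ i, 0 < c i) (hl : ∀ i, 0 < lam i)
    (hy : ∀ i, ‖y i‖ = 1) (hJ : ∀ x : E, ∑ i, c i * ⟪y i, x⟫ ^ 2 = ‖x‖ ^ 2) :
    0 < (ballMap y (fun i => c i * lam i)).det ∧
      ∑ i, c i * Real.log (lam i) ≤ Real.log (ballMap y (fun i => c i * lam i)).det := by
  set w : ι → ℝ := fun i => c i * lam i with hw
  set A : E →L[ℝ] E := ballMap y w with hA
  have hT : (A : E →ₗ[ℝ] E).IsSymmetric := by
    intro u v
    show ⟪A u, v⟫ = ⟪u, A v⟫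
    rw [real_inner_comm (A v) u, hA, inner_ballMap, inner_ballMap]
    exact Finset.sum_congr rfl fun i _ => by ring
  have hn : finrank ℝ E = finrank ℝ E := rfl
  set e := hT.eigenvectorBasis hn with he
  set mu := hT.eigenvalues hn with hmu
  have hdet : A.det = ∏ k, mu k := by
    have := hT.det_eq_prod_eigenvalues hn
    simpa using this
  have hp1 : ∀ i, ∑ k, ⟪y i, e k⟫ ^ 2 = 1 := by
    intro i
    have h3 := e.sum_sq_norm_inner_left (y i)
    simp only [Real.norm_eq_abs, sq_abs] at h3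
    rw [h3, hy i]
    norm_num
  have hp2 : ∀ k, ∑ i, c i * ⟪y i, e k⟫ ^ 2 = 1 := by
    intro k
    rw [hJ, e.norm_eq_one]
    norm_num
  have hp3 : ∀ k, mu k = ∑ i, c i * lam i * ⟪y i, e k⟫ ^ 2 := by
    intro k
    have h1 : ⟪A (e k), e k⟫ = mu k := by
      have h2 := hT.apply_eigenvectorBasis hn k
      simp only [RCLike.ofReal_real_eq_id, id] at h2
      have h3 : A (e k) = (mu k) • e k := h2
      rw [h3, real_inner_smul_left, real_inner_self_eq_norm_sq, e.norm_eq_one]
      norm_num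
    rw [← h1, hA, inner_ballMap]
    exact Finset.sum_congr rfl fun i _ => by rw [hw]; ring
  have hmupos : ∀ k, 0 < mu k := by
    intro k
    rw [hp3 k]
    have hne : ∃ i, 0 < c i * ⟪y i, e k⟫ ^ 2 := by
      by_contra hno
      push Not at hno
      have : ∑ i, c i * ⟪y i, e k⟫ ^ 2 ≤ 0 := Finset.sum_nonpos fun i _ => hno i
      rw [hp2 k] at this
      linarith
    obtain ⟨i, hi⟩ := hne
    refine Finset.sum_pos' (fun i _ => by have := hc i; have := hl i; positivity)
      ⟨i, Finset.mem_univ i, ?_⟩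
    have h1 : 0 < ⟪y i, e k⟫ ^ 2 := by
      by_contra h0
      have h2 : ⟪y i, e k⟫ ^ 2 ≤ 0 := not_lt.mp h0
      have := mul_nonpos_of_nonneg_of_nonpos (hc i).le h2
      linarith
    exact mul_pos (mul_pos (hc i) (hl i)) h1
  have hball := ball_real c lam (fun i k => ⟪y i, e k⟫ ^ 2) mu hc hl (fun i k => sq_nonneg _)
    hp1 hp2 hp3 hmupos
  refine ⟨?_, ?_⟩
  · rw [hdet]
    exact Finset.prod_pos fun k _ => hmupos k
  · rw [hdet, Real.log_prod (fun k _ => (hmupos k).ne')]
    exact hball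

/-- `‖∑ c_i s_i y_i‖² ≤ ∑ c_i s_i²`. -/
lemma norm_sq_sum_le (y : ι → E) (c s : ι → ℝ) (hc : ∀ i, 0 < c i)
    (hJ : ∀ x : E, ∑ i, c i * ⟪y i, x⟫ ^ 2 = ‖x‖ ^ 2) :
    ‖∑ i, (c i * s i) • y i‖ ^ 2 ≤ ∑ i, c i * s i ^ 2 := by
  set z : E := ∑ i, (c i * s i) • y i with hz
  have h1 : ‖z‖ ^ 2 = ∑ i, c i * s i * ⟪y i, z⟫ := by
    rw [← real_inner_self_eq_norm_sq]
    nth_rewrite 1 [hz]
    rw [sum_inner]
    exact Finset.sum_congr rfl fun i _ => by rw [real_inner_smul_left]
  have h2 : ∀ i, 2 * (c i * s i * ⟪y i, z⟫) ≤ c i * s i ^ 2 + c i * ⟪y i, z⟫ ^ 2 := by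
    intro i
    have := mul_nonneg (hc i).le (sq_nonneg (s i - ⟪y i, z⟫))
    nlinarith
  have h3 := Finset.sum_le_sum (fun i (_ : i ∈ Finset.univ) => h2 i)
  rw [← Finset.mul_sum, Finset.sum_add_distrib, hJ z, ← h1] at h3
  linarith

end BallMap

section Gaussian

/-- The standard Gaussian density on the line. -/
def gam (s : ℝ) : ℝ := (Real.sqrt (2 * Real.pi))⁻¹ * Real.exp (-(1 / 2) * s ^ 2)

private lemma sqrt2pi_pos : 0 < Real.sqrt (2 * Real.pi) :=
  Real.sqrt_pos.mpr (by have := Real.pi_pos; positivity)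

lemma gam_pos (s : ℝ) : 0 < gam s :=
  mul_pos (inv_pos.mpr sqrt2pi_pos) (Real.exp_pos _)

lemma log_gam (s : ℝ) : Real.log (gam s) = -(Real.log (2 * Real.pi) / 2) - s ^ 2 / 2 := by
  have hpi : (0 : ℝ) < 2 * Real.pi := by have := Real.pi_pos; positivity
  unfold gam
  rw [Real.log_mul (inv_pos.mpr sqrt2pi_pos).ne' (Real.exp_pos _).ne', Real.log_inv, Real.log_exp,
    Real.log_sqrt hpi.le]
  ring

lemma gam_continuous : Continuous gam := by
  unfold gam
  fun_prop

lemma gam_integrable : Integrable gam :=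
  (integrable_exp_neg_mul_sq (by norm_num : (0 : ℝ) < 1 / 2)).const_mul
    (Real.sqrt (2 * Real.pi))⁻¹

lemma gam_integral : ∫ s, gam s = 1 := by
  have hpi : (0 : ℝ) < 2 * Real.pi := by have := Real.pi_pos; positivity
  simp only [gam]
  rw [integral_const_mul]
  have := integral_gaussian (1 / 2 : ℝ)
  have e : (fun x : ℝ => Real.exp (-(1 / 2) * x ^ 2)) = fun x : ℝ => Real.exp (-(1 / 2 : ℝ) * x ^ 2) :=
    rfl
  rw [this]
  have e2 : Real.pi / (1 / 2) = 2 * Real.pi := by ring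
  rw [e2]
  exact inv_mul_cancel₀ sqrt2pi_pos.ne'

/-- The Gaussian distribution function. -/
def Phi (s : ℝ) : ℝ := ∫ u in Iic s, gam u

lemma Phi_sub {s t : ℝ} : Phi t - Phi s = ∫ u in s..t, gam u :=
  intervalIntegral.integral_Iic_sub_Iic gam_integrable.integrableOn gam_integrable.integrableOn

lemma Phi_hasDerivAt (s : ℝ) : HasDerivAt Phi (gam s) s := by
  have h := intervalIntegral.integral_hasDerivAt_right (f := gam) (a := 0) (b := s)
    (gam_continuous.intervalIntegrable _ _) (gam_continuous.stronglyMeasurableAtFilter _ _)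
    gam_continuous.continuousAt
  have e : Phi = fun u => Phi 0 + ∫ x in (0 : ℝ)..u, gam x := by
    funext u
    rw [← Phi_sub]
    ring
  rw [e]
  exact h.const_add _

lemma Phi_strictMono : StrictMono Phi := by
  intro s t hst
  have h := @Phi_sub s t
  have h2 : 0 < ∫ u in s..t, gam u :=
    intervalIntegral.intervalIntegral_pos_of_pos (gam_continuous.intervalIntegrable _ _)
      gam_pos hst
  linarith

lemma Phi_continuous : Continuous Phi :=
  continuous_iff_continuousAt.mpr fun s => (Phi_hasDerivAt s).continuousAt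

lemma Phi_tendsto_atBot : Tendsto Phi atBot (𝓝 0) := by
  have h := intervalIntegral_tendsto_integral_Iic (f := gam) (0 : ℝ)
    gam_integrable.integrableOn tendsto_id
  have e : Phi = fun s => Phi 0 - ∫ u in s..(0 : ℝ), gam u := by
    funext s
    rw [← Phi_sub]
    ring
  rw [e]
  have h2 := h.const_sub (Phi 0)
  have e2 : Phi 0 - ∫ x in Iic (0 : ℝ), gam x = 0 := sub_self _
  rw [e2] at h2
  exact h2

lemma Phi_tendsto_atTop : Tendsto Phi atTop (𝓝 1) := by
  have h := intervalIntegral_tendsto_integral_Ioi (f := gam) (0 : ℝ)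
    gam_integrable.integrableOn tendsto_id
  have e : Phi = fun s => Phi 0 + ∫ u in (0 : ℝ)..s, gam u := by
    funext s
    rw [← Phi_sub]
    ring
  rw [e]
  have h2 := h.const_add (Phi 0)
  have e2 : Phi 0 + ∫ x in Ioi (0 : ℝ), gam x = 1 := by
    have := intervalIntegral.integral_Iic_add_Ioi (f := gam) (b := 0)
      gam_integrable.integrableOn gam_integrable.integrableOn
    rw [gam_integral] at this
    exact this
  rw [e2] at h2
  exact h2

lemma Phi_mem (s : ℝ) : Phi s ∈ Ioo (0 : ℝ) 1 := by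
  constructor
  · have h2 : Phi (s - 1) < Phi s := Phi_strictMono (by linarith)
    have h3 : 0 ≤ Phi (s - 1) :=
      le_of_tendsto Phi_tendsto_atBot
        ((eventually_le_atBot (s - 1)).mono fun t ht => Phi_strictMono.monotone ht)
    linarith
  · have h2 : Phi s < Phi (s + 1) := Phi_strictMono (by linarith)
    have h3 : Phi (s + 1) ≤ 1 :=
      ge_of_tendsto Phi_tendsto_atTop
        ((eventually_ge_atTop (s + 1)).mono fun t ht => Phi_strictMono.monotone ht)
    linarith

lemma Phi_surj {v : ℝ} (hv : v ∈ Ioo (0 : ℝ) 1) : ∃ s, Phi s = v := by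
  obtain ⟨s₁, hs₁⟩ := (Phi_tendsto_atBot.eventually (gt_mem_nhds hv.1)).exists
  obtain ⟨s₂, hs₂⟩ := (Phi_tendsto_atTop.eventually (lt_mem_nhds hv.2)).exists
  exact mem_range_of_exists_le_of_exists_ge Phi_continuous ⟨s₁, hs₁.le⟩ ⟨s₂, hs₂.le⟩

/-- The Gaussian quantile function. -/
def Psi (v : ℝ) : ℝ := if h : v ∈ Ioo (0 : ℝ) 1 then (Phi_surj h).choose else 0

lemma Phi_Psi {v : ℝ} (hv : v ∈ Ioo (0 : ℝ) 1) : Phi (Psi v) = v := by
  unfold Psi
  rw [dif_pos hv]
  exact (Phi_surj hv).choose_spec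

lemma Psi_Phi (s : ℝ) : Psi (Phi s) = s :=
  Phi_strictMono.injective (Phi_Psi (Phi_mem s))

lemma Psi_strictMonoOn : StrictMonoOn Psi (Ioo (0 : ℝ) 1) := by
  intro u hu v hv huv
  rw [← Phi_Psi hu, ← Phi_Psi hv] at huv
  exact Phi_strictMono.lt_iff_lt.mp huv

lemma Psi_continuousAt {v : ℝ} (hv : v ∈ Ioo (0 : ℝ) 1) : ContinuousAt Psi v := by
  refine Psi_strictMonoOn.continuousAt_of_image_mem_nhds (Ioo_mem_nhds hv.1 hv.2) ?_
  have : Psi '' Ioo (0 : ℝ) 1 = univ := by
    ext s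
    simp only [mem_image, mem_univ, iff_true]
    exact ⟨Phi s, Phi_mem s, Psi_Phi s⟩
  rw [this]
  exact univ_mem

lemma Psi_hasDerivAt {v : ℝ} (hv : v ∈ Ioo (0 : ℝ) 1) : HasDerivAt Psi (gam (Psi v))⁻¹ v := by
  refine HasDerivAt.of_local_left_inverse (Psi_continuousAt hv) (Phi_hasDerivAt _)
    (gam_pos _).ne' ?_
  filter_upwards [Ioo_mem_nhds hv.1 hv.2] with u hu using Phi_Psi hu

end Gaussian

section Transport

variable {g : ℝ → ℝ} {a b : ℝ}

/-- A density positive and continuous on an open interval and zero outside it. -/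
structure IsDens (g : ℝ → ℝ) (a b : ℝ) : Prop where
  pos : ∀ t ∈ Ioo a b, 0 < g t
  cont : ContinuousOn g (Ioo a b)
  zero : ∀ t, t ∉ Ioo a b → g t = 0
  integrable : Integrable g
  one : ∫ t, g t = 1

lemma IsDens.nonneg (h : IsDens g a b) (t : ℝ) : 0 ≤ g t := by
  by_cases ht : t ∈ Ioo a b
  · exact (h.pos t ht).le
  · rw [h.zero t ht]

/-- The distribution function of a density. -/
def cdf' (g : ℝ → ℝ) (t : ℝ) : ℝ := ∫ u in Iic t, g u

lemma IsDens.cdf_sub (h : IsDens g a b) {s t : ℝ} : cdf' g t - cdf' g s = ∫ u in s..t, g u :=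
  intervalIntegral.integral_Iic_sub_Iic h.integrable.integrableOn h.integrable.integrableOn

lemma IsDens.cdf_hasDerivAt (h : IsDens g a b) {t : ℝ} (ht : t ∈ Ioo a b) :
    HasDerivAt (cdf' g) (g t) t := by
  have hcat : ContinuousAt g t := h.cont.continuousAt (Ioo_mem_nhds ht.1 ht.2)
  have h1 := intervalIntegral.integral_hasDerivAt_right (f := g) (a := t) (b := t)
    (by simp) (h.integrable.aestronglyMeasurable.stronglyMeasurableAtFilter) hcat
  have e : cdf' g = fun u => cdf' g t + ∫ x in t..u, g x := by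
    funext u
    rw [← h.cdf_sub]
    ring
  rw [e]
  exact h1.const_add _

lemma IsDens.cdf_strictMonoOn (h : IsDens g a b) : StrictMonoOn (cdf' g) (Ioo a b) := by
  intro s hs t ht hst
  have e := h.cdf_sub (s := s) (t := t)
  have hsub : Ioo s t ⊆ Ioo a b := fun x hx => ⟨hs.1.trans hx.1, hx.2.trans ht.2⟩
  have hpos : 0 < ∫ u in s..t, g u :=
    intervalIntegral.intervalIntegral_pos_of_pos_on
      (h.integrable.intervalIntegrable) (fun x hx => h.pos x (hsub hx)) hst
  linarith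

lemma IsDens.cdf_mem (h : IsDens g a b) {t : ℝ} (ht : t ∈ Ioo a b) :
    cdf' g t ∈ Ioo (0 : ℝ) 1 := by
  have hsum : cdf' g t + ∫ u in Ioi t, g u = 1 := by
    have := intervalIntegral.integral_Iic_add_Ioi (f := g) (b := t)
      h.integrable.integrableOn h.integrable.integrableOn
    rw [h.one] at this
    exact this
  have hsupp : Function.support g = Ioo a b := by
    ext x
    simp only [Function.mem_support]
    constructor
    · intro hx
      by_contra hno
      exact hx (h.zero x hno)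
    · intro hx
      exact (h.pos x hx).ne'
  have hnn : 0 ≤ g := h.nonneg
  have h1 : 0 < ∫ u in Iic t, g u := by
    rw [setIntegral_pos_iff_support_of_nonneg_ae (Eventually.of_forall hnn)
      h.integrable.integrableOn, hsupp]
    have : Ioo a t ⊆ Ioo a b ∩ Iic t := fun x hx => ⟨⟨hx.1, hx.2.trans ht.2⟩, hx.2.le⟩
    refine lt_of_lt_of_le ?_ (measure_mono this)
    simpa using ht.1
  have h2 : 0 < ∫ u in Ioi t, g u := by
    rw [setIntegral_pos_iff_support_of_nonneg_ae (Eventually.of_forall hnn)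
      h.integrable.integrableOn, hsupp]
    have : Ioo t b ⊆ Ioo a b ∩ Ioi t := fun x hx => ⟨⟨ht.1.trans hx.1, hx.2⟩, hx.1⟩
    refine lt_of_lt_of_le ?_ (measure_mono this)
    simpa using ht.2
  exact ⟨h1, by linarith⟩

/-- The monotone transport of the density `g` to the standard Gaussian. -/
def trans' (g : ℝ → ℝ) (t : ℝ) : ℝ := Psi (cdf' g t)

lemma IsDens.trans_strictMonoOn (h : IsDens g a b) : StrictMonoOn (trans' g) (Ioo a b) :=
  fun _ hs _ ht hst =>
    Psi_strictMonoOn (h.cdf_mem hs) (h.cdf_mem ht) (h.cdf_strictMonoOn hs ht hst)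

lemma IsDens.trans_hasDerivAt (h : IsDens g a b) {t : ℝ} (ht : t ∈ Ioo a b) :
    HasDerivAt (trans' g) (g t / gam (trans' g t)) t := by
  have h1 := (Psi_hasDerivAt (h.cdf_mem ht)).comp t (h.cdf_hasDerivAt ht)
  have e : (gam (Psi (cdf' g t)))⁻¹ * g t = g t / gam (trans' g t) := by
    unfold trans'
    rw [div_eq_mul_inv, mul_comm]
  rw [e] at h1
  exact h1

end Transport

section BL

variable {ι : Type*} [Fintype ι]
variable {E : Type*} [NormedAddCommGroup E] [InnerProductSpace ℝ E] [FiniteDimensional ℝ E]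
  [MeasurableSpace E] [BorelSpace E]

/-- The normalising constant of the standard Gaussian on `E`. -/
def gauC (E : Type*) [NormedAddCommGroup E] [InnerProductSpace ℝ E] [FiniteDimensional ℝ E] : ℝ :=
  ((Real.pi / (1 / 2)) ^ ((finrank ℝ E : ℝ) / 2))⁻¹

omit [MeasurableSpace E] [BorelSpace E] in
lemma gauC_pos : 0 < gauC E := by
  have := Real.pi_pos
  unfold gauC
  positivity

omit [MeasurableSpace E] [BorelSpace E] in
lemma log_gauC : Real.log (gauC E) = -(((finrank ℝ E : ℝ) / 2) * Real.log (2 * Real.pi)) := by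
  have hpi : (0 : ℝ) < Real.pi / (1 / 2) := by have := Real.pi_pos; positivity
  unfold gauC
  rw [Real.log_inv, Real.log_rpow hpi]
  have e : Real.pi / (1 / 2) = 2 * Real.pi := by ring
  rw [e]

lemma gauss_lintegral :
    ∫⁻ z : E, ENNReal.ofReal (gauC E * Real.exp (-(1 / 2) * ‖z‖ ^ 2)) = 1 := by
  have hb : (0 : ℝ) < 1 / 2 := by norm_num
  have hI := GaussianFourier.integral_rexp_neg_mul_sq_norm (V := E) hb
  have hpos : 0 < (Real.pi / (1 / 2)) ^ ((finrank ℝ E : ℝ) / 2) := by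
    have := Real.pi_pos
    positivity
  have hint : Integrable (fun z : E => Real.exp (-(1 / 2) * ‖z‖ ^ 2)) := by
    by_contra hno
    have := integral_undef hno
    rw [hI] at this
    exact hpos.ne' this
  have hint2 : Integrable (fun z : E => gauC E * Real.exp (-(1 / 2) * ‖z‖ ^ 2)) :=
    hint.const_mul _
  rw [← ofReal_integral_eq_lintegral_ofReal hint2
    (Eventually.of_forall fun z => (mul_pos gauC_pos (Real.exp_pos _)).le),
    integral_const_mul, hI]
  unfold gauC
  rw [inv_mul_cancel₀ hpos.ne', ENNReal.ofReal_one]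

/-- **Geometric Brascamp-Lieb inequality, rank one** (Barthe's transport proof). -/
theorem barthe_bl (y : ι → E) (c : ι → ℝ) (hc : ∀ i, 0 < c i) (hy : ∀ i, ‖y i‖ = 1)
    (hJ : ∀ x : E, ∑ i, c i * ⟪y i, x⟫ ^ 2 = ‖x‖ ^ 2)
    (g : ι → ℝ → ℝ) (a b : ι → ℝ) (hg : ∀ i, IsDens (g i) (a i) (b i)) :
    ∫⁻ x : E, ∏ i, ENNReal.ofReal (g i ⟪y i, x⟫ ^ c i) ≤ 1 := by
  set T : ι → ℝ → ℝ := fun i => trans' (g i) with hT
  set Ω : Set E := {x | ∀ i, ⟪y i, x⟫ ∈ Ioo (a i) (b i)} with hΩ
  have hΩo : IsOpen Ω := by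
    have : Ω = ⋂ i, (fun x => ⟪y i, x⟫) ⁻¹' Ioo (a i) (b i) := by
      ext x
      simp [Ω]
    rw [this]
    exact isOpen_iInter_of_finite fun i => isOpen_Ioo.preimage (by fun_prop)
  set lam : E → ι → ℝ := fun x i => g i ⟪y i, x⟫ / gam (T i ⟪y i, x⟫) with hlam
  set Θ : E → E := fun x => ∑ i, (c i * T i ⟪y i, x⟫) • y i with hΘ
  set Θ' : E → E →L[ℝ] E := fun x => ballMap y (fun i => c i * lam x i) with hΘ'
  have hlampos : ∀ x ∈ Ω, ∀ i, 0 < lam x i := fun x hx i =>
    div_pos ((hg i).pos _ (hx i)) (gam_pos _)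
  have hF : ∀ x ∈ Ω, HasFDerivAt Θ (Θ' x) x := by
    intro x hx
    have hi : ∀ i, HasFDerivAt (fun x => (c i * T i ⟪y i, x⟫) • y i)
        ((c i * lam x i) • (innerSL ℝ (y i)).smulRight (y i)) x := by
      intro i
      have h1 : HasFDerivAt (fun x : E => ⟪y i, x⟫) (innerSL ℝ (y i)) x :=
        (innerSL ℝ (y i)).hasFDerivAt
      have h2 := (hg i).trans_hasDerivAt (hx i)
      have h3 : HasFDerivAt (fun x => T i ⟪y i, x⟫) (lam x i • innerSL ℝ (y i)) x :=
        h2.comp_hasFDerivAt x h1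
      have h4 := (h3.const_mul (c i)).smul_const (y i)
      convert h4 using 1
      ext v
      simp only [ContinuousLinearMap.smul_apply, ContinuousLinearMap.smulRight_apply,
        innerSL_apply_apply, smul_smul, smul_eq_mul]
    exact HasFDerivAt.fun_sum (fun i _ => hi i)
  have hinj : InjOn Θ Ω := by
    intro x hx x' hx' he
    have h0 : ∑ i, c i * ((T i ⟪y i, x⟫ - T i ⟪y i, x'⟫) * (⟪y i, x⟫ - ⟪y i, x'⟫)) = 0 := by
      have h1 : ⟪Θ x, x - x'⟫ - ⟪Θ x', x - x'⟫ = 0 := by rw [he]; ring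
      have h2 : ⟪Θ x, x - x'⟫ - ⟪Θ x', x - x'⟫ =
          ∑ i, c i * ((T i ⟪y i, x⟫ - T i ⟪y i, x'⟫) * (⟪y i, x⟫ - ⟪y i, x'⟫)) := by
        simp only [hΘ, sum_inner, real_inner_smul_left, inner_sub_right]
        rw [← Finset.sum_sub_distrib, ← Finset.sum_sub_distrib, ← Finset.sum_sub_distrib]
        exact Finset.sum_congr rfl fun i _ => by ring
      rw [← h2, h1]
    have hnn : ∀ i, 0 ≤ c i * ((T i ⟪y i, x⟫ - T i ⟪y i, x'⟫) * (⟪y i, x⟫ - ⟪y i, x'⟫)) := by
      intro i
      refine mul_nonneg (hc i).le ?_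
      rcases lt_trichotomy ⟪y i, x⟫ ⟪y i, x'⟫ with hlt | heq | hgt
      · have := (hg i).trans_strictMonoOn (hx i) (hx' i) hlt
        exact mul_nonneg_of_nonpos_of_nonpos (by simp only [hT]; linarith) (by linarith)
      · rw [heq]; simp
      · have := (hg i).trans_strictMonoOn (hx' i) (hx i) hgt
        exact mul_nonneg (by simp only [hT]; linarith) (by linarith)
    have hz := (Finset.sum_eq_zero_iff_of_nonneg (fun i _ => hnn i)).1 h0
    have hd : ∀ i, ⟪y i, x⟫ = ⟪y i, x'⟫ := by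
      intro i
      by_contra hne
      have hzi := hz i (Finset.mem_univ i)
      have hne2 := (mul_eq_zero.mp hzi).resolve_left (hc i).ne'
      have hne3 := (mul_eq_zero.mp hne2).resolve_right (sub_ne_zero.mpr hne)
      rcases lt_or_gt_of_ne hne with hlt | hgt
      · have := (hg i).trans_strictMonoOn (hx i) (hx' i) hlt
        simp only [hT] at hne3
        linarith
      · have := (hg i).trans_strictMonoOn (hx' i) (hx i) hgt
        simp only [hT] at hne3
        linarith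
    have h1 : ‖x - x'‖ ^ 2 = 0 := by
      rw [← hJ (x - x')]
      refine Finset.sum_eq_zero fun i _ => ?_
      rw [inner_sub_right, hd i, sub_self]
      ring
    have h2 : ‖x - x'‖ = 0 := by
      simpa using h1
    exact sub_eq_zero.mp (norm_eq_zero.mp h2)
  set H : E → ℝ≥0∞ := fun z => ENNReal.ofReal (gauC E * Real.exp (-(1 / 2) * ‖z‖ ^ 2)) with hH
  have hCV := lintegral_image_eq_lintegral_abs_det_fderiv_mul volume hΩo.measurableSet
    (fun x hx => (hF x hx).hasFDerivWithinAt) hinj H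
  have hsumc := sum_weights_eq y c hy hJ
  have hle : ∀ x ∈ Ω, ∏ i, ENNReal.ofReal (g i ⟪y i, x⟫ ^ c i) ≤
      ENNReal.ofReal |(Θ' x).det| * H (Θ x) := by
    intro x hx
    obtain ⟨hdetpos, hball⟩ := ball_det y c (lam x) hc (hlampos x hx) hy hJ
    have hgpos : ∀ i, 0 < g i ⟪y i, x⟫ := fun i => (hg i).pos _ (hx i)
    have hdet' : (Θ' x).det = (ballMap y (fun i => c i * lam x i)).det := rfl
    rw [hdet'] at *
    rw [abs_of_pos hdetpos, ← ENNReal.ofReal_prod_of_nonneg
      (fun i _ => Real.rpow_nonneg (hgpos i).le _), hH]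
    simp only
    rw [← ENNReal.ofReal_mul hdetpos.le]
    apply ENNReal.ofReal_le_ofReal
    have hL : 0 < ∏ i, g i ⟪y i, x⟫ ^ c i :=
      Finset.prod_pos fun i _ => Real.rpow_pos_of_pos (hgpos i) _
    have hR : 0 < (ballMap y (fun i => c i * lam x i)).det *
        (gauC E * Real.exp (-(1 / 2) * ‖Θ x‖ ^ 2)) :=
      mul_pos hdetpos (mul_pos gauC_pos (Real.exp_pos _))
    rw [← Real.log_le_log_iff hL hR, Real.log_prod (fun i _ => (Real.rpow_pos_of_pos (hgpos i) _).ne'),
      Real.log_mul hdetpos.ne' (mul_pos gauC_pos (Real.exp_pos _)).ne',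
      Real.log_mul gauC_pos.ne' (Real.exp_pos _).ne', Real.log_exp, log_gauC]
    have hnorm := norm_sq_sum_le y c (fun i => T i ⟪y i, x⟫) hc hJ
    have hterm : ∀ i, Real.log (g i ⟪y i, x⟫ ^ c i) = c i * Real.log (lam x i) -
        c i * (Real.log (2 * Real.pi) / 2) - c i * (T i ⟪y i, x⟫ ^ 2) / 2 := by
      intro i
      have e : g i ⟪y i, x⟫ = lam x i * gam (T i ⟪y i, x⟫) := by
        simp only [hlam]
        field_simp [(gam_pos (T i ⟪y i, x⟫)).ne']
      rw [Real.log_rpow (hgpos i), e, Real.log_mul (hlampos x hx i).ne' (gam_pos _).ne', log_gam]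
      ring
    have hsum : ∑ i, Real.log (g i ⟪y i, x⟫ ^ c i) = ∑ i, c i * Real.log (lam x i) -
        ((finrank ℝ E : ℝ) / 2) * Real.log (2 * Real.pi) -
        (∑ i, c i * (T i ⟪y i, x⟫) ^ 2) / 2 := by
      simp only [hterm]
      rw [Finset.sum_sub_distrib, Finset.sum_sub_distrib, ← Finset.sum_mul, hsumc, Finset.sum_div]
      ring
    rw [hsum]
    have hnorm' : ‖Θ x‖ ^ 2 ≤ ∑ i, c i * (T i ⟪y i, x⟫) ^ 2 := hnorm
    linarith
  have hvan : ∀ x, x ∉ Ω → ∏ i, ENNReal.ofReal (g i ⟪y i, x⟫ ^ c i) = 0 := by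
    intro x hx
    simp only [hΩ, mem_setOf_eq, not_forall] at hx
    obtain ⟨i, hi⟩ := hx
    refine Finset.prod_eq_zero (Finset.mem_univ i) ?_
    rw [(hg i).zero _ hi, Real.zero_rpow (hc i).ne', ENNReal.ofReal_zero]
  have hind : (fun x : E => ∏ i, ENNReal.ofReal (g i ⟪y i, x⟫ ^ c i)) =
      Ω.indicator (fun x : E => ∏ i, ENNReal.ofReal (g i ⟪y i, x⟫ ^ c i)) := by
    funext x
    by_cases hx : x ∈ Ω
    · rw [indicator_of_mem hx]
    · rw [indicator_of_notMem hx, hvan x hx]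
  calc ∫⁻ x : E, ∏ i, ENNReal.ofReal (g i ⟪y i, x⟫ ^ c i)
      = ∫⁻ x in Ω, ∏ i, ENNReal.ofReal (g i ⟪y i, x⟫ ^ c i) := by
        rw [← lintegral_indicator hΩo.measurableSet, ← hind]
    _ ≤ ∫⁻ x in Ω, ENNReal.ofReal |(Θ' x).det| * H (Θ x) :=
        setLIntegral_mono' hΩo.measurableSet hle
    _ = ∫⁻ z in Θ '' Ω, H z := hCV.symm
    _ ≤ ∫⁻ z, H z := setLIntegral_le_lintegral _ _
    _ = 1 := gauss_lintegral

end BL

end

end Vale.Agent.Lib.P237.PN
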