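import Vale.Agent.Lib.P237.PN.Basic
import Vale.Agent.Lib.P237.PN.BMEq1

/-!
# The Brunn-Minkowski equality case for symmetric convex bodies, any dimension
-/

open MeasureTheory Set Filter Topology Module
open scoped RealInnerProductSpace Pointwise ENNReal Interval

namespace Vale.Agent.Lib.P237.PN

noncomputable section

section sections

variable {m : ℕ} (b : OrthonormalBasis (Fin (m + 1)) ℝ (EE (m + 1)))

/-- The volume of the section at height `t`. -/
def aa (X : Set (EE (m + 1))) (t : ℝ) : ℝ := (volume (sec b X t)).toReal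

/-- The `m`-th root of the volume of the section at height `t`. -/
def rv (X : Set (EE (m + 1))) (t : ℝ) : ℝ := rootVol (sec b X t)

lemma rv_nonneg (X : Set (EE (m + 1))) (t : ℝ) : 0 ≤ rv b X t := rootVol_nonneg _

lemma aa_eq (hm : 0 < m) (X : Set (EE (m + 1))) (t : ℝ) : aa b X t = rv b X t ^ m :=
  (rootVol_pow hm.ne' _).symm

lemma aa_nonneg (X : Set (EE (m + 1))) (t : ℝ) : 0 ≤ aa b X t := ENNReal.toReal_nonneg

lemma aa_integrable {X : Set (EE (m + 1))} (hX : IsCompact X) : Integrable (aa b X) := by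
  have hm := measurable_volume_sec b hX.measurableSet
  apply integrable_toReal_of_lintegral_ne_top hm.aemeasurable
  rw [← volume_eq_lintegral_sec b hX.measurableSet]
  exact hX.measure_lt_top.ne

lemma integral_aa {X : Set (EE (m + 1))} (hX : IsCompact X) :
    ∫ t, aa b X t = (volume X).toReal := by
  have hm := measurable_volume_sec b hX.measurableSet
  have h2 : ∀ᵐ t, volume (sec b X t) < ∞ :=
    ae_of_all _ fun t => (sec_compact b hX t).measure_lt_top
  rw [volume_eq_lintegral_sec b hX.measurableSet, ← integral_toReal hm.aemeasurable h2]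
  rfl

/-- Brunn-Minkowski along the sections. -/
lemma rv_comb (hm : 0 < m) {K : Set (EE (m + 1))} (hK : IsCompact K) (hKc : Convex ℝ K) {s t a c : ℝ}
    (ha : 0 ≤ a) (hc : 0 ≤ c) (hac : a + c = 1) (hs : (sec b K s).Nonempty)
    (ht : (sec b K t).Nonempty) : a * rv b K s + c * rv b K t ≤ rv b K (a * s + c * t) := by
  have e : a = 1 - c := by linarith
  have := bm_comb hm.ne' (sec_compact b hK s) (sec_compact b hK t) (sec_compact b hK (a * s + c * t))
    hs ht hc (by linarith) (C := sec b K (a * s + c * t)) (fun x hx y hy => by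
      rw [← e]
      exact sec_comb b hKc ha hc hac hx hy)
  rw [← e] at this
  exact this

lemma rv_neg {K : Set (EE (m + 1))} (hsym : ∀ x ∈ K, -x ∈ K) (t : ℝ) :
    rv b K (-t) = rv b K t := by
  unfold rv rootVol
  rw [sec_neg_eq b hsym, Measure.measure_neg]

end sections

/-! ### Symmetric convex bodies -/

/-- A compact convex centrally symmetric set containing a ball around the origin. -/
structure SymBody {n : ℕ} (X : Set (EE n)) (ε : ℝ) : Prop where
  pos : 0 < ε
  compact : IsCompact X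
  convex : Convex ℝ X
  sym : ∀ x ∈ X, -x ∈ X
  ball : Metric.closedBall (0 : EE n) ε ⊆ X

namespace SymBody

section general

variable {n : ℕ} {X : Set (EE n)} {ε : ℝ}

lemma nonempty (hX : SymBody X ε) : X.Nonempty :=
  ⟨0, hX.ball (Metric.mem_closedBall_self hX.pos.le)⟩

lemma bddAbove (hX : SymBody X ε) (y : EE n) : BddAbove ((fun x : EE n => ⟪x, y⟫) '' X) :=
  (hX.compact.image (continuous_id.inner continuous_const)).bddAbove

lemma le_supp (hX : SymBody X ε) {x : EE n} (hx : x ∈ X) (y : EE n) : ⟪x, y⟫ ≤ supp X y :=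
  le_csSup (hX.bddAbove y) ⟨x, hx, rfl⟩

lemma attained (hX : SymBody X ε) (y : EE n) : ∃ x ∈ X, ⟪x, y⟫ = supp X y := by
  have hc : IsCompact ((fun x : EE n => ⟪x, y⟫) '' X) :=
    hX.compact.image (continuous_id.inner continuous_const)
  have hm := hc.sSup_mem (hX.nonempty.image _)
  obtain ⟨x, hx, he⟩ := hm
  exact ⟨x, hx, he⟩

lemma supp_pos (hX : SymBody X ε) {y : EE n} (hy : ‖y‖ = 1) : 0 < supp X y := by
  have hm : ε • y ∈ X := hX.ball (by
    rw [mem_closedBall_zero_iff, norm_smul, hy, mul_one, Real.norm_of_nonneg hX.pos.le])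
  have := hX.le_supp hm y
  rw [inner_smul_left, real_inner_self_eq_norm_sq, hy] at this
  simp only [conj_trivial, one_pow, mul_one] at this
  exact hX.pos.trans_le this

end general

section frames

variable {m : ℕ} (b : OrthonormalBasis (Fin (m + 1)) ℝ (EE (m + 1))) {X : Set (EE (m + 1))} {ε : ℝ}

lemma sec_nonempty' (hX : SymBody X ε) {t : ℝ} (ht : |t| ≤ supp X (b (Fin.last m))) :
    (sec b X t).Nonempty := by
  obtain ⟨x, hx, he⟩ := hX.attained (b (Fin.last m))
  have hh : 0 < supp X (b (Fin.last m)) := hX.supp_pos (b.norm_eq_one _)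
  set h := supp X (b (Fin.last m)) with hh'
  set r := t / h with hr
  have hr1 : |r| ≤ 1 := by
    rw [hr, abs_div, abs_of_pos hh]
    exact (div_le_one hh).mpr ht
  -- the point r • x lies in X
  have hz : r • x ∈ X := by
    have h0 : (0 : EE (m + 1)) ∈ X := hX.ball (Metric.mem_closedBall_self hX.pos.le)
    rcases le_total 0 r with hr0 | hr0
    · have := hX.convex.smul_mem_of_zero_mem h0 hx ⟨hr0, (abs_le.mp hr1).2⟩
      exact this
    · have hnx := hX.sym x hx
      have := hX.convex.smul_mem_of_zero_mem h0 hnx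
        (show -r ∈ Icc (0 : ℝ) 1 from ⟨by linarith, by have := (abs_le.mp hr1).1; linarith⟩)
      simpa using this
  refine ⟨(coord b (r • x)).1, ?_⟩
  show pt b _ t ∈ X
  have e : t = (coord b (r • x)).2 := by
    simp only [coord, inner_smul_right]
    rw [real_inner_comm, he, hr]
    field_simp
  rw [e, pt_coord]
  exact hz

lemma sec_empty (hX : SymBody X ε) {t : ℝ} (ht : supp X (b (Fin.last m)) < |t|) :
    sec b X t = ∅ := by
  ext p
  simp only [mem_empty_iff_false, iff_false]
  intro hp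
  have h1 : pt b p t ∈ X := hp
  have h2 := hX.le_supp h1 (b (Fin.last m))
  have h3 := hX.le_supp (hX.sym _ h1) (b (Fin.last m))
  rw [real_inner_comm, inner_pt_last] at h2
  rw [inner_neg_left, real_inner_comm, inner_pt_last] at h3
  have := abs_le.mpr ⟨by linarith, h2⟩
  linarith

lemma aa_zero (hX : SymBody X ε) {t : ℝ} (ht : supp X (b (Fin.last m)) < |t|) : aa b X t = 0 := by
  unfold aa
  rw [hX.sec_empty b ht]
  simp

lemma rv_concave' (hm : 0 < m) (hX : SymBody X ε) :
    ConcaveOn ℝ (Icc (-supp X (b (Fin.last m))) (supp X (b (Fin.last m)))) (rv b X) := by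
  refine ⟨convex_Icc _ _, ?_⟩
  intro s hs t ht a c ha hc hac
  have hs' : |s| ≤ supp X (b (Fin.last m)) := abs_le.mpr hs
  have ht' : |t| ≤ supp X (b (Fin.last m)) := abs_le.mpr ht
  have := rv_comb b hm hX.compact hX.convex ha hc hac (hX.sec_nonempty' b hs')
    (hX.sec_nonempty' b ht')
  simpa [smul_eq_mul] using this

lemma rv_cont (hm : 0 < m) (hX : SymBody X ε) :
    ContinuousOn (rv b X) (Ioo (-supp X (b (Fin.last m))) (supp X (b (Fin.last m)))) := by
  have h := (hX.rv_concave' b hm).continuousOn_interior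
  rwa [interior_Icc] at h

lemma aa_cont (hm : 0 < m) (hX : SymBody X ε) :
    ContinuousOn (aa b X) (Ioo (-supp X (b (Fin.last m))) (supp X (b (Fin.last m)))) := by
  have h := (hX.rv_cont b hm).pow m
  exact h.congr fun t _ => aa_eq b hm X t

lemma rv_zero_pos (hX : SymBody X ε) : 0 < rv b X 0 := by
  have hsub : Metric.closedBall (0 : EE m) ε ⊆ sec b X 0 := by
    intro p hp
    apply hX.ball
    rw [mem_closedBall_zero_iff] at hp ⊢
    have h := norm_sq_pt b p 0
    have h2 : ‖pt b p 0‖ ^ 2 ≤ ε ^ 2 := by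
      rw [h]
      have := pow_le_pow_left₀ (norm_nonneg p) hp 2
      nlinarith
    exact (pow_le_pow_iff_left₀ (norm_nonneg _) hX.pos.le two_ne_zero).mp h2
  have hpos : 0 < volume (Metric.closedBall (0 : EE m) ε) :=
    Metric.measure_closedBall_pos _ _ hX.pos
  have hv : 0 < volume (sec b X 0) := hpos.trans_le (measure_mono hsub)
  unfold rv rootVol
  apply Real.rpow_pos_of_pos
  exact ENNReal.toReal_pos hv.ne' (sec_compact b hX.compact 0).measure_lt_top.ne

lemma rv_pos (hm : 0 < m) (hX : SymBody X ε) {t : ℝ} (h0 : 0 ≤ t)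
    (ht : t < supp X (b (Fin.last m))) : 0 < rv b X t := by
  have hh : 0 < supp X (b (Fin.last m)) := lt_of_le_of_lt h0 ht
  set h := supp X (b (Fin.last m)) with hh'
  have hl0 : 0 ≤ t / h := div_nonneg h0 hh.le
  have hl1 : 0 < 1 - t / h := by
    rw [sub_pos, div_lt_one hh]
    exact ht
  have hs0 : (sec b X 0).Nonempty := hX.sec_nonempty' b (by rw [abs_zero]; exact hh.le)
  have hsh : (sec b X h).Nonempty := hX.sec_nonempty' b (by rw [abs_of_pos hh])
  have := rv_comb b hm hX.compact hX.convex hl1.le hl0 (by ring) hs0 hsh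
  have e : (1 - t / h) * 0 + t / h * h = t := by
    field_simp
    ring
  rw [e] at this
  have h1 : 0 ≤ t / h * rv b X h := mul_nonneg hl0 (rootVol_nonneg _)
  have h2 : 0 < (1 - t / h) * rv b X 0 := mul_pos hl1 (hX.rv_zero_pos b)
  linarith

lemma aa_pos (hm : 0 < m) (hX : SymBody X ε) {t : ℝ} (h0 : 0 ≤ t)
    (ht : t < supp X (b (Fin.last m))) : 0 < aa b X t := by
  rw [aa_eq b hm]
  exact pow_pos (hX.rv_pos b hm h0 ht) m

lemma aa_neg (hX : SymBody X ε) (t : ℝ) : aa b X (-t) = aa b X t := by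
  unfold aa
  rw [sec_neg_eq b hX.sym, Measure.measure_neg]

lemma aa_abs (hX : SymBody X ε) (t : ℝ) : aa b X |t| = aa b X t := by
  rcases abs_choice t with h | h <;> rw [h]
  exact hX.aa_neg b t

/-- Half of the volume lies above the central section. -/
lemma integral_half (hX : SymBody X ε) :
    ∫ t in (0 : ℝ)..(supp X (b (Fin.last m))), aa b X t = (volume X).toReal / 2 := by
  have hh : 0 < supp X (b (Fin.last m)) := hX.supp_pos (b.norm_eq_one _)
  have h1 := integral_comp_abs (f := aa b X)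
  have h2 : ∫ x, aa b X |x| = (volume X).toReal := by
    rw [← integral_aa b hX.compact]
    exact integral_congr_ae (ae_of_all _ fun t => hX.aa_abs b t)
  have h3 : ∫ x in Ioi (0 : ℝ), aa b X x = ∫ x in Ioc 0 (supp X (b (Fin.last m))), aa b X x := by
    apply setIntegral_eq_of_subset_of_forall_sdiff_eq_zero measurableSet_Ioi Ioc_subset_Ioi_self
    intro x hx
    apply hX.aa_zero b
    have h4 : 0 < x := hx.1
    have h5 : supp X (b (Fin.last m)) < x := by
      by_contra hcon
      exact hx.2 ⟨h4, not_lt.mp hcon⟩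
    rwa [abs_of_pos h4]
  rw [intervalIntegral.integral_of_le hh.le, ← h3]
  linarith

lemma aa_intervalIntegrable (hX : IsCompact X) (u v : ℝ) :
    IntervalIntegrable (aa b X) volume u v :=
  (aa_integrable b hX).intervalIntegrable

end frames

end SymBody

/-- The Minkowski combination `(1 - l) K + l M`. -/
def midSet {n : ℕ} (l : ℝ) (K M : Set (EE n)) : Set (EE n) :=
  {z | ∃ x ∈ K, ∃ y ∈ M, z = (1 - l) • x + l • y}

section

variable {n : ℕ} {K M : Set (EE n)} {ε ε' l : ℝ}

lemma midSet_eq_image (l : ℝ) (K M : Set (EE n)) :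
    midSet l K M = (fun z : EE n × EE n => (1 - l) • z.1 + l • z.2) '' (K ×ˢ M) := by
  ext z
  constructor
  · rintro ⟨x, hx, y, hy, rfl⟩
    exact ⟨(x, y), ⟨hx, hy⟩, rfl⟩
  · rintro ⟨⟨x, y⟩, ⟨hx, hy⟩, rfl⟩
    exact ⟨x, hx, y, hy, rfl⟩

lemma midSet_compact (hK : IsCompact K) (hM : IsCompact M) : IsCompact (midSet l K M) := by
  rw [midSet_eq_image]
  apply (hK.prod hM).image
  fun_prop

lemma midSet_convex (hK : Convex ℝ K) (hM : Convex ℝ M) :
    Convex ℝ (midSet l K M) := by
  rintro _ ⟨x, hx, y, hy, rfl⟩ _ ⟨x', hx', y', hy', rfl⟩ a c ha hc hac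
  refine ⟨a • x + c • x', hK hx hx' ha hc hac, a • y + c • y', hM hy hy' ha hc hac, ?_⟩
  simp only [smul_add, smul_smul]
  rw [mul_comm a, mul_comm c, mul_comm a l, mul_comm c l]
  abel

lemma SymBody.midSet (l : ℝ) (hK : SymBody K ε) (hM : SymBody M ε') :
    SymBody (midSet l K M) (min ε ε') := by
  refine ⟨lt_min hK.pos hM.pos, midSet_compact hK.compact hM.compact,
    midSet_convex hK.convex hM.convex, ?_, ?_⟩
  · rintro _ ⟨x, hx, y, hy, rfl⟩
    exact ⟨-x, hK.sym x hx, -y, hM.sym y hy, by simp [smul_neg]; abel⟩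
  · intro z hz
    rw [mem_closedBall_zero_iff] at hz
    refine ⟨z, hK.ball ?_, z, hM.ball ?_, ?_⟩
    · rw [mem_closedBall_zero_iff]
      exact hz.trans (min_le_left _ _)
    · rw [mem_closedBall_zero_iff]
      exact hz.trans (min_le_right _ _)
    · rw [← add_smul]
      simp

lemma supp_midSet (hK : SymBody K ε) (hM : SymBody M ε') (h0 : 0 ≤ l) (h1 : l ≤ 1) (y : EE n) :
    supp (midSet l K M) y = (1 - l) * supp K y + l * supp M y := by
  have hC := SymBody.midSet l hK hM
  apply le_antisymm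
  · obtain ⟨z, ⟨u, hu, v, hv, rfl⟩, he⟩ := hC.attained y
    rw [← he, inner_add_left, inner_smul_left, inner_smul_left]
    simp only [conj_trivial]
    have := mul_le_mul_of_nonneg_left (hK.le_supp hu y) (by linarith : 0 ≤ 1 - l)
    have := mul_le_mul_of_nonneg_left (hM.le_supp hv y) h0
    linarith
  · obtain ⟨u, hu, hue⟩ := hK.attained y
    obtain ⟨v, hv, hve⟩ := hM.attained y
    have := hC.le_supp (⟨u, hu, v, hv, rfl⟩ :
      (1 - l) • u + l • v ∈ Vale.Agent.Lib.P237.PN.midSet l K M) y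
    rw [inner_add_left, inner_smul_left, inner_smul_left, hue, hve] at this
    simpa using this

end

section main

variable {m : ℕ} {K M : Set (EE (m + 1))} {ε ε' l : ℝ}

/-- Equal volumes and no gain in the Minkowski combination force equal widths in each direction. -/
theorem supp_eq_of_volume_midSet_le (hm : 0 < m) (hK : SymBody K ε) (hM : SymBody M ε') (h0 : 0 < l)
    (h1 : l < 1) (hV : volume K = volume M) (hC : volume (midSet l K M) ≤ volume K)
    {y : EE (m + 1)} (hy : ‖y‖ = 1) : supp K y = supp M y := by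
  obtain ⟨b, rfl⟩ := exists_basis hy
  have hCb := SymBody.midSet l hK hM
  have hp : 0 < 1 - l := by linarith
  have hhK : 0 < supp K (b (Fin.last m)) := hK.supp_pos hy
  have hhM : 0 < supp M (b (Fin.last m)) := hM.supp_pos hy
  have hsC := supp_midSet hK hM h0.le h1.le (b (Fin.last m))
  have hsub : ∀ {X : Set (EE (m + 1))} {δ : ℝ}, SymBody X δ →
      ContinuousOn (aa b X) (Ioo 0 (supp X (b (Fin.last m)))) := by
    intro X δ hX
    refine (hX.aa_cont b hm).mono fun t ht => ⟨?_, ht.2⟩
    have := ht.1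
    have := hX.supp_pos hy
    linarith
  refine one_d_eq hm.ne' (a₁ := aa b K) (a₂ := aa b M) (r₁ := rv b K) (r₂ := rv b M)
    (c := aa b (midSet l K M))
    (I := (volume K).toReal / 2) (p := 1 - l) (q := l) hhK hhM hp h0 (by ring)
    (hsub hK) (hsub hM)
    (fun s hs => hK.rv_pos b hm hs.1.le hs.2) (fun s hs => hM.rv_pos b hm hs.1.le hs.2)
    (fun s _ => aa_eq b hm K s) (fun s _ => aa_eq b hm M s)
    (SymBody.aa_intervalIntegrable b hK.compact _ _) (SymBody.aa_intervalIntegrable b hM.compact _ _)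
    (hK.integral_half b) (by rw [hV]; exact hM.integral_half b)
    (by rw [← hsC]; exact hsub hCb)
    (fun s _ => aa_nonneg b _ s)
    (SymBody.aa_intervalIntegrable b hCb.compact _ _)
    (by
      rw [← hsC, hCb.integral_half b]
      have := ENNReal.toReal_mono hK.compact.measure_lt_top.ne hC
      linarith)
    ?_
  intro s hs t ht
  rw [aa_eq b hm]
  have hA := hK.sec_nonempty' b (t := s) (by rw [abs_of_pos hs.1]; exact hs.2.le)
  have hB := hM.sec_nonempty' b (t := t) (by rw [abs_of_pos ht.1]; exact ht.2.le)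
  have hbm := bm_comb hm.ne' (sec_compact b hK.compact s) (sec_compact b hM.compact t)
    (sec_compact b hCb.compact ((1 - l) * s + l * t)) hA hB h0.le h1.le (fun x hx y hy => by
      show pt b ((1 - l) • x + l • y) ((1 - l) * s + l * t) ∈ midSet l K M
      rw [pt_comb]
      exact ⟨_, hx, _, hy, rfl⟩)
  have hnn : 0 ≤ (1 - l) * rv b K s + l * rv b M t :=
    add_nonneg (mul_nonneg hp.le (rootVol_nonneg _)) (mul_nonneg h0.le (rootVol_nonneg _))
  exact pow_le_pow_left₀ hnn hbm m

/-- A compact convex set is determined by its support function in unit directions. -/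
lemma subset_of_supp_le {n : ℕ} {K M : Set (EE n)} (hK : SymBody K ε) (hM : SymBody M ε')
    (h : ∀ y : EE n, ‖y‖ = 1 → supp K y ≤ supp M y) : K ⊆ M := by
  intro x hx
  by_contra hxM
  obtain ⟨f, u, hf, hu⟩ := geometric_hahn_banach_closed_point hM.convex hM.compact.isClosed hxM
  set w : EE n := (InnerProductSpace.toDual ℝ (EE n)).symm f with hw
  have hfw : ∀ z, f z = ⟪w, z⟫ := fun z => (InnerProductSpace.toDual_symm_apply (𝕜 := ℝ)).symm
  obtain ⟨a, ha⟩ := hM.nonempty
  have hwne : w ≠ 0 := by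
    intro h0
    have h1 := hf a ha
    rw [hfw, h0, inner_zero_left] at h1 hu
    linarith
  have hn : 0 < ‖w‖ := norm_pos_iff.mpr hwne
  set y : EE n := ‖w‖⁻¹ • w with hy
  have hyn : ‖y‖ = 1 := norm_smul_inv_norm hwne
  have hin : ∀ z, ⟪z, y⟫ = ‖w‖⁻¹ * f z := by
    intro z
    rw [hfw, hy, inner_smul_right, real_inner_comm]
  obtain ⟨m, hm, hme⟩ := hM.attained y
  have h1 := hK.le_supp hx y
  have h2 := h y hyn
  rw [← hme, hin] at h2
  rw [hin] at h1
  have h3 := hf m hm
  have h4 : ‖w‖⁻¹ * f x ≤ ‖w‖⁻¹ * f m := h1.trans h2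
  have h5 := le_of_mul_le_mul_left h4 (inv_pos.mpr hn)
  linarith

/-- The Brunn-Minkowski equality case for symmetric convex bodies of the same volume. -/
theorem eq_of_volume_midSet_le (hm : 0 < m) (hK : SymBody K ε) (hM : SymBody M ε') (h0 : 0 < l)
    (h1 : l < 1) (hV : volume K = volume M) (hC : volume (midSet l K M) ≤ volume K) : K = M := by
  apply Subset.antisymm
  · exact subset_of_supp_le hK hM fun y hy =>
      (supp_eq_of_volume_midSet_le hm hK hM h0 h1 hV hC hy).le
  · exact subset_of_supp_le hM hK fun y hy =>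
      (supp_eq_of_volume_midSet_le hm hK hM h0 h1 hV hC hy).ge

/-- A compact convex symmetric set with interior points contains a ball around the origin. -/
lemma exists_symBody {n : ℕ} {X : Set (EE n)} (hX : IsCompact X) (hXc : Convex ℝ X)
    (hXs : ∀ x ∈ X, -x ∈ X) (hne : (interior X).Nonempty) : ∃ δ, SymBody X δ := by
  obtain ⟨x, hx⟩ := hne
  obtain ⟨r, hr, hrs⟩ := Metric.isOpen_iff.mp isOpen_interior x hx
  refine ⟨r / 2, half_pos hr, hX, hXc, hXs, ?_⟩
  intro z hz
  rw [mem_closedBall_zero_iff] at hz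
  have h1 : x + z ∈ X := interior_subset (hrs (by
    rw [Metric.mem_ball, dist_eq_norm]
    simp only [add_sub_cancel_left]
    linarith))
  have h2 : x - z ∈ X := interior_subset (hrs (by
    rw [Metric.mem_ball, dist_eq_norm]
    simp only [sub_sub_cancel_left, norm_neg]
    linarith))
  have h3 := hXs _ h2
  have := hXc h1 h3 (by norm_num : (0 : ℝ) ≤ 1 / 2) (by norm_num : (0 : ℝ) ≤ 1 / 2) (by norm_num)
  have e : (1 / 2 : ℝ) • (x + z) + (1 / 2 : ℝ) • (-(x - z)) = z := by
    rw [neg_sub, ← smul_add, show x + z + (z - x) = (2 : ℝ) • z by rw [two_smul]; abel, smul_smul]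
    norm_num
  rwa [e] at this

lemma SymBody.smul {n : ℕ} {X : Set (EE n)} {δ c : ℝ} (hX : SymBody X δ) (hc : 0 < c) :
    SymBody (c • X) (c * δ) := by
  refine ⟨mul_pos hc hX.pos, hX.compact.smul c, hX.convex.smul c, ?_, ?_⟩
  · rintro _ ⟨x, hx, rfl⟩
    exact ⟨-x, hX.sym x hx, by simp⟩
  · intro z hz
    rw [mem_closedBall_zero_iff, ] at hz
    refine ⟨c⁻¹ • z, hX.ball ?_, ?_⟩
    · rw [mem_closedBall_zero_iff, norm_smul, Real.norm_of_nonneg (inv_pos.mpr hc).le]
      calc c⁻¹ * ‖z‖ ≤ c⁻¹ * (c * δ) := mul_le_mul_of_nonneg_left hz (inv_pos.mpr hc).le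
        _ = δ := by field_simp
    · show c • c⁻¹ • z = z
      rw [smul_smul, mul_inv_cancel₀ hc.ne', one_smul]

/-- The scaling form of the Brunn-Minkowski equality case: if `|M| = c^(m+1) |K|` and
`|K + e M| ≤ (1 + e c)^(m+1) |K|`, then `M = c K`. -/
theorem eq_smul_of_volume_add_le (hm : 0 < m) (hK : SymBody K ε) (hM : SymBody M ε') {c e : ℝ}
    (hc : 0 < c) (he : 0 < e) (hV : volume M = ENNReal.ofReal (c ^ (m + 1)) * volume K)
    (hadd : volume (K + e • M) ≤ ENNReal.ofReal ((1 + e * c) ^ (m + 1)) * volume K) :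
    M = c • K := by
  have hcne : c ≠ 0 := hc.ne'
  have hd : 0 < 1 + e * c := by positivity
  set M' : Set (EE (m + 1)) := c⁻¹ • M with hM'
  have hMb : SymBody M' (c⁻¹ * ε') := hM.smul (inv_pos.mpr hc)
  set l : ℝ := e * c / (1 + e * c) with hl
  have hl0 : 0 < l := by positivity
  have hl1 : l < 1 := by
    rw [hl, div_lt_one hd]
    linarith
  have hVM : volume K = volume M' := by
    rw [hM', vol_smul (inv_pos.mpr hc).le, hV, ← mul_assoc, ← ENNReal.ofReal_mul (by positivity)]
    have : c⁻¹ ^ (m + 1) * c ^ (m + 1) = 1 := by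
      rw [← mul_pow, inv_mul_cancel₀ hcne, one_pow]
    rw [this]
    simp
  have hmid : midSet l K M' = (1 + e * c)⁻¹ • (K + e • M) := by
    ext z
    constructor
    · rintro ⟨x, hx, _, ⟨y, hy, rfl⟩, rfl⟩
      refine ⟨x + e • y, ⟨x, hx, e • y, ⟨y, hy, rfl⟩, rfl⟩, ?_⟩
      show (1 + e * c)⁻¹ • (x + e • y) = _
      simp only [smul_add, smul_smul, hl]
      congr 2
      · field_simp
        ring
      · field_simp
    · rintro ⟨_, ⟨x, hx, _, ⟨y, hy, rfl⟩, rfl⟩, rfl⟩
      refine ⟨x, hx, c⁻¹ • y, ⟨y, hy, rfl⟩, ?_⟩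
      show (1 + e * c)⁻¹ • (x + e • y) = _
      simp only [smul_add, smul_smul, hl]
      congr 2
      · field_simp
        ring
      · field_simp
  have hC : volume (midSet l K M') ≤ volume K := by
    rw [hmid, vol_smul (inv_pos.mpr hd).le]
    calc ENNReal.ofReal ((1 + e * c)⁻¹ ^ (m + 1)) * volume (K + e • M)
        ≤ ENNReal.ofReal ((1 + e * c)⁻¹ ^ (m + 1)) *
            (ENNReal.ofReal ((1 + e * c) ^ (m + 1)) * volume K) := by
          gcongr
      _ = volume K := by
          rw [← mul_assoc, ← ENNReal.ofReal_mul (by positivity)]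
          have : (1 + e * c)⁻¹ ^ (m + 1) * (1 + e * c) ^ (m + 1) = 1 := by
            rw [← mul_pow, inv_mul_cancel₀ hd.ne', one_pow]
          rw [this]
          simp
  have hEq : K = M' := eq_of_volume_midSet_le hm hK hMb hl0 hl1 hVM hC
  rw [hEq, hM', smul_smul, mul_inv_cancel₀ hcne, one_smul]

end main

end

end Vale.Agent.Lib.P237.PN
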