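import Vale.Agent.Lib.P227.Plane3

/-!
# General dimension: coordinates, sections, Fubini, projections, Brunn-Minkowski
-/

open MeasureTheory Set Module Filter Topology
open scoped RealInnerProductSpace ENNReal Pointwise

namespace Vale.Agent.Lib.P237.PN

open Vale.Agent.Lib.P227

/-- Euclidean `n`-space. -/
abbrev EE (n : ℕ) := EuclideanSpace ℝ (Fin n)

noncomputable section

/-- The support function of `L`. -/
def supp {n : ℕ} (L : Set (EE n)) (u : EE n) : ℝ := sSup ((fun x : EE n => ⟪x, u⟫) '' L)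

/-- The `(n-1)`-volume of the orthogonal projection of `K` onto `u^⊥`. -/
def projVol {n : ℕ} (K : Set (EE n)) (u : EE n) : ℝ :=
  (volume ((ℝ ∙ u)ᗮ.orthogonalProjectionOnto '' K)).toReal

/-- `L` is the projection body of `K`. -/
structure IsProjBody {n : ℕ} (K L : Set (EE n)) : Prop where
  compact : IsCompact L
  convex : Convex ℝ L
  nonempty : L.Nonempty
  support : ∀ u : EE n, ‖u‖ = 1 → supp L u = projVol K u

section frames

variable {m : ℕ} (b : OrthonormalBasis (Fin (m + 1)) ℝ (EE (m + 1)))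

/-- The point with horizontal coordinates `p` and height `t` in the frame `b`. -/
def pt (p : EE m) (t : ℝ) : EE (m + 1) :=
  ∑ i : Fin m, p i • b i.castSucc + t • b (Fin.last m)

/-- The section of `K` at height `t` in the direction of the last vector of `b`. -/
def sec (K : Set (EE (m + 1))) (t : ℝ) : Set (EE m) := {p | pt b p t ∈ K}

/-- The horizontal coordinates in the frame `b`. -/
def cmap (x : EE (m + 1)) : EE m := WithLp.toLp 2 fun i => ⟪b i.castSucc, x⟫

@[simp] lemma cmap_apply (x : EE (m + 1)) (i : Fin m) : cmap b x i = ⟪b i.castSucc, x⟫ := rfl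

/-- All coordinates in the frame `b`. -/
def coord (x : EE (m + 1)) : EE m × ℝ := (cmap b x, ⟪b (Fin.last m), x⟫)

lemma b_inner_self (i : Fin (m + 1)) : ⟪b i, b i⟫ = 1 := by
  rw [real_inner_self_eq_norm_sq, b.norm_eq_one]; norm_num

lemma b_inner_ne {i j : Fin (m + 1)} (h : i ≠ j) : ⟪b i, b j⟫ = 0 :=
  b.orthonormal.2 h

lemma inner_pt_castSucc (p : EE m) (t : ℝ) (i : Fin m) : ⟪b i.castSucc, pt b p t⟫ = p i := by
  unfold pt
  rw [inner_add_right, inner_sum, real_inner_smul_right, b_inner_ne b (Fin.castSucc_lt_last i).ne]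
  simp only [real_inner_smul_right, mul_zero, add_zero]
  rw [Finset.sum_eq_single i]
  · rw [b_inner_self, mul_one]
  · intro j _ hj
    rw [b_inner_ne b (fun h => hj (Fin.castSucc_injective _ h).symm), mul_zero]
  · simp

lemma inner_pt_last (p : EE m) (t : ℝ) : ⟪b (Fin.last m), pt b p t⟫ = t := by
  unfold pt
  rw [inner_add_right, inner_sum, real_inner_smul_right, b_inner_self, mul_one]
  rw [Finset.sum_eq_zero]
  · simp
  · intro j _
    rw [real_inner_smul_right, b_inner_ne b (Fin.castSucc_lt_last j).ne', mul_zero]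

lemma cmap_pt (p : EE m) (t : ℝ) : cmap b (pt b p t) = p := by
  ext i
  exact inner_pt_castSucc b p t i

lemma coord_pt (q : EE m × ℝ) : coord b (pt b q.1 q.2) = q := by
  ext1
  · exact cmap_pt b _ _
  · exact inner_pt_last b _ _

lemma pt_coord (x : EE (m + 1)) : pt b (coord b x).1 (coord b x).2 = x := by
  have h := b.sum_repr' x
  rw [Fin.sum_univ_castSucc] at h
  unfold pt
  simpa [coord, cmap] using h

lemma cmap_continuous : Continuous (cmap b) := by
  unfold cmap
  apply (PiLp.continuous_toLp 2 _).comp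
  apply continuous_pi
  intro i
  exact continuous_const.inner continuous_id

lemma coord_continuous : Continuous (coord b) :=
  (cmap_continuous b).prodMk (continuous_const.inner continuous_id)

lemma pt_continuous₂ : Continuous fun q : EE m × ℝ => pt b q.1 q.2 := by
  unfold pt
  fun_prop

lemma pt_continuous (t : ℝ) : Continuous fun p : EE m => pt b p t := by
  unfold pt
  fun_prop

lemma pt_comb (p q : EE m) (s t a c : ℝ) :
    pt b (a • p + c • q) (a * s + c * t) = a • pt b p s + c • pt b q t := by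
  simp only [pt, PiLp.add_apply, PiLp.smul_apply, smul_eq_mul, add_smul, mul_smul, smul_add,
    Finset.sum_add_distrib, Finset.smul_sum]
  abel

lemma pt_neg (p : EE m) (t : ℝ) : pt b (-p) (-t) = - pt b p t := by
  simp only [pt, PiLp.neg_apply, neg_smul, neg_add, Finset.sum_neg_distrib]

lemma cmap_add_smul (x y : EE (m + 1)) (a c : ℝ) :
    cmap b (a • x + c • y) = a • cmap b x + c • cmap b y := by
  ext i
  simp [inner_add_right, inner_smul_right]

lemma norm_sq_eq_sum (x : EE (m + 1)) :
    ‖x‖ ^ 2 = ∑ i : Fin m, ⟪b i.castSucc, x⟫ ^ 2 + ⟪b (Fin.last m), x⟫ ^ 2 := by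
  rw [← b.sum_sq_norm_inner_right x, Fin.sum_univ_castSucc]
  simp

lemma norm_sq_EE {n : ℕ} (p : EE n) : ‖p‖ ^ 2 = ∑ i, p i ^ 2 := by
  rw [EuclideanSpace.norm_sq_eq]
  simp

lemma norm_sq_pt (p : EE m) (t : ℝ) : ‖pt b p t‖ ^ 2 = ‖p‖ ^ 2 + t ^ 2 := by
  rw [norm_sq_eq_sum b, inner_pt_last, norm_sq_EE]
  simp only [inner_pt_castSucc]

lemma norm_sq_cmap (x : EE (m + 1)) :
    ‖cmap b x‖ ^ 2 + ⟪b (Fin.last m), x⟫ ^ 2 = ‖x‖ ^ 2 := by
  rw [norm_sq_eq_sum b, norm_sq_EE]
  simp

lemma norm_cmap_le (x : EE (m + 1)) : ‖cmap b x‖ ≤ ‖x‖ := by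
  have h := norm_sq_cmap b x
  have h3 : ‖cmap b x‖ ^ 2 ≤ ‖x‖ ^ 2 := by nlinarith [sq_nonneg ⟪b (Fin.last m), x⟫]
  exact (pow_le_pow_iff_left₀ (norm_nonneg _) (norm_nonneg _) two_ne_zero).mp h3

/-- The coordinates preserve volume. -/
lemma mp_coord : MeasurePreserving (coord b) volume volume := by
  have m0 := b.measurePreserving_repr
  have m1 : MeasurePreserving (WithLp.ofLp : EE (m + 1) → Fin (m + 1) → ℝ) volume volume :=
    PiLp.volume_preserving_ofLp (Fin (m + 1))
  have m2 := volume_preserving_piFinSuccAbove (fun _ : Fin (m + 1) => ℝ) (Fin.last m)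
  have m3 : MeasurePreserving (Prod.swap : ℝ × (Fin m → ℝ) → (Fin m → ℝ) × ℝ) volume volume :=
    Measure.measurePreserving_swap
  have m4 : MeasurePreserving (Prod.map (WithLp.toLp 2 : (Fin m → ℝ) → EE m) (id : ℝ → ℝ))
      volume volume := (PiLp.volume_preserving_toLp (Fin m)).prod (MeasurePreserving.id _)
  have := m4.comp (m3.comp (m2.comp (m1.comp m0)))
  convert this using 1
  funext x
  ext1
  · ext i
    simp [coord, cmap, MeasurableEquiv.piFinSuccAbove, OrthonormalBasis.repr_apply_apply]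
    show _ = (b.repr x) i.castSucc
    rw [b.repr_apply_apply]
  · simp [coord, MeasurableEquiv.piFinSuccAbove, OrthonormalBasis.repr_apply_apply]

lemma mp_pt : MeasurePreserving (fun q : EE m × ℝ => pt b q.1 q.2) volume volume := by
  have hl : Function.LeftInverse (fun q : EE m × ℝ => pt b q.1 q.2) (coord b) := pt_coord b
  have hr : Function.RightInverse (fun q : EE m × ℝ => pt b q.1 q.2) (coord b) := coord_pt b
  have e : MeasurableEquiv (EE (m + 1)) (EE m × ℝ) :=
    { toFun := coord b
      invFun := fun q => pt b q.1 q.2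
      left_inv := pt_coord b
      right_inv := coord_pt b
      measurable_toFun := (coord_continuous b).measurable
      measurable_invFun := (pt_continuous₂ b).measurable }
  exact (MeasurePreserving.symm
    { toFun := coord b
      invFun := fun q => pt b q.1 q.2
      left_inv := pt_coord b
      right_inv := coord_pt b
      measurable_toFun := (coord_continuous b).measurable
      measurable_invFun := (pt_continuous₂ b).measurable } (mp_coord b))

variable {K : Set (EE (m + 1))}

lemma sec_compact (hK : IsCompact K) (t : ℝ) : IsCompact (sec b K t) := by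
  apply Metric.isCompact_of_isClosed_isBounded
  · exact hK.isClosed.preimage (pt_continuous b t)
  · obtain ⟨R, hR⟩ := hK.isBounded.exists_norm_le
    rw [isBounded_iff_forall_norm_le]
    refine ⟨R, fun p hp => ?_⟩
    have h1 : ‖pt b p t‖ ≤ R := hR _ hp
    have h2 := norm_sq_pt b p t
    have h3 : ‖p‖ ^ 2 ≤ ‖pt b p t‖ ^ 2 := by nlinarith [sq_nonneg t]
    exact ((pow_le_pow_iff_left₀ (norm_nonneg _) (norm_nonneg _) two_ne_zero).mp h3).trans h1

lemma sec_comb (hK : Convex ℝ K) {s t a c : ℝ} (ha : 0 ≤ a) (hc : 0 ≤ c) (hac : a + c = 1)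
    {p q : EE m} (hp : p ∈ sec b K s) (hq : q ∈ sec b K t) :
    a • p + c • q ∈ sec b K (a * s + c * t) := by
  show pt b (a • p + c • q) (a * s + c * t) ∈ K
  rw [pt_comb]
  exact hK hp hq ha hc hac

lemma sec_convex (hK : Convex ℝ K) (t : ℝ) : Convex ℝ (sec b K t) := by
  intro p hp q hq a c ha hc hac
  have h := sec_comb b hK ha hc hac hp hq
  have e : a * t + c * t = t := by rw [← add_mul, hac, one_mul]
  rwa [e] at h

lemma sec_neg (hsym : ∀ x ∈ K, -x ∈ K) {t : ℝ} {p : EE m} (hp : p ∈ sec b K t) :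
    -p ∈ sec b K (-t) := by
  show pt b (-p) (-t) ∈ K
  rw [pt_neg]
  exact hsym _ hp

lemma sec_neg_eq (hsym : ∀ x ∈ K, -x ∈ K) (t : ℝ) : sec b K (-t) = -sec b K t := by
  ext p
  constructor
  · intro hp
    have := sec_neg b hsym hp
    rw [neg_neg] at this
    simpa using this
  · intro hp
    have h : -p ∈ sec b K t := by simpa using hp
    have := sec_neg b hsym h
    rwa [neg_neg] at this

/-- The Fubini formula for the sections. -/
lemma volume_eq_lintegral_sec {X : Set (EE (m + 1))} (hX : MeasurableSet X) :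
    volume X = ∫⁻ t, volume (sec b X t) := by
  set A : Set (EE m × ℝ) := {z | pt b z.1 z.2 ∈ X} with hA
  have hAm : MeasurableSet A := (pt_continuous₂ b).measurable hX
  have hpre : coord b ⁻¹' A = X := by
    ext x
    show pt b (coord b x).1 (coord b x).2 ∈ X ↔ x ∈ X
    rw [pt_coord]
  have h1 := (mp_coord b).measure_preimage hAm.nullMeasurableSet
  rw [hpre] at h1
  rw [h1, Measure.volume_eq_prod, Measure.prod_apply_symm hAm]
  rfl

lemma measurable_volume_sec {X : Set (EE (m + 1))} (hX : MeasurableSet X) :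
    Measurable fun t => volume (sec b X t) := by
  set A : Set (EE m × ℝ) := {z | pt b z.1 z.2 ∈ X} with hA
  have hAm : MeasurableSet A := (pt_continuous₂ b).measurable hX
  exact measurable_measure_prodMk_right hAm

/-- Fubini for integrals over a set, in the frame `b`. -/
theorem fubini_sec {X : Set (EE (m + 1))} (hX : MeasurableSet X) {f : EE (m + 1) → ℝ}
    (hf : IntegrableOn f X) :
    ∫ x in X, f x = ∫ t, ∫ p in sec b X t, f (pt b p t) := by
  have hme : MeasurableEmbedding (fun q : EE m × ℝ => pt b q.1 q.2) :=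
    (Homeomorph.isClosedEmbedding
      { toFun := fun q : EE m × ℝ => pt b q.1 q.2
        invFun := coord b
        left_inv := coord_pt b
        right_inv := pt_coord b
        continuous_toFun := pt_continuous₂ b
        continuous_invFun := coord_continuous b }).measurableEmbedding
  set A : Set (EE m × ℝ) := (fun q : EE m × ℝ => pt b q.1 q.2) ⁻¹' X with hA
  have hAm : MeasurableSet A := (pt_continuous₂ b).measurable hX
  have h1 : ∫ x in X, f x = ∫ q in A, f (pt b q.1 q.2) := by
    have h := (mp_pt b).setIntegral_preimage_emb hme f X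
    exact h.symm
  have hint : IntegrableOn (fun q : EE m × ℝ => f (pt b q.1 q.2)) A := by
    have h := (mp_pt b).integrableOn_comp_preimage hme (f := f) (s := X)
    exact h.mpr hf
  rw [h1, Measure.volume_eq_prod, ← integral_indicator hAm]
  rw [integral_prod_symm]
  · apply integral_congr_ae
    refine Filter.Eventually.of_forall fun t => ?_
    simp only
    have : (fun p : EE m => A.indicator (fun q : EE m × ℝ => f (pt b q.1 q.2)) (p, t))
        = (sec b X t).indicator (fun p => f (pt b p t)) := by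
      funext p
      by_cases hp : pt b p t ∈ X
      · rw [indicator_of_mem (show (p, t) ∈ A from hp), indicator_of_mem (show p ∈ sec b X t from hp)]
      · rw [indicator_of_notMem (show (p, t) ∉ A from hp),
          indicator_of_notMem (show p ∉ sec b X t from hp)]
    rw [this, integral_indicator]
    exact (pt_continuous b t).measurable hX
  · rw [integrable_indicator_iff hAm]
    rw [Measure.volume_eq_prod] at hint
    exact hint

end frames

/-- Every unit vector is the last vector of an orthonormal basis. -/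
lemma exists_basis {m : ℕ} {y : EE (m + 1)} (hy : ‖y‖ = 1) :
    ∃ b : OrthonormalBasis (Fin (m + 1)) ℝ (EE (m + 1)), b (Fin.last m) = y := by
  have hv : Orthonormal ℝ (({Fin.last m} : Set (Fin (m + 1))).domRestrict (fun _ : Fin (m + 1) => y)) := by
    constructor
    · intro i
      exact hy
    · rintro ⟨i, hi⟩ ⟨j, hj⟩ hij
      simp only [Set.mem_singleton_iff] at hi hj
      subst hi; subst hj
      exact absurd rfl hij
  obtain ⟨b, hb⟩ := hv.exists_orthonormalBasis_extension_of_card_eq (by simp)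
  exact ⟨b, hb _ rfl⟩

/-- The projection volume in orthonormal coordinates of `u^⊥`. -/
theorem projVol_eq {m : ℕ} {K : Set (EE (m + 1))} (hK : IsCompact K)
    (b : OrthonormalBasis (Fin (m + 1)) ℝ (EE (m + 1))) :
    projVol K (b (Fin.last m)) = (volume (cmap b '' K)).toReal := by
  set u := b (Fin.last m) with hu
  have hun : ‖u‖ = 1 := b.norm_eq_one _
  have hu0 : u ≠ 0 := by
    intro h
    rw [h, norm_zero] at hun
    exact zero_ne_one hun
  have mem : ∀ i : Fin m, b i.castSucc ∈ (ℝ ∙ u)ᗮ := by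
    intro i
    rw [Submodule.mem_orthogonal_singleton_iff_inner_right]
    exact b_inner_ne b (Fin.castSucc_lt_last i).ne'
  have : Fact (finrank ℝ (EE (m + 1)) = m + 1) := ⟨by simp⟩
  have hfin : finrank ℝ (ℝ ∙ u)ᗮ = m := Submodule.finrank_orthogonal_span_singleton hu0
  let v : Fin m → (ℝ ∙ u)ᗮ := fun i => ⟨b i.castSucc, mem i⟩
  have hv : Orthonormal ℝ ((univ : Set (Fin m)).domRestrict v) := by
    constructor
    · rintro ⟨i, -⟩
      simp [v]
    · rintro ⟨a, ha⟩ ⟨c, hc⟩ hac
      have hne : a.castSucc ≠ c.castSucc := fun h =>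
        hac (Subtype.ext (Fin.castSucc_injective _ h))
      simpa [v] using b_inner_ne b hne
  obtain ⟨f, hf⟩ := hv.exists_orthonormalBasis_extension_of_card_eq (by simpa using hfin)
  have key : ∀ x : EE (m + 1), f.repr ((ℝ ∙ u)ᗮ.orthogonalProjectionOnto x) = cmap b x := by
    intro x
    ext i
    rw [OrthonormalBasis.repr_apply_apply, hf i (mem_univ _),
      Submodule.inner_orthogonalProjectionOnto_eq_of_mem_left]
    simp [v]
  have hPc : IsCompact ((ℝ ∙ u)ᗮ.orthogonalProjectionOnto '' K) :=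
    hK.image (ContinuousLinearMap.continuous _)
  have himg : cmap b '' K = f.repr.symm ⁻¹' ((ℝ ∙ u)ᗮ.orthogonalProjectionOnto '' K) := by
    ext q
    constructor
    · rintro ⟨x, hx, rfl⟩
      refine ⟨x, hx, ?_⟩
      rw [← key x, LinearIsometryEquiv.symm_apply_apply]
    · rintro ⟨x, hx, hxq⟩
      refine ⟨x, hx, ?_⟩
      rw [← key x, hxq, LinearIsometryEquiv.apply_symm_apply]
  unfold projVol
  rw [himg, f.measurePreserving_repr_symm.measure_preimage hPc.measurableSet.nullMeasurableSet]

/-! ### Brunn-Minkowski -/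

section BM

variable {n : ℕ}

/-- Scaling of the volume. -/
lemma vol_smul {c : ℝ} (hc : 0 ≤ c) (X : Set (EE n)) :
    volume (c • X) = ENNReal.ofReal (c ^ n) * volume X := by
  rw [Measure.addHaar_smul, finrank_euclideanSpace_fin, abs_of_nonneg (by positivity)]

lemma vol_smul_real {c : ℝ} (hc : 0 ≤ c) (X : Set (EE n)) :
    (volume (c • X)).toReal = c ^ n * (volume X).toReal := by
  rw [vol_smul hc, ENNReal.toReal_mul, ENNReal.toReal_ofReal (by positivity)]

/-- The `n`-th root of the volume. -/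
def rootVol (A : Set (EE n)) : ℝ := (volume A).toReal ^ ((n : ℝ)⁻¹)

lemma rootVol_nonneg (A : Set (EE n)) : 0 ≤ rootVol A := Real.rpow_nonneg ENNReal.toReal_nonneg _

lemma rootVol_pow (hn : n ≠ 0) (A : Set (EE n)) : rootVol A ^ n = (volume A).toReal := by
  unfold rootVol
  rw [← Real.rpow_natCast, ← Real.rpow_mul ENNReal.toReal_nonneg,
    inv_mul_cancel₀ (by exact_mod_cast hn), Real.rpow_one]

lemma rootVol_of_pow {A : Set (EE n)} (hn : n ≠ 0) {a : ℝ} (ha : 0 ≤ a)
    (h : (volume A).toReal = a ^ n) : rootVol A = a := by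
  unfold rootVol
  rw [h, ← Real.rpow_natCast, ← Real.rpow_mul ha, mul_inv_cancel₀ (by exact_mod_cast hn),
    Real.rpow_one]

lemma volume_eq_rootVol (hn : n ≠ 0) {A : Set (EE n)} (hA : IsCompact A) :
    volume A = ENNReal.ofReal (rootVol A ^ n) := by
  rw [rootVol_pow hn, ENNReal.ofReal_toReal hA.measure_lt_top.ne]

lemma rootVol_mono {A B : Set (EE n)} (hB : IsCompact B) (hAB : A ⊆ B) : rootVol A ≤ rootVol B := by
  apply Real.rpow_le_rpow ENNReal.toReal_nonneg _ (by positivity)
  exact ENNReal.toReal_mono hB.measure_lt_top.ne (measure_mono hAB)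

/-- A scaled translate inside `C` bounds the volume of `C` from below. -/
lemma scaled_le (hn : n ≠ 0) {B C : Set (EE n)} (hB : IsCompact B) (hC : IsCompact C) {c : ℝ}
    (hc : 0 ≤ c) (x₀ : EE n) (H : ∀ y ∈ B, c • y + x₀ ∈ C) : c * rootVol B ≤ rootVol C := by
  have hsub : (fun z => z + x₀) '' (c • B) ⊆ C := by
    rintro _ ⟨_, ⟨y, hy, rfl⟩, rfl⟩
    exact H y hy
  have h1 : volume ((fun z => z + x₀) '' (c • B)) = volume (c • B) := by
    rw [Set.image_add_right, measure_preimage_add_right]
  have h2 := measure_mono (μ := volume) hsub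
  rw [h1, vol_smul hc, volume_eq_rootVol hn hB, volume_eq_rootVol hn hC,
    ← ENNReal.ofReal_mul (by positivity), ENNReal.ofReal_le_ofReal_iff (by
      have := rootVol_nonneg C
      positivity)] at h2
  have h3 : (c * rootVol B) ^ n ≤ rootVol C ^ n := by
    rw [mul_pow]
    exact h2
  exact (pow_le_pow_iff_left₀ (mul_nonneg hc (rootVol_nonneg B)) (rootVol_nonneg C) hn).mp h3

/-- **Brunn-Minkowski**, additive form. -/
theorem bm_comb (hn : n ≠ 0) {A B C : Set (EE n)} (hA : IsCompact A) (hB : IsCompact B)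
    (hC : IsCompact C) (hA' : A.Nonempty) (hB' : B.Nonempty) {l : ℝ} (l0 : 0 ≤ l) (l1 : l ≤ 1)
    (H : ∀ x ∈ A, ∀ y ∈ B, (1 - l) • x + l • y ∈ C) :
    (1 - l) * rootVol A + l * rootVol B ≤ rootVol C := by
  obtain ⟨x₁, hx₁⟩ := hA'
  obtain ⟨y₁, hy₁⟩ := hB'
  have hBle : l * rootVol B ≤ rootVol C :=
    scaled_le hn hB hC l0 ((1 - l) • x₁) (fun y hy => by
      rw [add_comm]
      exact H x₁ hx₁ y hy)
  have hAle : (1 - l) * rootVol A ≤ rootVol C :=
    scaled_le hn hA hC (by linarith) (l • y₁) (fun x hx => H x hx y₁ hy₁)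
  rcases (rootVol_nonneg A).eq_or_lt with hα | hα
  · rw [← hα, mul_zero, zero_add]
    exact hBle
  rcases (rootVol_nonneg B).eq_or_lt with hβ | hβ
  · rw [← hβ, mul_zero, add_zero]
    exact hAle
  rcases l0.eq_or_lt with hl | hl
  · rw [← hl] at hAle ⊢
    linarith
  rcases l1.eq_or_lt with hl' | hl'
  · rw [hl'] at hBle ⊢
    linarith
  set α := rootVol A with hαd
  set β := rootVol B with hβd
  set γ := rootVol C with hγd
  have hγ0 : 0 ≤ γ := rootVol_nonneg C
  have hml : 0 < 1 - l := by linarith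
  set s := (1 - l) * α + l * β with hs
  have hs0 : 0 < s := by positivity
  set t := l * β / s with ht
  have ht0 : 0 < t := by positivity
  have ht1 : t < 1 := by
    rw [ht, div_lt_one hs0, hs]
    have : 0 < (1 - l) * α := by positivity
    linarith
  have h1t : 1 - t = (1 - l) * α / s := by
    rw [ht, hs]
    field_simp
    ring
  have hPL := pl_sets (t := t) (A := α⁻¹ • A) (B := β⁻¹ • B) (C := s⁻¹ • C)
    (hA.smul _).measurableSet (hB.smul _).measurableSet (hC.smul _).measurableSet ht0 ht1 (by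
      rintro _ ⟨x, hx, rfl⟩ _ ⟨y, hy, rfl⟩
      refine ⟨(1 - l) • x + l • y, H x hx y hy, ?_⟩
      simp only [smul_add, smul_smul]
      have e1 : s⁻¹ * (1 - l) = (1 - t) * α⁻¹ := by
        rw [h1t]
        field_simp
      have e2 : s⁻¹ * l = t * β⁻¹ := by
        rw [ht]
        field_simp
      rw [e1, e2])
  have hvA : volume (α⁻¹ • A) = 1 := by
    rw [vol_smul (by positivity), volume_eq_rootVol hn hA, ← hαd, ← ENNReal.ofReal_mul (by positivity)]
    rw [show (α⁻¹) ^ n * α ^ n = 1 by rw [← mul_pow, inv_mul_cancel₀ hα.ne', one_pow]]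
    simp
  have hvB : volume (β⁻¹ • B) = 1 := by
    rw [vol_smul (by positivity), volume_eq_rootVol hn hB, ← hβd, ← ENNReal.ofReal_mul (by positivity)]
    rw [show (β⁻¹) ^ n * β ^ n = 1 by rw [← mul_pow, inv_mul_cancel₀ hβ.ne', one_pow]]
    simp
  rw [hvA, hvB, vol_smul (by positivity), volume_eq_rootVol hn hC, ← hγd,
    ← ENNReal.ofReal_mul (by positivity)] at hPL
  simp only [ENNReal.one_rpow, one_mul] at hPL
  rw [show (1 : ℝ≥0∞) = ENNReal.ofReal 1 by simp,
    ENNReal.ofReal_le_ofReal_iff (by positivity)] at hPL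
  have h2 : s ^ n ≤ γ ^ n := by
    have : (s⁻¹) ^ n * γ ^ n * s ^ n = γ ^ n := by
      have e : (s⁻¹) ^ n * s ^ n = 1 := by rw [← mul_pow, inv_mul_cancel₀ hs0.ne', one_pow]
      calc (s⁻¹) ^ n * γ ^ n * s ^ n = ((s⁻¹) ^ n * s ^ n) * γ ^ n := by ring
        _ = γ ^ n := by rw [e, one_mul]
    calc s ^ n = 1 * s ^ n := by ring
      _ ≤ (s⁻¹) ^ n * γ ^ n * s ^ n := by
          apply mul_le_mul_of_nonneg_right hPL (by positivity)
      _ = γ ^ n := this
  exact (pow_le_pow_iff_left₀ hs0.le hγ0 hn).mp h2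

/-- Brunn-Minkowski for a sum `A + c B`. -/
lemma bm_add (hn : n ≠ 0) {A B C : Set (EE n)} (hA : IsCompact A) (hB : IsCompact B)
    (hC : IsCompact C) (hA' : A.Nonempty) (hB' : B.Nonempty) {c : ℝ} (hc : 0 ≤ c)
    (H : ∀ x ∈ A, ∀ y ∈ B, x + c • y ∈ C) : rootVol A + c * rootVol B ≤ rootVol C := by
  have hs : 0 < 1 + c := by linarith
  set s := 1 + c with hsdef
  set l := c / s with hl
  have hl0 : 0 ≤ l := by positivity
  have hl1 : l ≤ 1 := by
    rw [hl, div_le_one hs]
    linarith
  have hml : 1 - l = 1 / s := by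
    rw [hl, hsdef]
    field_simp
    ring
  have hCs : IsCompact (s⁻¹ • C) := hC.smul _
  have hb := bm_comb hn hA hB hCs hA' hB' hl0 hl1 (fun x hx y hy => by
    refine ⟨x + c • y, H x hx y hy, ?_⟩
    simp only [smul_add, smul_smul]
    rw [hml, hl]
    congr 2
    · field_simp
    · field_simp)
  have hroot : rootVol (s⁻¹ • C) = s⁻¹ * rootVol C := by
    apply rootVol_of_pow hn (by have := rootVol_nonneg C; positivity)
    rw [vol_smul_real (by positivity), mul_pow, rootVol_pow hn]
  rw [hroot, hml, hl] at hb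
  have h3 : s * ((1 / s) * rootVol A + c / s * rootVol B) ≤ s * (s⁻¹ * rootVol C) :=
    mul_le_mul_of_nonneg_left hb hs.le
  have e1 : s * ((1 / s) * rootVol A + c / s * rootVol B) = rootVol A + c * rootVol B := by
    field_simp
  have e2 : s * (s⁻¹ * rootVol C) = rootVol C := by
    field_simp
  rwa [e1, e2] at h3

end BM

end

end Vale.Agent.Lib.P237.PN
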