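import Vale.Agent.Lib.P237.PN.Basic
import Vale.Agent.Lib.P237.PN.BL

/-!
# John averaging in general dimension

`john_average`: `K` compact convex symmetric, containing the unit ball, with a decomposition of the
identity by contact directions `y i` (`⟪x, y i⟫ ≤ 1` on `K`).  Then for some `i`,
`|K|^(m - 1 + 1/(m+1)) ≤ (2 ∫_0^1 rr (b i) K t dt)^m`, where `rr b K t = (vol_m (sec b K t))^((m-1)/m)`.

Proof: Brascamp-Lieb (`barthe_bl`) for the densities `rr/∫rr`, and Hölder on `K` for the family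
`∏ dens_i(⟪y_i,x⟫)^(c_i)`, `secA_i(⟪y_i,x⟫)^(-1/m)`, using `∫_K secA_i(⟪y_i,x⟫)^(-1/m) dx = ∫ rr_i`.
-/

open MeasureTheory Set Module Filter Topology
open scoped RealInnerProductSpace ENNReal Pointwise

namespace Vale.Agent.Lib.P237.PN

noncomputable section

section OneFrame

variable {m : ℕ} (b : OrthonormalBasis (Fin (m + 1)) ℝ (EE (m + 1))) {K : Set (EE (m + 1))}

/-- The volume of the section of `K` at height `t`. -/
def secA (K : Set (EE (m + 1))) (t : ℝ) : ℝ := (volume (sec b K t)).toReal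

/-- The power `(m-1)/m` of the volume of the section of `K` at height `t`. -/
def rr (K : Set (EE (m + 1))) (t : ℝ) : ℝ := secA b K t ^ (((m : ℝ) - 1) / m)

lemma secA_nonneg (t : ℝ) : 0 ≤ secA b K t := ENNReal.toReal_nonneg

lemma rr_nonneg (t : ℝ) : 0 ≤ rr b K t := Real.rpow_nonneg (secA_nonneg b t) _

/-- The layer-cake formula for functions of the height. -/
lemma lintegral_marginal (hK : MeasurableSet K) {F : ℝ → ℝ≥0∞} (hF : Measurable F) :
    ∫⁻ x in K, F ⟪b (Fin.last m), x⟫ = ∫⁻ t, volume (sec b K t) * F t := by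
  rw [← lintegral_indicator hK]
  have hinner : Continuous fun x : EE (m + 1) => ⟪b (Fin.last m), x⟫ :=
    continuous_const.inner continuous_id
  have hmeas : Measurable (K.indicator fun x : EE (m + 1) => F ⟪b (Fin.last m), x⟫) :=
    (hF.comp hinner.measurable).indicator hK
  have hm2 : AEMeasurable (fun q : EE m × ℝ =>
      K.indicator (fun x : EE (m + 1) => F ⟪b (Fin.last m), x⟫) (pt b q.1 q.2))
      ((volume : Measure (EE m)).prod (volume : Measure ℝ)) :=
    (hmeas.comp (pt_continuous₂ b).measurable).aemeasurable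
  rw [← (mp_pt b).lintegral_comp hmeas, Measure.volume_eq_prod, lintegral_prod_symm _ hm2]
  refine lintegral_congr fun t => ?_
  have e : (fun p : EE m => K.indicator (fun x : EE (m + 1) => F ⟪b (Fin.last m), x⟫) (pt b p t)) =
      (sec b K t).indicator (fun _ => F t) := by
    funext p
    by_cases hp : pt b p t ∈ K
    · rw [indicator_of_mem hp, indicator_of_mem (show p ∈ sec b K t from hp), inner_pt_last]
    · rw [indicator_of_notMem hp, indicator_of_notMem (show p ∉ sec b K t from hp)]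
  have hs : MeasurableSet (sec b K t) := (pt_continuous b t).measurable hK
  simp only
  rw [e, lintegral_indicator hs, setLIntegral_const, mul_comm]

lemma secA_measurable (hK : MeasurableSet K) : Measurable (secA b K) :=
  (measurable_volume_sec b hK).ennreal_toReal

lemma rr_measurable (hK : MeasurableSet K) : Measurable (rr b K) :=
  (secA_measurable b hK).pow_const _

variable (hK : IsCompact K) (hKc : Convex ℝ K) (hsym : ∀ x ∈ K, -x ∈ K)
  (hB : Metric.closedBall (0 : EE (m + 1)) 1 ⊆ K)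
  (hw : ∀ x ∈ K, ⟪x, b (Fin.last m)⟫ ≤ 1)

include hB in
lemma sec_of_sq_le {p : EE m} {t : ℝ} (h : ‖p‖ ^ 2 + t ^ 2 ≤ 1) : p ∈ sec b K t := by
  refine hB ?_
  rw [mem_closedBall_zero_iff]
  have h2 : ‖pt b p t‖ ^ 2 ≤ 1 := by rwa [norm_sq_pt]
  exact (pow_le_one_iff_of_nonneg (norm_nonneg _) two_ne_zero).mp h2

include hB in
lemma sec_nonempty {t : ℝ} (ht : |t| ≤ 1) : (sec b K t).Nonempty := by
  refine ⟨0, sec_of_sq_le b hB ?_⟩
  have := sq_abs t
  simp only [norm_zero]
  nlinarith [abs_nonneg t]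

include hsym hw in
lemma abs_le_one_of_mem_sec {t : ℝ} {p : EE m} (hp : p ∈ sec b K t) : |t| ≤ 1 := by
  have h1 := hw _ hp
  have h2 := hw _ (hsym _ hp)
  rw [real_inner_comm, inner_pt_last] at h1
  rw [inner_neg_left, real_inner_comm, inner_pt_last] at h2
  exact abs_le.mpr ⟨by linarith, h1⟩

include hsym hw in
lemma sec_eq_empty {t : ℝ} (ht : 1 < |t|) : sec b K t = ∅ := by
  ext p
  simp only [mem_empty_iff_false, iff_false]
  intro hp
  have := abs_le_one_of_mem_sec b hsym hw hp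
  linarith

include hsym hw in
lemma secA_eq_zero {t : ℝ} (ht : 1 < |t|) : secA b K t = 0 := by
  unfold secA
  rw [sec_eq_empty b hsym hw ht]
  simp

include hKc hB in
lemma ball_subset_sec {t : ℝ} (ht : |t| < 1) :
    Metric.closedBall (0 : EE m) (1 - |t|) ⊆ sec b K t := by
  intro p hp
  rw [mem_closedBall_zero_iff] at hp
  set r : ℝ := 1 - |t| with hr
  have hr0 : 0 < r := by linarith
  have hq : (r⁻¹ • p) ∈ sec b K 0 := by
    refine sec_of_sq_le b hB ?_
    have h1 : ‖r⁻¹ • p‖ ≤ 1 := by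
      rw [norm_smul, Real.norm_of_nonneg (inv_pos.mpr hr0).le]
      rw [inv_mul_le_iff₀ hr0]
      linarith
    have h2 : ‖r⁻¹ • p‖ ^ 2 ≤ 1 := (pow_le_one_iff_of_nonneg (norm_nonneg _) two_ne_zero).mpr h1
    simpa using h2
  have hu : ∀ s : ℝ, |s| = 1 → (0 : EE m) ∈ sec b K s := by
    intro s hs
    refine sec_of_sq_le b hB ?_
    have := sq_abs s
    rw [hs] at this
    simp only [norm_zero]
    nlinarith
  obtain ⟨s, hs1, hs2⟩ : ∃ s : ℝ, |s| = 1 ∧ |t| * s = t := by
    rcases le_total 0 t with h0 | h0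
    · exact ⟨1, abs_one, by rw [abs_of_nonneg h0, mul_one]⟩
    · exact ⟨-1, by simp, by rw [abs_of_nonpos h0]; ring⟩
  have h := sec_comb b hKc hr0.le (abs_nonneg t) (by rw [hr]; ring) hq (hu s hs1)
  have e1 : r • (r⁻¹ • p) + |t| • (0 : EE m) = p := by
    rw [smul_smul, mul_inv_cancel₀ hr0.ne', one_smul, smul_zero, add_zero]
  have e2 : r * 0 + |t| * s = t := by rw [hs2]; ring
  rwa [e1, e2] at h

include hK hKc hB in
lemma secA_pos {t : ℝ} (ht : |t| < 1) : 0 < secA b K t := by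
  have h1 := ball_subset_sec b hKc hB ht
  have h2 : 0 < volume (Metric.closedBall (0 : EE m) (1 - |t|)) :=
    Metric.measure_closedBall_pos _ _ (by linarith)
  have h3 := lt_of_lt_of_le h2 (measure_mono h1)
  exact ENNReal.toReal_pos h3.ne' (sec_compact b hK t).measure_lt_top.ne

include hK in
lemma volume_sec_lt_top (t : ℝ) : volume (sec b K t) < ⊤ := (sec_compact b hK t).measure_lt_top

include hsym in
lemma secA_neg (t : ℝ) : secA b K (-t) = secA b K t := by
  unfold secA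
  rw [sec_neg_eq b hsym, Measure.measure_neg]

include hsym in
lemma rr_neg (t : ℝ) : rr b K (-t) = rr b K t := by
  unfold rr
  rw [secA_neg b hsym]

include hK in
/-- Sections are uniformly bounded in volume. -/
lemma secA_le : ∃ M : ℝ, 0 ≤ M ∧ ∀ t, secA b K t ≤ M := by
  obtain ⟨R, hR⟩ := hK.isBounded.exists_norm_le
  refine ⟨(volume (Metric.closedBall (0 : EE m) (max R 0))).toReal, ENNReal.toReal_nonneg, fun t => ?_⟩
  refine ENNReal.toReal_mono (isCompact_closedBall _ _).measure_lt_top.ne (measure_mono ?_)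
  intro p hp
  rw [mem_closedBall_zero_iff]
  have h1 : ‖pt b p t‖ ≤ R := hR _ hp
  have h2 := norm_sq_pt b p t
  have h3 : ‖p‖ ^ 2 ≤ ‖pt b p t‖ ^ 2 := by nlinarith [sq_nonneg t]
  exact (((pow_le_pow_iff_left₀ (norm_nonneg _) (norm_nonneg _) two_ne_zero).mp h3).trans h1).trans
    (le_max_left _ _)

include hK hKc in
/-- Brunn-Minkowski for the sections. -/
lemma rootVol_comb (hm : m ≠ 0) {s t a c : ℝ} (ha : 0 ≤ a) (hc : 0 ≤ c)
    (hac : a + c = 1) (hs : (sec b K s).Nonempty) (ht : (sec b K t).Nonempty) :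
    a * rootVol (sec b K s) + c * rootVol (sec b K t) ≤ rootVol (sec b K (a * s + c * t)) := by
  have hE : a = 1 - c := by linarith
  have := bm_comb hm (sec_compact b hK s) (sec_compact b hK t) (sec_compact b hK (a * s + c * t))
    hs ht hc (by linarith : c ≤ 1) (fun x hx y hy => by
      rw [← hE]
      exact sec_comb b hKc ha hc hac hx hy)
  rw [← hE] at this
  exact this

include hK hKc hB in
lemma rootVol_concave (hm : m ≠ 0) :
    ConcaveOn ℝ (Icc (-1) 1) (fun t => rootVol (sec b K t)) := by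
  refine ⟨convex_Icc _ _, ?_⟩
  intro s hs t ht a c ha hc hac
  have hs' : |s| ≤ 1 := abs_le.mpr hs
  have ht' : |t| ≤ 1 := abs_le.mpr ht
  have := rootVol_comb b hK hKc hm ha hc hac (sec_nonempty b hB hs') (sec_nonempty b hB ht')
  simpa [smul_eq_mul] using this

include hK hKc hB in
lemma secA_continuousOn (hm : m ≠ 0) : ContinuousOn (secA b K) (Ioo (-1) 1) := by
  have h := (rootVol_concave b hK hKc hB hm).continuousOn_interior
  rw [interior_Icc] at h
  have e : secA b K = fun t => rootVol (sec b K t) ^ m := by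
    funext t
    rw [rootVol_pow hm]
    rfl
  rw [e]
  exact h.pow m

include hK hKc hB in
lemma rr_continuousOn (hm : 2 ≤ m) : ContinuousOn (rr b K) (Ioo (-1) 1) := by
  have hm0 : m ≠ 0 := by omega
  have h := secA_continuousOn b hK hKc hB hm0
  refine h.rpow_const fun t _ => Or.inr ?_
  have : (2 : ℝ) ≤ m := by exact_mod_cast hm
  apply div_nonneg <;> linarith

include hK hKc hB in
lemma rr_pos {t : ℝ} (ht : t ∈ Ioo (-1 : ℝ) 1) : 0 < rr b K t :=
  Real.rpow_pos_of_pos (secA_pos b hK hKc hB (abs_lt.mpr ht)) _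

end OneFrame

section OneFrameB

variable {m : ℕ} (b : OrthonormalBasis (Fin (m + 1)) ℝ (EE (m + 1))) {K : Set (EE (m + 1))}
variable (hK : IsCompact K) (hKc : Convex ℝ K) (hsym : ∀ x ∈ K, -x ∈ K)
  (hB : Metric.closedBall (0 : EE (m + 1)) 1 ⊆ K)
  (hw : ∀ x ∈ K, ⟪x, b (Fin.last m)⟫ ≤ 1)

/-- The total mass of the power of the section volume. -/
def rrInt (K : Set (EE (m + 1))) : ℝ := ∫ t in Ioo (-1 : ℝ) 1, rr b K t

include hK in
lemma rr_integrableOn (hm : 2 ≤ m) : IntegrableOn (rr b K) (Ioo (-1 : ℝ) 1) := by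
  obtain ⟨M, hM0, hM⟩ := secA_le b hK
  have hθ : 0 ≤ ((m : ℝ) - 1) / m := by
    have : (2 : ℝ) ≤ m := by exact_mod_cast hm
    apply div_nonneg <;> linarith
  refine Measure.integrableOn_of_bounded (M := M ^ (((m : ℝ) - 1) / m)) (by simp)
    (rr_measurable b hK.measurableSet).aestronglyMeasurable ?_
  refine Eventually.of_forall fun t => ?_
  rw [Real.norm_of_nonneg (rr_nonneg b t)]
  exact Real.rpow_le_rpow (secA_nonneg b t) (hM t) hθ

include hK in
lemma rr_intervalIntegrable (hm : 2 ≤ m) {s t : ℝ} (hs : s ∈ Icc (-1 : ℝ) 1) (ht : t ∈ Icc (-1 : ℝ) 1) :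
    IntervalIntegrable (rr b K) volume s t := by
  have h : IntegrableOn (rr b K) (Ioc (-1 : ℝ) 1) := by
    rw [integrableOn_Ioc_iff_integrableOn_Ioo]
    exact rr_integrableOn b hK hm
  have h2 : IntervalIntegrable (rr b K) volume (-1) 1 :=
    (intervalIntegrable_iff_integrableOn_Ioc_of_le (by norm_num)).mpr h
  refine h2.mono_set ?_
  rw [uIcc_of_le (by norm_num : (-1 : ℝ) ≤ 1)]
  exact uIcc_subset_Icc hs ht

include hK hKc hB in
lemma rrInt_pos (hm : 2 ≤ m) : 0 < rrInt b K := by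
  unfold rrInt
  rw [setIntegral_pos_iff_support_of_nonneg_ae (Eventually.of_forall (rr_nonneg b))
    (rr_integrableOn b hK hm)]
  have hsub : Ioo (-1 : ℝ) 1 ⊆ Function.support (rr b K) ∩ Ioo (-1 : ℝ) 1 :=
    fun t ht => ⟨(rr_pos b hK hKc hB ht).ne', ht⟩
  refine lt_of_lt_of_le ?_ (measure_mono hsub)
  simp

include hK hsym in
lemma rrInt_eq (hm : 2 ≤ m) : rrInt b K = 2 * ∫ t in (0 : ℝ)..1, rr b K t := by
  have h1 : rrInt b K = ∫ t in (-1 : ℝ)..1, rr b K t := by
    unfold rrInt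
    rw [intervalIntegral.integral_of_le (by norm_num), integral_Ioc_eq_integral_Ioo]
  have h0 : (0 : ℝ) ∈ Icc (-1 : ℝ) 1 := by constructor <;> norm_num
  have hm1 : (-1 : ℝ) ∈ Icc (-1 : ℝ) 1 := by constructor <;> norm_num
  have hp1 : (1 : ℝ) ∈ Icc (-1 : ℝ) 1 := by constructor <;> norm_num
  rw [h1, ← intervalIntegral.integral_add_adjacent_intervals
    (rr_intervalIntegrable b hK hm hm1 h0) (rr_intervalIntegrable b hK hm h0 hp1)]
  have h2 : ∫ t in (-1 : ℝ)..0, rr b K t = ∫ t in (0 : ℝ)..1, rr b K t := by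
    have := intervalIntegral.integral_comp_neg (a := (0 : ℝ)) (b := 1) (rr b K)
    simp only [neg_zero] at this
    rw [← this]
    exact intervalIntegral.integral_congr fun t _ => rr_neg b hsym t
  rw [h2]
  ring

/-- The normalised density of the power of the section volume. -/
def dens (K : Set (EE (m + 1))) : ℝ → ℝ :=
  (Ioo (-1 : ℝ) 1).indicator fun t => rr b K t / rrInt b K

include hK hKc hB in
lemma dens_isDens (hm : 2 ≤ m) : IsDens (dens b K) (-1) 1 := by
  have hZ := rrInt_pos b hK hKc hB hm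
  have hI : IntegrableOn (fun t => rr b K t / rrInt b K) (Ioo (-1 : ℝ) 1) :=
    (rr_integrableOn b hK hm).div_const _
  refine ⟨?_, ?_, ?_, ?_, ?_⟩
  · intro t ht
    unfold dens
    rw [indicator_of_mem ht]
    exact div_pos (rr_pos b hK hKc hB ht) hZ
  · refine ((rr_continuousOn b hK hKc hB hm).div_const (rrInt b K)).congr ?_
    intro t ht
    unfold dens
    rw [indicator_of_mem ht]
  · intro t ht
    unfold dens
    rw [indicator_of_notMem ht]
  · exact (integrable_indicator_iff measurableSet_Ioo).mpr hI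
  · unfold dens
    rw [integral_indicator measurableSet_Ioo, integral_div]
    exact div_self hZ.ne'

lemma dens_of_mem {t : ℝ} (ht : t ∈ Ioo (-1 : ℝ) 1) :
    dens b K t = rr b K t / rrInt b K := by
  unfold dens
  rw [indicator_of_mem ht]

/-- The integral over `K` of the power `-1/m` of the section volume through the point. -/
lemma lintegral_neg_power (hK' : IsCompact K) (hsym' : ∀ x ∈ K, -x ∈ K)
    (hw' : ∀ x ∈ K, ⟪x, b (Fin.last m)⟫ ≤ 1) (hm : 2 ≤ m) :
    ∫⁻ x in K, ENNReal.ofReal (secA b K ⟪b (Fin.last m), x⟫ ^ (-(1 / (m : ℝ)))) =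
      ENNReal.ofReal (rrInt b K) := by
  have hm0 : (m : ℝ) ≠ 0 := by
    have : (2 : ℝ) ≤ m := by exact_mod_cast hm
    linarith
  have hm2 : (2 : ℝ) ≤ m := by exact_mod_cast hm
  have hKm := hK'.measurableSet
  have hF : Measurable fun t => ENNReal.ofReal (secA b K t ^ (-(1 / (m : ℝ)))) :=
    ((secA_measurable b hKm).pow_const _).ennreal_ofReal
  rw [lintegral_marginal b hKm hF]
  have hpt : ∀ t, volume (sec b K t) * ENNReal.ofReal (secA b K t ^ (-(1 / (m : ℝ)))) =
      ENNReal.ofReal (rr b K t) := by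
    intro t
    have hv : volume (sec b K t) = ENNReal.ofReal (secA b K t) :=
      (ENNReal.ofReal_toReal (sec_compact b hK' t).measure_lt_top.ne).symm
    rw [hv, ← ENNReal.ofReal_mul (secA_nonneg b t)]
    congr 1
    unfold rr
    rcases (secA_nonneg b (K := K) t).eq_or_lt with h0 | hpos
    · rw [← h0]
      have hne : ((m : ℝ) - 1) / m ≠ 0 := by
        apply div_ne_zero <;> linarith
      rw [Real.zero_rpow hne, zero_mul]
    · nth_rewrite 1 [← Real.rpow_one (secA b K t)]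
      rw [← Real.rpow_add hpos]
      congr 1
      field_simp
      ring
  simp only [hpt]
  have hzero : ∀ t, t ∉ Icc (-1 : ℝ) 1 → rr b K t = 0 := by
    intro t ht
    have h1 : 1 < |t| := by
      by_contra hno
      exact ht (abs_le.mp (not_lt.mp hno))
    unfold rr
    rw [secA_eq_zero b hsym' hw' h1, Real.zero_rpow]
    apply div_ne_zero <;> linarith
  have h1 : ∫⁻ t, ENNReal.ofReal (rr b K t) = ∫⁻ t in Icc (-1 : ℝ) 1, ENNReal.ofReal (rr b K t) := by
    rw [← lintegral_indicator measurableSet_Icc]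
    refine lintegral_congr fun t => ?_
    by_cases ht : t ∈ Icc (-1 : ℝ) 1
    · rw [indicator_of_mem ht]
    · rw [indicator_of_notMem ht, hzero t ht, ENNReal.ofReal_zero]
  rw [h1, setLIntegral_congr (Ioo_ae_eq_Icc (a := (-1 : ℝ)) (b := 1)).symm]
  unfold rrInt
  rw [ofReal_integral_eq_lintegral_ofReal (rr_integrableOn b hK' hm)
    (Eventually.of_forall (rr_nonneg b))]

/-- Almost every point of `K` lies strictly between the two supporting hyperplanes. -/
lemma ae_mem_Ioo (hK' : IsCompact K) (hsym' : ∀ x ∈ K, -x ∈ K)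
    (hw' : ∀ x ∈ K, ⟪x, b (Fin.last m)⟫ ≤ 1) :
    ∀ᵐ x ∂(volume.restrict K), ⟪b (Fin.last m), x⟫ ∈ Ioo (-1 : ℝ) 1 := by
  have hKm := hK'.measurableSet
  set S : Set ℝ := {1, -1} with hS
  have hSm : MeasurableSet S := (Set.toFinite S).measurableSet
  have hSnull : volume S = 0 := (Set.toFinite S).measure_zero _
  have hF : Measurable (S.indicator fun _ : ℝ => (1 : ℝ≥0∞)) :=
    measurable_const.indicator hSm
  have h := lintegral_marginal b hKm hF
  have h0 : ∫⁻ t, volume (sec b K t) * S.indicator (fun _ : ℝ => (1 : ℝ≥0∞)) t = 0 := by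
    have hae : ∀ᵐ t : ℝ, t ∉ S := measure_eq_zero_iff_ae_notMem.mp hSnull
    have h2 : (fun t => volume (sec b K t) * S.indicator (fun _ : ℝ => (1 : ℝ≥0∞)) t) =ᵐ[volume]
        fun _ => 0 := by
      filter_upwards [hae] with t ht
      simp [indicator_of_notMem ht]
    rw [lintegral_congr_ae h2]
    simp
  rw [h0] at h
  have hm2 : Measurable fun x : EE (m + 1) =>
      S.indicator (fun _ : ℝ => (1 : ℝ≥0∞)) ⟪b (Fin.last m), x⟫ :=
    hF.comp (continuous_const.inner continuous_id).measurable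
  rw [lintegral_eq_zero_iff hm2] at h
  filter_upwards [h, ae_restrict_mem hKm] with x hx hxK
  have h1 : ⟪b (Fin.last m), x⟫ ∉ S := by
    intro hin
    have : S.indicator (fun _ : ℝ => (1 : ℝ≥0∞)) ⟪b (Fin.last m), x⟫ = 1 := indicator_of_mem hin _
    rw [show (S.indicator (fun _ : ℝ => (1 : ℝ≥0∞)) ⟪b (Fin.last m), x⟫) = 0 from hx] at this
    exact zero_ne_one this
  have h2 : ⟪b (Fin.last m), x⟫ ≤ 1 := by
    rw [real_inner_comm]
    exact hw' x hxK
  have h3 : -1 ≤ ⟪b (Fin.last m), x⟫ := by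
    have := hw' _ (hsym' x hxK)
    rw [inner_neg_left, real_inner_comm] at this
    linarith
  simp only [hS, mem_insert_iff, mem_singleton_iff, not_or] at h1
  exact ⟨lt_of_le_of_ne h3 (Ne.symm h1.2), lt_of_le_of_ne h2 h1.1⟩

end OneFrameB

section Main

private lemma jc_term {u Z c α θ w μ : ℝ} (hu : 0 < u) (hZ : 0 < Z) (h : w * μ = θ * c * α) :
    ((u ^ θ / Z) ^ c) ^ α * (u ^ (-μ)) ^ w = Z ^ (-(c * α)) := by
  have h0 : 0 < u ^ θ := Real.rpow_pos_of_pos hu _
  have h1 : 0 < u ^ θ / Z := div_pos h0 hZ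
  have h2 : 0 < (u ^ θ / Z) ^ c := Real.rpow_pos_of_pos h1 _
  have h3 : 0 < u ^ (-μ) := Real.rpow_pos_of_pos hu _
  have h4 : 0 < ((u ^ θ / Z) ^ c) ^ α := Real.rpow_pos_of_pos h2 _
  have h5 : 0 < (u ^ (-μ)) ^ w := Real.rpow_pos_of_pos h3 _
  have hR : 0 < Z ^ (-(c * α)) := Real.rpow_pos_of_pos hZ _
  refine Real.log_injOn_pos (mem_Ioi.mpr (mul_pos h4 h5)) (mem_Ioi.mpr hR) ?_
  rw [Real.log_mul h4.ne' h5.ne', Real.log_rpow h2, Real.log_rpow h1, Real.log_div h0.ne' hZ.ne',
    Real.log_rpow hu, Real.log_rpow h3, Real.log_rpow hu, Real.log_rpow hZ]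
  linear_combination (-Real.log u) * h

/-- **John averaging** in general dimension, from the geometric Brascamp-Lieb inequality and
Hölder's inequality. -/
theorem john_average {ι : Type*} [Fintype ι] {m : ℕ} (hm : 2 ≤ m) {K : Set (EE (m + 1))}
    (hK : IsCompact K) (hKc : Convex ℝ K) (hsym : ∀ x ∈ K, -x ∈ K)
    (hB : Metric.closedBall (0 : EE (m + 1)) 1 ⊆ K)
    (y : ι → EE (m + 1)) (c : ι → ℝ) (hc : ∀ i, 0 < c i) (hy : ∀ i, ‖y i‖ = 1)
    (hJ : ∀ x : EE (m + 1), ∑ i, c i * ⟪x, y i⟫ ^ 2 = ‖x‖ ^ 2)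
    (hw : ∀ i, ∀ x ∈ K, ⟪x, y i⟫ ≤ 1)
    (b : ι → OrthonormalBasis (Fin (m + 1)) ℝ (EE (m + 1))) (hb : ∀ i, b i (Fin.last m) = y i) :
    ∃ i, (volume K).toReal ^ ((m : ℝ) - 1 + 1 / ((m : ℝ) + 1)) ≤
      (2 * ∫ t in (0 : ℝ)..1, rr (b i) K t) ^ m := by
  classical
  have hm2 : (2 : ℝ) ≤ m := by exact_mod_cast hm
  have hm0 : (0 : ℝ) < m := by linarith
  have hw' : ∀ i, ∀ x ∈ K, ⟪x, b i (Fin.last m)⟫ ≤ 1 := fun i x hx => by
    rw [hb i]
    exact hw i x hx
  have hJ' : ∀ x : EE (m + 1), ∑ i, c i * ⟪y i, x⟫ ^ 2 = ‖x‖ ^ 2 := fun x => by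
    rw [← hJ x]
    exact Finset.sum_congr rfl fun i _ => by rw [real_inner_comm]
  have hsumc : ∑ i, c i = (m : ℝ) + 1 := by
    have := sum_weights_eq y c hy hJ'
    rw [this, finrank_euclideanSpace_fin]
    push_cast
    ring
  have hne : Nonempty ι := by
    by_contra hemp
    rw [not_nonempty_iff] at hemp
    simp at hsumc
    linarith
  set N : ℝ := (m : ℝ) + 1 with hN
  have hNpos : 0 < N := by rw [hN]; linarith
  set D : ℝ := 1 + ((m : ℝ) - 1) * N with hD
  have hDpos : 0 < D := by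
    have : 0 ≤ ((m : ℝ) - 1) * N := mul_nonneg (by linarith) hNpos.le
    rw [hD]
    linarith
  set α : ℝ := 1 / D with hα
  have hαpos : 0 < α := by positivity
  set Z : ι → ℝ := fun i => rrInt (b i) K with hZdef
  have hZ : ∀ i, 0 < Z i := fun i => rrInt_pos (b i) hK hKc hB hm
  have hKm := hK.measurableSet
  set V : ℝ := (volume K).toReal with hV
  have hvolK : volume K = ENNReal.ofReal V := (ENNReal.ofReal_toReal hK.measure_lt_top.ne).symm
  have hVpos : 0 < V := by
    have h2 : 0 < volume (Metric.closedBall (0 : EE (m + 1)) 1) :=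
      Metric.measure_closedBall_pos _ _ one_pos
    exact ENNReal.toReal_pos (lt_of_lt_of_le h2 (measure_mono hB)).ne' hK.measure_lt_top.ne
  have hBL := barthe_bl y c hc hy hJ' (fun i => dens (b i) K) (fun _ => -1) (fun _ => 1)
    (fun i => dens_isDens (b i) hK hKc hB hm)
  set G0 : EE (m + 1) → ℝ≥0∞ := fun x => ∏ i, ENNReal.ofReal (dens (b i) K ⟪y i, x⟫ ^ c i) with hG0
  set G1 : ι → EE (m + 1) → ℝ≥0∞ := fun i x =>
    ENNReal.ofReal (secA (b i) K ⟪y i, x⟫ ^ (-(1 / (m : ℝ)))) with hG1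
  set w : ι → ℝ := fun i => ((m : ℝ) - 1) * c i * α with hw1
  have hwnn : ∀ i, 0 ≤ w i := fun i => by
    have := hc i
    have h1 : 0 ≤ (m : ℝ) - 1 := by linarith
    positivity
  have hin : ∀ i, Measurable fun x : EE (m + 1) => ⟪y i, x⟫ := fun i =>
    (continuous_const.inner continuous_id).measurable
  have hdm : ∀ i, Measurable (dens (b i) K) := fun i =>
    ((rr_measurable (b i) hKm).div_const _).indicator measurableSet_Ioo
  have hG0m : Measurable G0 :=
    Finset.measurable_prod _ fun i _ => (((hdm i).comp (hin i)).pow_const _).ennreal_ofReal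
  have hG1m : ∀ i, Measurable (G1 i) := fun i =>
    (((secA_measurable (b i) hKm).comp (hin i)).pow_const _).ennreal_ofReal
  -- Hölder
  have hH := ENNReal.lintegral_prod_norm_pow_le (μ := volume.restrict K)
    (Finset.univ : Finset (Option ι)) (f := fun o => o.elim G0 G1)
    (p := fun o => o.elim α w)
    (by
      rintro (_ | i) _
      · exact hG0m.aemeasurable
      · exact (hG1m i).aemeasurable)
    (by
      rw [Fintype.sum_option]
      simp only [Option.elim]
      have : ∑ i, w i = ((m : ℝ) - 1) * N * α := by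
        simp only [hw1]
        rw [← hsumc, Finset.mul_sum, Finset.sum_mul]
      rw [this]
      rw [hα]
      field_simp
      rw [hD])
    (by
      rintro (_ | i) _
      · exact hαpos.le
      · exact hwnn i)
  simp only [Fintype.prod_option, Option.elim] at hH
  -- the left-hand side
  set κ : ℝ := ∏ i, Z i ^ (-(c i * α)) with hκ
  have hκpos : 0 < κ := Finset.prod_pos fun i _ => Real.rpow_pos_of_pos (hZ i) _
  have hae : ∀ᵐ x ∂(volume.restrict K), ∀ i, ⟪y i, x⟫ ∈ Ioo (-1 : ℝ) 1 := by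
    rw [ae_all_iff]
    intro i
    have := ae_mem_Ioo (b i) hK hsym (hw' i)
    rwa [hb i] at this
  have hpt : ∀ x : EE (m + 1), (∀ i, ⟪y i, x⟫ ∈ Ioo (-1 : ℝ) 1) →
      G0 x ^ α * ∏ i, G1 i x ^ w i = ENNReal.ofReal κ := by
    intro x hx
    set u : ι → ℝ := fun i => secA (b i) K ⟪y i, x⟫ with hu
    have hupos : ∀ i, 0 < u i := fun i =>
      secA_pos (b i) hK hKc hB (abs_lt.mpr (hx i))
    set θ : ℝ := ((m : ℝ) - 1) / m with hθ
    have hdens : ∀ i, dens (b i) K ⟪y i, x⟫ = u i ^ θ / Z i := fun i =>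
      dens_of_mem (b i) (hx i)
    have hterm0 : ∀ i, 0 ≤ (u i ^ θ / Z i) ^ c i := fun i =>
      Real.rpow_nonneg (div_nonneg (Real.rpow_nonneg (hupos i).le _) (hZ i).le) _
    have e0 : G0 x = ENNReal.ofReal (∏ i, (u i ^ θ / Z i) ^ c i) := by
      simp only [hG0, hdens]
      rw [ENNReal.ofReal_prod_of_nonneg fun i _ => hterm0 i]
    have e1 : ∀ i, G1 i x ^ w i = ENNReal.ofReal ((u i ^ (-(1 / (m : ℝ)))) ^ w i) := fun i => by
      simp only [hG1]
      rw [ENNReal.ofReal_rpow_of_nonneg (Real.rpow_nonneg (hupos i).le _) (hwnn i)]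
    rw [e0, ENNReal.ofReal_rpow_of_nonneg (Finset.prod_nonneg fun i _ => hterm0 i) hαpos.le]
    simp only [e1]
    rw [← ENNReal.ofReal_prod_of_nonneg
      (fun i _ => Real.rpow_nonneg (Real.rpow_nonneg (hupos i).le _) _),
      ← ENNReal.ofReal_mul (Real.rpow_nonneg (Finset.prod_nonneg fun i _ => hterm0 i) _)]
    congr 1
    rw [← Real.finset_prod_rpow _ _ (fun i _ => hterm0 i), ← Finset.prod_mul_distrib, hκ]
    refine Finset.prod_congr rfl fun i _ => ?_
    refine jc_term (hupos i) (hZ i) ?_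
    simp only [hw1, hθ]
    field_simp
  have hLHS : ∫⁻ x in K, G0 x ^ α * ∏ i, G1 i x ^ w i = ENNReal.ofReal κ * volume K := by
    have : (fun x => G0 x ^ α * ∏ i, G1 i x ^ w i) =ᵐ[volume.restrict K]
        fun _ => ENNReal.ofReal κ := by
      filter_upwards [hae] with x hx using hpt x hx
    rw [lintegral_congr_ae this, lintegral_const, Measure.restrict_apply_univ]
  -- the right-hand side
  have hI0 : (∫⁻ x in K, G0 x) ^ α ≤ 1 := by
    apply ENNReal.rpow_le_one _ hαpos.le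
    exact (setLIntegral_le_lintegral _ _).trans hBL
  have hI1 : ∀ i, ∫⁻ x in K, G1 i x = ENNReal.ofReal (Z i) := fun i => by
    have := lintegral_neg_power (b i) hK hsym (hw' i) hm
    rwa [hb i] at this
  have hRHS : (∫⁻ x in K, G0 x) ^ α * ∏ i, (∫⁻ x in K, G1 i x) ^ w i ≤
      ENNReal.ofReal (∏ i, Z i ^ w i) := by
    simp only [hI1]
    have e : ∏ i, ENNReal.ofReal (Z i) ^ w i = ENNReal.ofReal (∏ i, Z i ^ w i) := by
      rw [ENNReal.ofReal_prod_of_nonneg fun i _ => Real.rpow_nonneg (hZ i).le _]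
      exact Finset.prod_congr rfl fun i _ => ENNReal.ofReal_rpow_of_nonneg (hZ i).le (hwnn i)
    rw [e]
    calc _ ≤ 1 * ENNReal.ofReal (∏ i, Z i ^ w i) := by gcongr
      _ = _ := one_mul _
  rw [hLHS] at hH
  have hfinal := hH.trans hRHS
  rw [hvolK, ← ENNReal.ofReal_mul hκpos.le,
    ENNReal.ofReal_le_ofReal_iff (Finset.prod_nonneg fun i _ => Real.rpow_nonneg (hZ i).le _)] at hfinal
  -- logarithms
  set S : ℝ := ∑ i, c i * Real.log (Z i) with hS
  have hlog := Real.log_le_log (mul_pos hκpos hVpos) hfinal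
  rw [Real.log_mul hκpos.ne' hVpos.ne', hκ, Real.log_prod (fun i _ => (Real.rpow_pos_of_pos (hZ i) _).ne'),
    Real.log_prod (fun i _ => (Real.rpow_pos_of_pos (hZ i) _).ne')] at hlog
  have e1 : ∑ i, Real.log (Z i ^ (-(c i * α))) = -(α * S) := by
    rw [hS, Finset.mul_sum, ← Finset.sum_neg_distrib]
    refine Finset.sum_congr rfl fun i _ => ?_
    rw [Real.log_rpow (hZ i)]
    ring
  have e2 : ∑ i, Real.log (Z i ^ w i) = ((m : ℝ) - 1) * α * S := by
    rw [hS, Finset.mul_sum]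
    refine Finset.sum_congr rfl fun i _ => ?_
    rw [Real.log_rpow (hZ i)]
    simp only [hw1]
    ring
  rw [e1, e2] at hlog
  -- conclusion
  by_contra hno
  push Not at hno
  have hlt : ∀ i, (m : ℝ) * Real.log (Z i) <
      ((m : ℝ) - 1 + 1 / N) * Real.log V := by
    intro i
    have h1 := hno i
    rw [← rrInt_eq (b i) hK hsym hm] at h1
    have h2 := Real.log_lt_log (pow_pos (hZ i) m) h1
    rw [Real.log_pow, Real.log_rpow hVpos] at h2
    exact h2
  have hsum : ∑ i, c i * ((m : ℝ) * Real.log (Z i)) <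
      ∑ i, c i * (((m : ℝ) - 1 + 1 / N) * Real.log V) :=
    Finset.sum_lt_sum_of_nonempty Finset.univ_nonempty fun i _ =>
      mul_lt_mul_of_pos_left (hlt i) (hc i)
  have e3 : ∑ i, c i * ((m : ℝ) * Real.log (Z i)) = (m : ℝ) * S := by
    rw [hS, Finset.mul_sum]
    exact Finset.sum_congr rfl fun i _ => by ring
  have e4 : ∑ i, c i * (((m : ℝ) - 1 + 1 / N) * Real.log V) = D * Real.log V := by
    rw [← Finset.sum_mul, hsumc, hD]
    field_simp
    ring
  rw [e3, e4] at hsum
  have h5 : Real.log V ≤ (m : ℝ) * α * S := by nlinarith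
  have h6 : (m : ℝ) * α * S * D = (m : ℝ) * S := by
    rw [hα]
    field_simp
  have h7 : Real.log V * D ≤ (m : ℝ) * α * S * D := mul_le_mul_of_nonneg_right h5 hDpos.le
  nlinarith

/-- Alias of `john_average` under the name used by the assembly. -/
theorem jc_general {ι : Type*} [Fintype ι] {m : ℕ} (hm : 2 ≤ m) {K : Set (EE (m + 1))}
    (hK : IsCompact K) (hKc : Convex ℝ K) (hsym : ∀ x ∈ K, -x ∈ K)
    (hB : Metric.closedBall (0 : EE (m + 1)) 1 ⊆ K)
    (y : ι → EE (m + 1)) (c : ι → ℝ) (hc : ∀ i, 0 < c i) (hy : ∀ i, ‖y i‖ = 1)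
    (hJ : ∀ x : EE (m + 1), ∑ i, c i * ⟪x, y i⟫ ^ 2 = ‖x‖ ^ 2)
    (hw : ∀ i, ∀ x ∈ K, ⟪x, y i⟫ ≤ 1)
    (b : ι → OrthonormalBasis (Fin (m + 1)) ℝ (EE (m + 1))) (hb : ∀ i, b i (Fin.last m) = y i) :
    ∃ i, (volume K).toReal ^ ((m : ℝ) - 1 + 1 / ((m : ℝ) + 1)) ≤
      (2 * ∫ t in (0 : ℝ)..1, rr (b i) K t) ^ m :=
  john_average hm hK hKc hsym hB y c hc hy hJ hw b hb

end Main

end

end Vale.Agent.Lib.P237.PN
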