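import Vale.Agent.Lib.P237.PN.Basic
import Mathlib.Analysis.Convex.Caratheodory

/-!
# John position in general dimension (ported from `P237.PettyJohn`, `PettyJohn2`)

`act`, `exists_john_matrix`, `john_normalize`, `john_dual` (trace over `n`), `john_primal`.
-/

open MeasureTheory Set Filter Topology
open scoped RealInnerProductSpace Matrix

namespace Vale.Agent.Lib.P237.PN

noncomputable section

/-- Square real matrices. -/
abbrev MM (n : ℕ) := Matrix (Fin n) (Fin n) ℝ

variable {n : ℕ}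

/-- The action of a matrix on Euclidean space. -/
def act (M : MM n) (x : EE n) : EE n := WithLp.toLp 2 (M *ᵥ WithLp.ofLp x)

lemma act_add (M : MM n) (x y : EE n) : act M (x + y) = act M x + act M y := by
  unfold act
  simp [Matrix.mulVec_add]

lemma act_smul (M : MM n) (c : ℝ) (x : EE n) : act M (c • x) = c • act M x := by
  unfold act
  simp [Matrix.mulVec_smul]

lemma act_neg (M : MM n) (x : EE n) : act M (-x) = - act M x := by
  have := act_smul M (-1) x
  simpa using this

lemma act_zero (M : MM n) : act M 0 = 0 := by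
  have := act_smul M 0 0
  simpa using this

lemma act_mul (M N : MM n) (x : EE n) : act (M * N) x = act M (act N x) := by
  unfold act
  simp [Matrix.mulVec_mulVec]

lemma act_one (x : EE n) : act 1 x = x := by
  unfold act
  simp

lemma act_one_add_smul (B : MM n) (c : ℝ) (x : EE n) : act (1 + c • B) x = x + c • act B x := by
  unfold act
  simp [Matrix.add_mulVec, Matrix.smul_mulVec]

lemma act_smul_left (c : ℝ) (B : MM n) (x : EE n) : act (c • B) x = c • act B x := by
  unfold act
  simp [Matrix.smul_mulVec]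

lemma act_sub_smul_one (A : MM n) (c : ℝ) (x : EE n) : act (A - c • 1) x = act A x - c • x := by
  unfold act
  simp [Matrix.sub_mulVec, Matrix.smul_mulVec]

lemma act_continuous (M : MM n) : Continuous (act M) := by
  unfold act
  exact (PiLp.continuous_toLp 2 _).comp (Continuous.matrix_mulVec continuous_const
    (PiLp.continuous_ofLp 2 _))

lemma act_continuous_left (x : EE n) : Continuous fun M : MM n => act M x := by
  unfold act
  exact (PiLp.continuous_toLp 2 _).comp (Continuous.matrix_mulVec continuous_id continuous_const)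

section dual

variable {K : Set (EE n)}

lemma gauge_le_norm (hK0 : Metric.closedBall (0 : EE n) 1 ⊆ K) (z : EE n) : gauge K z ≤ ‖z‖ := by
  rcases eq_or_ne z 0 with rfl | hz
  · simp
  · apply gauge_le_of_mem (norm_nonneg z)
    refine ⟨‖z‖⁻¹ • z, hK0 ?_, ?_⟩
    · rw [mem_closedBall_zero_iff, norm_smul, norm_inv, norm_norm,
        inv_mul_cancel₀ (norm_ne_zero_iff.mpr hz)]
    · simp only
      rw [smul_smul, mul_inv_cancel₀ (norm_ne_zero_iff.mpr hz), one_smul]

/-- A unit vector which is not interior gives a supporting direction. -/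
lemma contact_of_gauge (hKc : Convex ℝ K) (hKcl : IsClosed K)
    (hK0 : Metric.closedBall (0 : EE n) 1 ⊆ K) {y : EE n} (hy : ‖y‖ = 1) (hg : ¬ gauge K y < 1) :
    ∀ x ∈ K, ⟪x, y⟫ ≤ 1 := by
  have hnh : K ∈ 𝓝 (0 : EE n) := Filter.mem_of_superset (Metric.closedBall_mem_nhds 0 one_pos) hK0
  have hint : y ∉ interior K := by
    intro h
    exact hg ((gauge_lt_one_iff_mem_interior hKc hnh).mpr h)
  obtain ⟨f, hf1⟩ := geometric_hahn_banach_open_point hKc.interior isOpen_interior hint
  set w : EE n := (InnerProductSpace.toDual ℝ (EE n)).symm f with hw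
  have hfw : ∀ z, f z = ⟪w, z⟫ := by
    intro z
    rw [hw, InnerProductSpace.toDual_symm_apply]
  have hball : Metric.ball (0 : EE n) 1 ⊆ interior K :=
    interior_maximal (Metric.ball_subset_closedBall.trans hK0) Metric.isOpen_ball
  have hfy : ∀ z ∈ Metric.closedBall (0 : EE n) 1, ⟪w, z⟫ ≤ ⟪w, y⟫ := by
    intro z hz
    have hz' : ‖z‖ ≤ 1 := by simpa using hz
    -- scale inside the open ball
    have key : ∀ t : ℝ, 0 ≤ t → t < 1 → t * ⟪w, z⟫ ≤ ⟪w, y⟫ := by
      intro t ht0 ht1
      have hmem : t • z ∈ interior K := by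
        apply hball
        rw [mem_ball_zero_iff, norm_smul, Real.norm_of_nonneg ht0]
        calc t * ‖z‖ ≤ t * 1 := by gcongr
          _ < 1 := by linarith
      have h1 := hf1 _ hmem
      rw [hfw, hfw, inner_smul_right] at h1
      exact h1.le
    by_contra hlt
    have hlt' : ⟪w, y⟫ < ⟪w, z⟫ := not_le.mp hlt
    have hc : Tendsto (fun t : ℝ => t * ⟪w, z⟫) (𝓝[<] 1) (𝓝 ⟪w, z⟫) := by
      have : Tendsto (fun t : ℝ => t * ⟪w, z⟫) (𝓝 1) (𝓝 (1 * ⟪w, z⟫)) :=
        (continuous_id.mul continuous_const).tendsto 1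
      rw [one_mul] at this
      exact this.mono_left nhdsWithin_le_nhds
    have hev := hc.eventually (lt_mem_nhds hlt')
    have h2 : ∀ᶠ t : ℝ in 𝓝[<] 1, 0 < t ∧ t < 1 := by
      filter_upwards [Ioo_mem_nhdsLT (zero_lt_one' ℝ)] with t ht
      exact ht
    obtain ⟨t, h3, h4⟩ := (hev.and h2).exists
    have := key t h4.1.le h4.2
    linarith
  have hw0 : w ≠ 0 := by
    intro h0
    have h1 := hf1 0 (hball (Metric.mem_ball_self one_pos))
    rw [hfw, hfw, h0, inner_zero_left, inner_zero_left] at h1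
    exact lt_irrefl _ h1
  have hwn : 0 < ‖w‖ := norm_pos_iff.mpr hw0
  have h1 : ‖w‖ ≤ ⟪w, y⟫ := by
    have := hfy (‖w‖⁻¹ • w) (by
      rw [mem_closedBall_zero_iff, norm_smul, norm_inv, norm_norm, inv_mul_cancel₀ hwn.ne'])
    rw [inner_smul_right, real_inner_self_eq_norm_sq] at this
    have e : ‖w‖⁻¹ * ‖w‖ ^ 2 = ‖w‖ := by field_simp
    rwa [e] at this
  have h2 : ⟪w, y⟫ ≤ ‖w‖ := by
    have := real_inner_le_norm w y
    rwa [hy, mul_one] at this
  have heq : ⟪w, y⟫ = ‖w‖ := le_antisymm h2 h1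
  have hwy : w = ‖w‖ • y := by
    have h3 : ⟪w, y⟫ = ‖w‖ * ‖y‖ := by rw [hy, mul_one]; exact heq
    have h4 := (inner_eq_norm_mul_iff_real (x := w) (y := y)).mp h3
    rw [hy, one_smul] at h4
    exact h4
  intro x hx
  have hxcl : x ∈ closure (interior K) := by
    rw [hKc.closure_interior_eq_closure_of_nonempty_interior
      ⟨0, hball (Metric.mem_ball_self one_pos)⟩, hKcl.closure_eq]
    exact hx
  have hle : ⟪w, x⟫ ≤ ⟪w, y⟫ := by
    have hcl : IsClosed {z : EE n | ⟪w, z⟫ ≤ ⟪w, y⟫} :=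
      isClosed_le (by fun_prop) continuous_const
    refine closure_minimal ?_ hcl hxcl
    intro z hz
    have := hf1 z hz
    rw [hfw, hfw] at this
    exact this.le
  rw [heq] at hle
  have h5 : ⟪w, x⟫ = ‖w‖ * ⟪x, y⟫ := by
    conv_lhs => rw [hwy]
    rw [inner_smul_left, real_inner_comm]
    simp
  rw [h5] at hle
  have : ‖w‖ * ⟪x, y⟫ ≤ ‖w‖ * 1 := by rwa [mul_one]
  exact le_of_mul_le_mul_left this hwn

/-- Dual form of John's theorem. -/
theorem john_dual (hn : 0 < n) (hK : IsCompact K) (hKc : Convex ℝ K)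
    (hK0 : Metric.closedBall (0 : EE n) 1 ⊆ K)
    (hmax : ∀ S : MM n, (∀ x : EE n, ‖x‖ ≤ 1 → act S x ∈ K) → |S.det| ≤ 1) (A : MM n) :
    ∃ y : EE n, ‖y‖ = 1 ∧ (∀ x ∈ K, ⟪x, y⟫ ≤ 1) ∧ A.trace / (n : ℝ) ≤ ⟪act A y, y⟫ := by
  by_contra hne
  have hne' : ∀ y : EE n, ‖y‖ = 1 → (∀ x ∈ K, ⟪x, y⟫ ≤ 1) → ⟪act A y, y⟫ < A.trace / (n : ℝ) := by
    intro y hy hc
    by_contra hlt
    exact hne ⟨y, hy, hc, not_lt.mp hlt⟩
  have hnh : K ∈ 𝓝 (0 : EE n) := Filter.mem_of_superset (Metric.closedBall_mem_nhds 0 one_pos) hK0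
  have habs : Absorbent ℝ K := absorbent_nhds_zero hnh
  set B : MM n := A - (A.trace / (n : ℝ)) • 1 with hB
  have hn0 : (n : ℝ) ≠ 0 := by
    have : n ≠ 0 := hn.ne'
    exact_mod_cast this
  have htr : B.trace = 0 := by
    rw [hB, Matrix.trace_sub, Matrix.trace_smul, Matrix.trace_one]
    simp only [Fintype.card_fin, smul_eq_mul]
    field_simp
    ring
  set g : EE n → ℝ := fun y => ⟪act B y, y⟫ with hg
  have hgc : Continuous g := by
    simp only [hg]
    exact (act_continuous B).inner continuous_id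
  have hgv : Continuous (gauge K) := continuous_gauge hKc hnh
  set m : EE n → ℝ := fun y => min (g y) (gauge K y - 1) with hm
  have hmc : Continuous m := hgc.min (hgv.sub continuous_const)
  have hneg : ∀ y ∈ Metric.sphere (0 : EE n) 1, m y < 0 := by
    intro y hy
    have hy' : ‖y‖ = 1 := by simpa using hy
    rw [hm]
    by_cases hlt : gauge K y < 1
    · exact min_lt_of_right_lt (by linarith)
    · apply min_lt_of_left_lt
      have hct := hne' y hy' (contact_of_gauge hKc hK.isClosed hK0 hy' hlt)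
      simp only [hg, hB]
      rw [act_sub_smul_one, inner_sub_left, inner_smul_left, real_inner_self_eq_norm_sq, hy']
      simp
      linarith
  have hsph : IsCompact (Metric.sphere (0 : EE n) 1) := isCompact_sphere 0 1
  have hsne : (Metric.sphere (0 : EE n) 1).Nonempty := by
    refine ⟨EuclideanSpace.single ⟨0, hn⟩ 1, ?_⟩
    simp
  obtain ⟨y₀, hy₀, hmaxm⟩ := hsph.exists_isMaxOn hsne hmc.continuousOn
  set η := - m y₀ with hη
  have hηpos : 0 < η := by
    have := hneg y₀ hy₀
    linarith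
  have hall : ∀ y : EE n, ‖y‖ = 1 → g y ≤ -η ∨ gauge K y - 1 ≤ -η := by
    intro y hy
    have hmem : y ∈ Metric.sphere (0 : EE n) 1 := by simpa using hy
    have h1 : m y ≤ m y₀ := hmaxm hmem
    have h2 : m y ≤ -η := by rw [hη, neg_neg]; exact h1
    rcases min_choice (g y) (gauge K y - 1) with h | h
    · left
      simp only [hm] at h2
      rwa [h] at h2
    · right
      simp only [hm] at h2
      rwa [h] at h2
  obtain ⟨M₀, hM₀⟩ := hsph.exists_bound_of_continuousOn (act_continuous B).continuousOn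
  set M := max M₀ 1 with hM
  have hMpos : 0 < M := lt_of_lt_of_le one_pos (le_max_right _ _)
  have hbound : ∀ y : EE n, ‖y‖ = 1 → ‖act B y‖ ≤ M := by
    intro y hy
    exact (hM₀ y (by simpa using hy)).trans (le_max_left _ _)
  set G : ℝ → ℝ := fun r =>
    (Matrix.det (1 + (Polynomial.X : Polynomial ℝ) • B.map Polynomial.C)).divX.divX.eval r with hG
  have hGc : Continuous G := Polynomial.continuous _
  -- the small parameter
  have ev1 : ∀ᶠ ε : ℝ in 𝓝[>] 0, ε * M ^ 2 < η := by
    have : Tendsto (fun ε : ℝ => ε * M ^ 2) (𝓝 0) (𝓝 (0 * M ^ 2)) :=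
      (continuous_id.mul continuous_const).tendsto 0
    rw [zero_mul] at this
    exact (this.mono_left nhdsWithin_le_nhds).eventually (gt_mem_nhds hηpos)
  have ev2 : ∀ᶠ ε : ℝ in 𝓝[>] 0, ε * (M + η / 2) < η := by
    have : Tendsto (fun ε : ℝ => ε * (M + η / 2)) (𝓝 0) (𝓝 (0 * (M + η / 2))) :=
      (continuous_id.mul continuous_const).tendsto 0
    rw [zero_mul] at this
    exact (this.mono_left nhdsWithin_le_nhds).eventually (gt_mem_nhds hηpos)
  have ev3 : ∀ᶠ ε : ℝ in 𝓝[>] 0, ε * η / 2 < 1 := by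
    have : Tendsto (fun ε : ℝ => ε * η / 2) (𝓝 0) (𝓝 (0 * η / 2)) :=
      ((continuous_id.mul continuous_const).div_const 2).tendsto 0
    simp only [zero_mul, zero_div] at this
    exact (this.mono_left nhdsWithin_le_nhds).eventually (gt_mem_nhds one_pos)
  have ev4 : ∀ᶠ ε : ℝ in 𝓝[>] 0, -(η / 2) < ε * G ε := by
    have hc : Continuous fun ε : ℝ => ε * G ε := continuous_id.mul hGc
    have := hc.tendsto 0
    simp only [zero_mul] at this
    exact (this.mono_left nhdsWithin_le_nhds).eventually (lt_mem_nhds (by linarith))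
  obtain ⟨ε, ⟨⟨⟨h1, h2⟩, h3⟩, h4⟩, hε⟩ :=
    (((ev1.and ev2).and ev3).and ev4 |>.and self_mem_nhdsWithin).exists
  have hε0 : 0 < ε := hε
  set κ := 1 - ε * η / 2 with hκ
  have hκ0 : 0 < κ := by rw [hκ]; linarith
  have hz : ∀ y : EE n, ‖y‖ = 1 → gauge K (y + ε • act B y) ≤ κ := by
    intro y hy
    rcases hall y hy with hc | hc
    · refine (gauge_le_norm hK0 _).trans ?_
      have hgy : ⟪act B y, y⟫ ≤ -η := hc
      have hsq : ‖y + ε • act B y‖ ^ 2 ≤ κ ^ 2 := by
        rw [norm_add_sq_real, inner_smul_right, real_inner_comm, norm_smul, Real.norm_of_nonneg hε0.le,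
          hy, mul_pow]
        have hb := hbound y hy
        have hb2 : ‖act B y‖ ^ 2 ≤ M ^ 2 := pow_le_pow_left₀ (norm_nonneg _) hb 2
        have h5 : ε ^ 2 * ‖act B y‖ ^ 2 ≤ ε ^ 2 * M ^ 2 :=
          mul_le_mul_of_nonneg_left hb2 (sq_nonneg ε)
        have h6 : ε * ⟪act B y, y⟫ ≤ ε * (-η) := mul_le_mul_of_nonneg_left hgy hε0.le
        have h7 : ε ^ 2 * M ^ 2 ≤ ε * η := by
          have := mul_le_mul_of_nonneg_left h1.le hε0.le
          nlinarith
        rw [hκ]
        nlinarith [mul_pos hε0 hηpos, sq_nonneg (ε * η)]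
      exact (pow_le_pow_iff_left₀ (norm_nonneg _) hκ0.le two_ne_zero).mp hsq
    · have hadd := gauge_add_le hKc habs y (ε • act B y)
      rw [gauge_smul_of_nonneg hε0.le, smul_eq_mul] at hadd
      have hb := (gauge_le_norm hK0 (act B y)).trans (hbound y hy)
      have h5 : ε * gauge K (act B y) ≤ ε * M := mul_le_mul_of_nonneg_left hb hε0.le
      rw [hκ]
      nlinarith
  set S : MM n := κ⁻¹ • (1 + ε • B) with hS
  have hSact : ∀ x : EE n, act S x = κ⁻¹ • (x + ε • act B x) := by
    intro x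
    rw [hS, act_smul_left, act_one_add_smul]
  have hSmem : ∀ x : EE n, ‖x‖ ≤ 1 → act S x ∈ K := by
    intro x hx
    rcases eq_or_ne x 0 with rfl | hx0
    · rw [act_zero]
      exact hK0 (by simp)
    · have hn : 0 < ‖x‖ := norm_pos_iff.mpr hx0
      have hu : ‖‖x‖⁻¹ • x‖ = 1 := by
        rw [norm_smul, norm_inv, norm_norm, inv_mul_cancel₀ hn.ne']
      have hx' : x = ‖x‖ • (‖x‖⁻¹ • x) := by
        rw [smul_smul, mul_inv_cancel₀ hn.ne', one_smul]
      have h5 : act S x = (‖x‖ * κ⁻¹) • ((‖x‖⁻¹ • x) + ε • act B (‖x‖⁻¹ • x)) := by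
        conv_lhs => rw [hx', act_smul, hSact]
        rw [smul_smul]
      have h6 : gauge K (act S x) ≤ 1 := by
        rw [h5, gauge_smul_of_nonneg (by positivity), smul_eq_mul]
        have := hz _ hu
        calc ‖x‖ * κ⁻¹ * gauge K (‖x‖⁻¹ • x + ε • act B (‖x‖⁻¹ • x))
            ≤ ‖x‖ * κ⁻¹ * κ := mul_le_mul_of_nonneg_left this (by positivity)
          _ = ‖x‖ := by field_simp
          _ ≤ 1 := hx
      have := (gauge_le_one_iff_mem_closure hKc hnh).mp h6
      rwa [hK.isClosed.closure_eq] at this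
  have hdet := hmax S hSmem
  have hdS : S.det = (κ⁻¹) ^ n * (1 + G ε * ε ^ 2) := by
    rw [hS, Matrix.det_smul, Matrix.det_one_add_smul, Fintype.card_fin, htr, zero_mul, add_zero]
  have hκ1 : κ ≤ 1 := by
    rw [hκ]
    have := mul_pos hε0 hηpos
    linarith
  have hp : κ ^ n < 1 + G ε * ε ^ 2 := by
    have h5 : κ ^ n ≤ κ := pow_le_of_le_one hκ0.le hκ1 hn.ne'
    have h6 : ε * (-(η / 2)) < ε * (ε * G ε) := mul_lt_mul_of_pos_left h4 hε0
    have h7 : κ = 1 + ε * (-(η / 2)) := by
      rw [hκ]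
      ring
    have h8 : ε * (ε * G ε) = G ε * ε ^ 2 := by ring
    rw [h8] at h6
    linarith
  have hκ3 : 0 < κ ^ n := by positivity
  have hlarge : 1 < S.det := by
    rw [hdS, inv_pow, inv_mul_eq_div, one_lt_div hκ3]
    exact hp
  have := le_abs_self S.det
  linarith

end dual

variable {K : Set (EE n)}

/-- The space of matrices as a Euclidean space. -/
abbrev XX (n : ℕ) := EuclideanSpace ℝ (Fin n × Fin n)

/-- The convex hull of a compact set in finite dimension is compact. -/
lemma convexHull_isCompact {E : Type} [NormedAddCommGroup E] [NormedSpace ℝ E] [FiniteDimensional ℝ E]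
    {s : Set E} (hs : IsCompact s) : IsCompact (convexHull ℝ s) := by
  rcases s.eq_empty_or_nonempty with rfl | ⟨s₀, hs₀⟩
  · simp
  set N := Module.finrank ℝ E + 1 with hN
  let Φ : (Fin N → ℝ) × (Fin N → E) → E := fun p => ∑ k, p.1 k • p.2 k
  have hΦ : Continuous Φ := by
    simp only [Φ]
    fun_prop
  have hS : IsCompact ((stdSimplex ℝ (Fin N)) ×ˢ (Set.univ.pi fun _ : Fin N => s)) :=
    (isCompact_stdSimplex ℝ _).prod (isCompact_univ_pi fun _ => hs)
  have heq : convexHull ℝ s = Φ '' ((stdSimplex ℝ (Fin N)) ×ˢ (Set.univ.pi fun _ : Fin N => s)) := by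
    apply Set.Subset.antisymm
    · intro x hx
      obtain ⟨ι, hι, z, w, hz, hai, hw, hw1, hsum⟩ := eq_pos_convex_span_of_mem_convexHull hx
      have hcard : Fintype.card ι ≤ N := hai.card_le_finrank_succ.trans (by
        rw [hN]
        exact Nat.succ_le_succ (Submodule.finrank_le _))
      let e : ι ↪ Fin N := (Fintype.equivFin ι).toEmbedding.trans (Fin.castLEEmb hcard)
      let w' : Fin N → ℝ := Function.extend e w 0
      let z' : Fin N → E := Function.extend e z (fun _ => s₀)
      have hw'e : ∀ i, w' (e i) = w i := fun i => e.injective.extend_apply _ _ _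
      have hz'e : ∀ i, z' (e i) = z i := fun i => e.injective.extend_apply _ _ _
      have hw'0 : ∀ k, k ∉ Set.range e → w' k = 0 := by
        intro k hk
        exact Function.extend_apply' _ _ _ (by simpa using hk)
      have hz'0 : ∀ k, k ∉ Set.range e → z' k = s₀ := by
        intro k hk
        exact Function.extend_apply' _ _ _ (by simpa using hk)
      refine ⟨(w', z'), ⟨⟨?_, ?_⟩, ?_⟩, ?_⟩
      · intro k
        show 0 ≤ w' k
        by_cases hk : k ∈ Set.range e
        · obtain ⟨i, rfl⟩ := hk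
          rw [hw'e]
          exact (hw i).le
        · rw [hw'0 k hk]
      · show ∑ k, w' k = 1
        rw [← hw1]
        symm
        exact Fintype.sum_of_injective e e.injective _ _ (fun k hk => hw'0 k hk) (fun i => (hw'e i).symm)
      · intro k _
        by_cases hk : k ∈ Set.range e
        · obtain ⟨i, rfl⟩ := hk
          show z' (e i) ∈ s
          rw [hz'e]
          exact hz ⟨i, rfl⟩
        · show z' k ∈ s
          rw [hz'0 k hk]
          exact hs₀
      · show ∑ k, w' k • z' k = x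
        rw [← hsum]
        symm
        refine Fintype.sum_of_injective e e.injective _ _ (fun k hk => ?_) (fun i => ?_)
        · rw [hw'0 k hk, zero_smul]
        · rw [hw'e, hz'e]
    · rintro _ ⟨⟨w, z⟩, ⟨hw, hz⟩, rfl⟩
      apply (convex_convexHull ℝ s).sum_mem (fun k _ => hw.1 k) hw.2
      intro k _
      exact subset_convexHull ℝ s (hz k (mem_univ k))
  rw [heq]
  exact hS.image hΦ

lemma inner_XX (w v : XX n) : ⟪w, v⟫ = ∑ p : Fin n × Fin n, w p * v p := by
  simp only [PiLp.inner_apply, RCLike.inner_apply, conj_trivial]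
  exact Finset.sum_congr rfl fun p _ => mul_comm _ _

/-- The linear images of the unit ball inside `K`: a compact set of matrices. -/
lemma inscribed_compact (hK : IsCompact K) :
    IsCompact {M : MM n | ∀ x : EE n, ‖x‖ ≤ 1 → act M x ∈ K} := by
  obtain ⟨R, hR⟩ := hK.isBounded.exists_norm_le
  have hcl : IsClosed {M : MM n | ∀ x : EE n, ‖x‖ ≤ 1 → act M x ∈ K} := by
    simp only [Set.ofPred_forall]
    exact isClosed_iInter fun x => isClosed_iInter fun _ =>
      hK.isClosed.preimage (act_continuous_left x)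
  have hsub : {M : MM n | ∀ x : EE n, ‖x‖ ≤ 1 → act M x ∈ K} ⊆
      (Set.univ.pi fun _ : Fin n => Set.univ.pi fun _ : Fin n => Icc (-R) R : Set (Fin n → Fin n → ℝ)) := by
    intro M hM i _ j _
    have h1 : ‖(EuclideanSpace.single j (1 : ℝ) : EE n)‖ ≤ 1 := by simp
    have h2 := hR _ (hM _ h1)
    have h3 : |act M (EuclideanSpace.single j (1 : ℝ)) i| ≤ ‖act M (EuclideanSpace.single j (1 : ℝ))‖ := by
      have := PiLp.norm_apply_le (p := 2) (act M (EuclideanSpace.single j (1 : ℝ))) i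
      simpa [Real.norm_eq_abs] using this
    have h4 : act M (EuclideanSpace.single j (1 : ℝ)) i = M i j := by
      simp [act, Matrix.mulVec_single]
    rw [h4] at h3
    exact abs_le.mp (h3.trans h2)
  have hc : IsCompact (Set.univ.pi fun _ : Fin n => Set.univ.pi fun _ : Fin n => Icc (-R) R : Set (Fin n → Fin n → ℝ)) :=
    isCompact_univ_pi fun _ => isCompact_univ_pi fun _ => isCompact_Icc
  exact hc.of_isClosed_subset hcl hsub

/-- The maximal determinant position. -/
theorem exists_john_matrix (hK : IsCompact K) {r : ℝ} (hr : 0 < r)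
    (hball : Metric.closedBall (0 : EE n) r ⊆ K) :
    ∃ M : MM n, M.det ≠ 0 ∧ (∀ x : EE n, ‖x‖ ≤ 1 → act M x ∈ K) ∧
      ∀ S : MM n, (∀ x : EE n, ‖x‖ ≤ 1 → act S x ∈ K) → |S.det| ≤ |M.det| := by
  have hmem : (r • (1 : MM n)) ∈ {M : MM n | ∀ x : EE n, ‖x‖ ≤ 1 → act M x ∈ K} := by
    intro x hx
    rw [act_smul_left, act_one]
    apply hball
    rw [mem_closedBall_zero_iff, norm_smul, Real.norm_of_nonneg hr.le]
    nlinarith
  have hdc : ContinuousOn (fun M : MM n => |M.det|) {M : MM n | ∀ x : EE n, ‖x‖ ≤ 1 → act M x ∈ K} :=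
    (Continuous.matrix_det continuous_id).abs.continuousOn
  obtain ⟨M, hM, hmax⟩ := (inscribed_compact hK).exists_isMaxOn ⟨_, hmem⟩ hdc
  refine ⟨M, ?_, hM, fun S hS => hmax hS⟩
  intro h0
  have h1 : |(r • (1 : MM n)).det| ≤ |M.det| := hmax hmem
  rw [h0, abs_zero, Matrix.det_smul, Matrix.det_one, mul_one, abs_nonpos_iff] at h1
  have : r ^ Fintype.card (Fin n) ≠ 0 := pow_ne_zero _ hr.ne'
  exact this h1

/-- Normalized form: the image under the inverse matrix contains the unit ball and has no larger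
inscribed linear image. -/
theorem john_normalize (hK : IsCompact K) {r : ℝ} (hr : 0 < r)
    (hball : Metric.closedBall (0 : EE n) r ⊆ K) :
    ∃ M : MM n, M.det ≠ 0 ∧ Metric.closedBall (0 : EE n) 1 ⊆ act M⁻¹ '' K ∧
      ∀ S : MM n, (∀ x : EE n, ‖x‖ ≤ 1 → act S x ∈ act M⁻¹ '' K) → |S.det| ≤ 1 := by
  obtain ⟨M, h0, hin, hmax⟩ := exists_john_matrix hK hr hball
  have hunit : IsUnit M.det := isUnit_iff_ne_zero.mpr h0
  have hMi : M⁻¹ * M = 1 := Matrix.nonsing_inv_mul M hunit
  have hMi' : M * M⁻¹ = 1 := Matrix.mul_nonsing_inv M hunit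
  refine ⟨M, h0, ?_, ?_⟩
  · intro x hx
    refine ⟨act M x, hin x (by simpa using hx), ?_⟩
    rw [← act_mul, hMi, act_one]
  · intro S hS
    have h1 : ∀ x : EE n, ‖x‖ ≤ 1 → act (M * S) x ∈ K := by
      intro x hx
      obtain ⟨z, hz, he⟩ := hS x hx
      rw [act_mul, ← he, ← act_mul, hMi', act_one]
      exact hz
    have h2 := hmax _ h1
    rw [Matrix.det_mul, abs_mul] at h2
    have hpos : 0 < |M.det| := abs_pos.mpr h0
    have : |M.det| * |S.det| ≤ |M.det| * 1 := by rwa [mul_one]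
    exact le_of_mul_le_mul_left this hpos

/-- The primal form of John's theorem from the dual one. -/
theorem john_primal (hn : 0 < n) {C : Set (EE n)} (hC : IsCompact C)
    (hdual : ∀ A : MM n, ∃ y ∈ C, A.trace / (n : ℝ) ≤ ⟪act A y, y⟫) :
    ∃ (ι : Type) (_ : Fintype ι) (y : ι → EE n) (c : ι → ℝ), (∀ i, y i ∈ C) ∧ (∀ i, 0 < c i) ∧
      ∀ x : EE n, ∑ i, c i * ⟪x, y i⟫ ^ 2 = ‖x‖ ^ 2 := by
  have hn0 : (0 : ℝ) < (n : ℝ) := by exact_mod_cast hn
  let Y : EE n → XX n := fun y => WithLp.toLp 2 fun p => y p.1 * y p.2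
  have hYc : Continuous Y := by
    apply (PiLp.continuous_toLp 2 _).comp
    apply continuous_pi
    intro p
    exact ((PiLp.continuous_apply 2 _ p.1).mul (PiLp.continuous_apply 2 _ p.2))
  let In : XX n := WithLp.toLp 2 fun p => if p.1 = p.2 then (1 / (n : ℝ)) else 0
  have hmem : In ∈ convexHull ℝ (Y '' C) := by
    by_contra hnot
    have hcomp : IsCompact (convexHull ℝ (Y '' C)) := convexHull_isCompact (hC.image hYc)
    obtain ⟨f, u, hf1, hf2⟩ := geometric_hahn_banach_closed_point (convex_convexHull ℝ _)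
      hcomp.isClosed hnot
    set w : XX n := (InnerProductSpace.toDual ℝ (XX n)).symm f with hw
    have hfw : ∀ z, f z = ⟪w, z⟫ := by
      intro z
      rw [hw, InnerProductSpace.toDual_symm_apply]
    let A : MM n := fun i j => w (i, j)
    obtain ⟨y, hy, hA⟩ := hdual A
    have h1 := hf1 (Y y) (subset_convexHull ℝ _ ⟨y, hy, rfl⟩)
    rw [hfw] at h1 hf2
    have e1 : ⟪w, Y y⟫ = ⟪act A y, y⟫ := by
      rw [inner_XX, Fintype.sum_prod_type]
      simp only [PiLp.inner_apply, act, Y, A, RCLike.inner_apply, conj_trivial, Matrix.mulVec,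
        dotProduct]
      refine Finset.sum_congr rfl fun i _ => ?_
      rw [Finset.mul_sum]
      refine Finset.sum_congr rfl fun j _ => ?_
      ring
    have e2 : ⟪w, In⟫ = A.trace / (n : ℝ) := by
      rw [inner_XX, Fintype.sum_prod_type, Matrix.trace, Finset.sum_div]
      refine Finset.sum_congr rfl fun i _ => ?_
      have hd : A.diag i = w (i, i) := rfl
      rw [hd, Finset.sum_eq_single i]
      · simp [In]
        ring
      · intro j _ hj
        simp [In, Ne.symm hj]
      · simp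
    rw [e1] at h1
    rw [e2] at hf2
    linarith
  obtain ⟨ι, hι, z, w, hz, -, hw, hw1, hsum⟩ := eq_pos_convex_span_of_mem_convexHull hmem
  have hzy : ∀ i, ∃ y ∈ C, Y y = z i := fun i => hz ⟨i, rfl⟩
  choose y hy hyz using hzy
  refine ⟨ι, hι, y, fun i => (n : ℝ) * w i, hy, fun i => by have := hw i; positivity, fun x => ?_⟩
  have hcoord : ∀ k l : Fin n, ∑ i, w i * (y i k * y i l) = if k = l then (1 / (n : ℝ)) else 0 := by
    intro k l
    have h1 := congrArg (fun v : XX n => v (k, l)) hsum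
    have h2 : (∑ i, w i • z i) (k, l) = ∑ i, w i * (y i k * y i l) := by
      have h3 : (∑ i, w i • z i) (k, l) = ∑ i, (w i • z i) (k, l) := by
        have := map_sum (EuclideanSpace.proj (k, l) : XX n →L[ℝ] ℝ) (fun i => w i • z i) Finset.univ
        simp
      rw [h3]
      apply Finset.sum_congr rfl
      intro i _
      rw [← hyz i]
      simp [Y]
    simp only at h1
    rw [h2] at h1
    rw [h1]
  have hexp : ∀ i, ⟪x, y i⟫ ^ 2 = ∑ k, ∑ l, x k * x l * (y i k * y i l) := by
    intro i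
    have h1 : ⟪x, y i⟫ = ∑ k, x k * y i k := by
      simp only [PiLp.inner_apply, RCLike.inner_apply, conj_trivial]
      exact Finset.sum_congr rfl fun k _ => mul_comm _ _
    rw [h1, sq, Finset.sum_mul_sum]
    refine Finset.sum_congr rfl fun k _ => Finset.sum_congr rfl fun l _ => ?_
    ring
  have hnorm : ‖x‖ ^ 2 = ∑ k, x k * x k := by
    rw [← real_inner_self_eq_norm_sq]
    simp only [PiLp.inner_apply, RCLike.inner_apply, conj_trivial]
  calc ∑ i, (n : ℝ) * w i * ⟪x, y i⟫ ^ 2
      = ∑ i, ∑ k, ∑ l, (n : ℝ) * (x k * x l) * (w i * (y i k * y i l)) := by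
        refine Finset.sum_congr rfl fun i _ => ?_
        rw [hexp i, Finset.mul_sum]
        refine Finset.sum_congr rfl fun k _ => ?_
        rw [Finset.mul_sum]
        refine Finset.sum_congr rfl fun l _ => ?_
        ring
    _ = ∑ k, ∑ l, (n : ℝ) * (x k * x l) * ∑ i, w i * (y i k * y i l) := by
        rw [Finset.sum_comm]
        refine Finset.sum_congr rfl fun k _ => ?_
        rw [Finset.sum_comm]
        refine Finset.sum_congr rfl fun l _ => ?_
        rw [Finset.mul_sum]
    _ = ∑ k, x k * x k := by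
        refine Finset.sum_congr rfl fun k _ => ?_
        rw [Finset.sum_eq_single k]
        · rw [hcoord, if_pos rfl]
          field_simp
        · intro l _ hl
          rw [hcoord, if_neg (Ne.symm hl), mul_zero]
        · simp
    _ = ‖x‖ ^ 2 := hnorm.symm

/-- The outer bound from the dual contact property, `‖x‖² ≤ n` on `K`. -/
lemma outer_of_dual (hn : 0 < n) (hs : ∀ x ∈ K, -x ∈ K)
    (hdual : ∀ Q : MM n, ∃ y : EE n, ‖y‖ = 1 ∧ (∀ x ∈ K, ⟪x, y⟫ ≤ 1) ∧ Q.trace / n ≤ ⟪act Q y, y⟫) :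
    K ⊆ Metric.closedBall (0 : EE n) n := by
  intro x hx
  rw [mem_closedBall_zero_iff]
  let Q : MM n := fun i j => x i * x j
  obtain ⟨y, hy, hc, hq⟩ := hdual Q
  have h1 : ⟪x, y⟫ ≤ 1 := hc x hx
  have h2 : - ⟪x, y⟫ ≤ 1 := by
    have := hc _ (hs x hx)
    rwa [inner_neg_left] at this
  have hi : ∀ a b : EE n, ⟪a, b⟫ = ∑ i, a i * b i := by
    intro a b
    rw [PiLp.inner_apply]
    simp [mul_comm]
  have ht : Q.trace = ‖x‖ ^ 2 := by
    rw [← real_inner_self_eq_norm_sq, hi]
    rfl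
  have hact : ⟪act Q y, y⟫ = ⟪x, y⟫ ^ 2 := by
    rw [hi, hi, sq, Finset.sum_mul]
    apply Finset.sum_congr rfl
    intro i _
    have : act Q y i = x i * ∑ j, x j * y j := by
      show (Q *ᵥ WithLp.ofLp y) i = _
      simp only [Matrix.mulVec, dotProduct, Q, Finset.mul_sum, mul_assoc]
    rw [this]
    ring
  rw [ht, hact] at hq
  have hnpos : (0 : ℝ) < n := by exact_mod_cast hn
  have h3 : ⟪x, y⟫ ^ 2 ≤ 1 := by nlinarith
  have h4 : ‖x‖ ^ 2 ≤ n := by
    have := hq.trans h3
    rwa [div_le_one hnpos] at this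
  have h5 : (1 : ℝ) ≤ n := by exact_mod_cast hn
  have h6 : ‖x‖ ^ 2 ≤ (n : ℝ) ^ 2 := by nlinarith
  exact (pow_le_pow_iff_left₀ (norm_nonneg _) hnpos.le two_ne_zero).mp h6

/-- The John position with its decomposition, for the set of contact points. -/
theorem exists_decomp (hn : 0 < n) (hK : IsCompact K) (hKc : Convex ℝ K)
    (hK0 : Metric.closedBall (0 : EE n) 1 ⊆ K)
    (hmax : ∀ S : MM n, (∀ x : EE n, ‖x‖ ≤ 1 → act S x ∈ K) → |S.det| ≤ 1) :
    ∃ (ι : Type) (_ : Fintype ι) (y : ι → EE n) (c : ι → ℝ), (∀ i, ‖y i‖ = 1) ∧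
      (∀ i, ∀ x ∈ K, ⟪x, y i⟫ ≤ 1) ∧ (∀ i, 0 < c i) ∧
      ∀ x : EE n, ∑ i, c i * ⟪x, y i⟫ ^ 2 = ‖x‖ ^ 2 := by
  set C : Set (EE n) := {y | ‖y‖ = 1 ∧ ∀ x ∈ K, ⟪x, y⟫ ≤ 1} with hC
  have hCc : IsCompact C := by
    apply Metric.isCompact_of_isClosed_isBounded
    · have : C = {y | ‖y‖ = 1} ∩ ⋂ x ∈ K, {y | ⟪x, y⟫ ≤ 1} := by
        ext y
        simp [hC]
      rw [this]
      apply (isClosed_eq continuous_norm continuous_const).inter
      exact isClosed_biInter fun x _ => isClosed_le (continuous_const.inner continuous_id) continuous_const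
    · rw [isBounded_iff_forall_norm_le]
      exact ⟨1, fun y hy => hy.1.le⟩
  obtain ⟨ι, hι, y, c, hy, hc, hd⟩ := john_primal hn hCc (fun A => by
    obtain ⟨y, h1, h2, h3⟩ := john_dual hn hK hKc hK0 hmax A
    exact ⟨y, ⟨h1, h2⟩, h3⟩)
  exact ⟨ι, hι, y, c, fun i => (hy i).1, fun i => (hy i).2, hc, hd⟩

/-- The invertible linear map of a matrix with nonzero determinant. -/
def actEquiv (M : MM n) (hM : M.det ≠ 0) : EE n ≃ₗ[ℝ] EE n where
  toFun := act M
  invFun := act M⁻¹
  map_add' := act_add M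
  map_smul' := fun c x => by simpa using act_smul M c x
  left_inv := fun x => by
    rw [← act_mul, Matrix.nonsing_inv_mul M (isUnit_iff_ne_zero.mpr hM), act_one]
  right_inv := fun x => by
    rw [← act_mul, Matrix.mul_nonsing_inv M (isUnit_iff_ne_zero.mpr hM), act_one]

end

end Vale.Agent.Lib.P237.PN
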