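import Vale.Agent.Lib.P237.PN.Basic
import Mathlib.Topology.MetricSpace.Closeds

/-!
# Blaschke selection, sandwich convergence
-/

open MeasureTheory Set Module Filter Topology Metric
open scoped RealInnerProductSpace ENNReal Pointwise

namespace Vale.Agent.Lib.P237.PN

noncomputable section

variable {n : ℕ}

/-- Hausdorff convergence, written out. -/
def HConv (X : ℕ → Set (EE n)) (X₀ : Set (EE n)) : Prop :=
  ∀ ε > 0, ∀ᶠ k in atTop, (∀ x ∈ X k, ∃ y ∈ X₀, dist x y < ε) ∧ (∀ y ∈ X₀, ∃ x ∈ X k, dist y x < ε)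

lemma HConv.comp {X : ℕ → Set (EE n)} {X₀ : Set (EE n)} (h : HConv X X₀) {ψ : ℕ → ℕ}
    (hψ : Tendsto ψ atTop atTop) : HConv (fun k => X (ψ k)) X₀ :=
  fun ε hε => hψ.eventually (h ε hε)

/-- **Blaschke selection** for compact subsets of a ball. -/
theorem exists_HConv_subseq {R : ℝ} (X : ℕ → Set (EE n)) (hXc : ∀ k, IsCompact (X k))
    (hXne : ∀ k, (X k).Nonempty) (hXR : ∀ k, X k ⊆ closedBall 0 R) :
    ∃ (X₀ : Set (EE n)) (φ : ℕ → ℕ), StrictMono φ ∧ IsCompact X₀ ∧ X₀.Nonempty ∧ X₀ ⊆ closedBall 0 R ∧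
      HConv (fun k => X (φ k)) X₀ := by
  let x : ℕ → TopologicalSpace.NonemptyCompacts (EE n) := fun k => ⟨⟨X k, hXc k⟩, hXne k⟩
  have hcomp : IsCompact {L : TopologicalSpace.NonemptyCompacts (EE n) | (L : Set (EE n)) ⊆ closedBall 0 R} :=
    TopologicalSpace.NonemptyCompacts.isCompact_subsets_of_isCompact (isCompact_closedBall 0 R)
  obtain ⟨a, ha, φ, hφ, hlim⟩ := hcomp.tendsto_subseq (x := x) (fun k => hXR k)
  refine ⟨a, φ, hφ, a.isCompact, a.nonempty, ha, ?_⟩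
  intro ε hε
  have h1 := Metric.tendsto_atTop.mp hlim ε hε
  obtain ⟨N, hN⟩ := h1
  filter_upwards [eventually_ge_atTop N] with k hk
  have hd : hausdorffDist (X (φ k)) (a : Set (EE n)) < ε := by
    have h2 := hN k hk
    rw [Function.comp_apply, Metric.NonemptyCompacts.dist_eq] at h2
    exact h2
  have hfin : hausdorffEDist (X (φ k)) (a : Set (EE n)) ≠ ⊤ :=
    hausdorffEDist_ne_top_of_nonempty_of_bounded (hXne _) a.nonempty (hXc _).isBounded a.isCompact.isBounded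
  constructor
  · intro z hz
    exact exists_dist_lt_of_hausdorffDist_lt hz hd hfin
  · intro z hz
    obtain ⟨w, hw, hd'⟩ := exists_dist_lt_of_hausdorffDist_lt' hz hd hfin
    exact ⟨w, hw, by rwa [dist_comm]⟩

section limits

variable {X : ℕ → Set (EE n)} {X₀ : Set (EE n)}

lemma HConv.mem_of_freq (h : HConv X X₀) (hcl : IsClosed X₀) {x : EE n}
    (hx : ∀ ε > 0, ∃ᶠ k in atTop, ∃ z ∈ X k, dist x z < ε) : x ∈ X₀ := by
  rw [← hcl.closure_eq, Metric.mem_closure_iff]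
  intro ε hε
  obtain ⟨k, ⟨z, hz, hxz⟩, h2⟩ := ((hx (ε / 2) (by positivity)).and_eventually (h (ε / 2) (by positivity))).exists
  obtain ⟨y, hy, hzy⟩ := h2.1 z hz
  refine ⟨y, hy, ?_⟩
  calc dist x y ≤ dist x z + dist z y := dist_triangle _ _ _
    _ < ε := by linarith

lemma HConv.convex (h : HConv X X₀) (hcl : IsClosed X₀) (hv : ∀ k, Convex ℝ (X k)) : Convex ℝ X₀ := by
  intro x hx y hy s t hs ht hst
  apply h.mem_of_freq hcl
  intro ε hε
  apply Eventually.frequently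
  filter_upwards [h ε hε] with k hk
  obtain ⟨x', hx', hxd⟩ := hk.2 x hx
  obtain ⟨y', hy', hyd⟩ := hk.2 y hy
  refine ⟨s • x' + t • y', hv k hx' hy' hs ht hst, ?_⟩
  rw [dist_eq_norm]
  have e : s • x + t • y - (s • x' + t • y') = s • (x - x') + t • (y - y') := by
    simp only [smul_sub]
    abel
  rw [e]
  rw [dist_eq_norm] at hxd hyd
  calc ‖s • (x - x') + t • (y - y')‖ ≤ ‖s • (x - x')‖ + ‖t • (y - y')‖ := norm_add_le _ _
    _ = s * ‖x - x'‖ + t * ‖y - y'‖ := by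
      rw [norm_smul, norm_smul, Real.norm_of_nonneg hs, Real.norm_of_nonneg ht]
    _ ≤ s * max ‖x - x'‖ ‖y - y'‖ + t * max ‖x - x'‖ ‖y - y'‖ := by
      gcongr
      · exact le_max_left _ _
      · exact le_max_right _ _
    _ = max ‖x - x'‖ ‖y - y'‖ := by rw [← add_mul, hst, one_mul]
    _ < ε := max_lt hxd hyd

lemma HConv.symm (h : HConv X X₀) (hcl : IsClosed X₀) (hs : ∀ k, ∀ x ∈ X k, -x ∈ X k) :
    ∀ x ∈ X₀, -x ∈ X₀ := by
  intro x hx
  apply h.mem_of_freq hcl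
  intro ε hε
  apply Eventually.frequently
  filter_upwards [h ε hε] with k hk
  obtain ⟨x', hx', hd⟩ := hk.2 x hx
  refine ⟨-x', hs k _ hx', ?_⟩
  rwa [dist_neg_neg]

lemma HConv.ball (h : HConv X X₀) (hcl : IsClosed X₀) {r : ℝ} (hb : ∀ k, closedBall (0 : EE n) r ⊆ X k) :
    closedBall (0 : EE n) r ⊆ X₀ := by
  intro x hx
  apply h.mem_of_freq hcl
  intro ε hε
  exact Eventually.frequently (Eventually.of_forall fun k => ⟨x, hb k hx, by simpa using hε⟩)

lemma inflate {Y : Set (EE n)} (hYv : Convex ℝ Y) {r : ℝ} (hb : closedBall (0 : EE n) r ⊆ Y)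
    {η : ℝ} (hη : 0 < η) {x y : EE n} (hy : y ∈ Y) (hd : dist x y < η * r) : x ∈ (1 + η) • Y := by
  have h1 : 0 < 1 + η := by linarith
  set w := η⁻¹ • (x - y) with hw
  have hwm : w ∈ closedBall (0 : EE n) r := by
    rw [mem_closedBall_zero_iff, hw, norm_smul, norm_inv, Real.norm_of_nonneg hη.le]
    rw [dist_eq_norm] at hd
    rw [inv_mul_le_iff₀ hη]
    exact hd.le
  have hz : (1 + η)⁻¹ • y + (η / (1 + η)) • w ∈ Y :=
    hYv hy (hb hwm) (by positivity) (by positivity) (by field_simp)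
  refine ⟨_, hz, ?_⟩
  simp only [smul_add, smul_smul]
  rw [mul_inv_cancel₀ h1.ne', one_smul]
  have e : (1 + η) * (η / (1 + η)) = η := by field_simp
  rw [e, hw, smul_smul, mul_inv_cancel₀ hη.ne', one_smul]
  abel

/-- Two sets are each inside the `(1+η)` dilate of the other. -/
def Sand (X Y : Set (EE n)) (η : ℝ) : Prop := X ⊆ (1 + η) • Y ∧ Y ⊆ (1 + η) • X

lemma HConv.sand (h : HConv X X₀) (hv : ∀ k, Convex ℝ (X k)) (hv₀ : Convex ℝ X₀) {r : ℝ} (hr : 0 < r)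
    (hb : ∀ k, closedBall (0 : EE n) r ⊆ X k) (hb₀ : closedBall (0 : EE n) r ⊆ X₀) {η : ℝ} (hη : 0 < η) :
    ∀ᶠ k in atTop, Sand (X k) X₀ η := by
  filter_upwards [h (η * r) (by positivity)] with k hk
  constructor
  · intro x hx
    obtain ⟨y, hy, hd⟩ := hk.1 x hx
    exact inflate hv₀ hb₀ hη hy hd
  · intro y hy
    obtain ⟨x, hx, hd⟩ := hk.2 y hy
    exact inflate (hv k) (hb k) hη hx hd

end limits

/-- A numerical limit from sandwich bounds. -/
lemma tendsto_of_sand {f : ℕ → ℝ} {f₀ : ℝ} (k : ℕ) (hf₀ : 0 ≤ f₀)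
    (H : ∀ η > 0, ∀ᶠ j in atTop, f j ≤ (1 + η) ^ k * f₀ ∧ f₀ ≤ (1 + η) ^ k * f j) :
    Tendsto f atTop (𝓝 f₀) := by
  rw [Metric.tendsto_atTop']
  intro ε hε
  have hc : Continuous fun η : ℝ => ((1 + η) ^ k - 1) * f₀ := by fun_prop
  have h0 : Tendsto (fun η : ℝ => ((1 + η) ^ k - 1) * f₀) (𝓝[>] 0) (𝓝 0) := by
    have := hc.tendsto 0
    simp only [add_zero, one_pow, sub_self, zero_mul] at this
    exact this.mono_left nhdsWithin_le_nhds
  have hev := h0.eventually (gt_mem_nhds hε)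
  obtain ⟨η, hη1, hη0⟩ := (hev.and self_mem_nhdsWithin).exists
  have hηpos : (0 : ℝ) < η := hη0
  obtain ⟨N, hN⟩ := eventually_atTop.mp (H η hηpos)
  refine ⟨N, fun j hj => ?_⟩
  obtain ⟨h1, h2⟩ := hN j hj.le
  have hx : (1 : ℝ) ≤ (1 + η) ^ k := one_le_pow₀ (by linarith)
  rw [Real.dist_eq, abs_lt]
  constructor
  · -- lower bound
    have hx0 : 0 < (1 + η) ^ k := by linarith
    have h3 : f₀ / (1 + η) ^ k ≤ f j := by
      rw [div_le_iff₀ hx0, mul_comm]
      exact h2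
    have h4 : (2 - (1 + η) ^ k) * f₀ ≤ f₀ / (1 + η) ^ k := by
      rw [le_div_iff₀ hx0]
      have : (2 - (1 + η) ^ k) * (1 + η) ^ k ≤ 1 := by nlinarith [sq_nonneg ((1 + η) ^ k - 1)]
      nlinarith
    have h5 : ((1 + η) ^ k - 1) * f₀ < ε := hη1
    nlinarith
  · have h5 : ((1 + η) ^ k - 1) * f₀ < ε := hη1
    nlinarith

lemma volume_le_of_subset_smul {X Y : Set (EE n)} (hY : IsCompact Y) {c : ℝ} (hc : 0 ≤ c) (h : X ⊆ c • Y) :
    (volume X).toReal ≤ c ^ n * (volume Y).toReal := by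
  rw [← vol_smul_real hc]
  exact ENNReal.toReal_mono (hY.smul c).measure_lt_top.ne (measure_mono h)

/-- Volumes converge. -/
lemma tendsto_volume {X : ℕ → Set (EE n)} {X₀ : Set (EE n)} (hX : ∀ k, IsCompact (X k))
    (hX₀ : IsCompact X₀) (H : ∀ η > 0, ∀ᶠ k in atTop, Sand (X k) X₀ η) :
    Tendsto (fun k => (volume (X k)).toReal) atTop (𝓝 (volume X₀).toReal) := by
  apply tendsto_of_sand n ENNReal.toReal_nonneg
  intro η hη
  filter_upwards [H η hη] with k hk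
  exact ⟨volume_le_of_subset_smul hX₀ (by linarith) hk.1,
    volume_le_of_subset_smul (hX k) (by linarith) hk.2⟩

lemma supp_le_of_subset_smul {X Y : Set (EE n)} (hXne : X.Nonempty) (hY : IsCompact Y) {c : ℝ}
    (hc : 0 ≤ c) (h : X ⊆ c • Y) (u : EE n) : supp X u ≤ c * supp Y u := by
  unfold supp
  apply csSup_le (hXne.image _)
  rintro _ ⟨x, hx, rfl⟩
  obtain ⟨y, hy, rfl⟩ := h hx
  simp only [inner_smul_left, RCLike.conj_to_real]
  apply mul_le_mul_of_nonneg_left _ hc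
  exact le_csSup ((hY.image (by fun_prop)).bddAbove) ⟨y, hy, rfl⟩

lemma supp_nonneg_of_zero_mem {Y : Set (EE n)} (hY : IsCompact Y) (h0 : (0 : EE n) ∈ Y) (u : EE n) :
    0 ≤ supp Y u := by
  unfold supp
  have := le_csSup ((hY.image (f := fun x : EE n => ⟪x, u⟫) (by fun_prop)).bddAbove) ⟨0, h0, rfl⟩
  simpa using this

/-- Support functions converge. -/
lemma tendsto_supp {X : ℕ → Set (EE n)} {X₀ : Set (EE n)} (hX : ∀ k, IsCompact (X k))
    (hX₀ : IsCompact X₀) (hne : ∀ k, (X k).Nonempty)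
    (hne₀ : X₀.Nonempty) (h0 : (0 : EE n) ∈ X₀)
    (H : ∀ η > 0, ∀ᶠ k in atTop, Sand (X k) X₀ η) (u : EE n) :
    Tendsto (fun k => supp (X k) u) atTop (𝓝 (supp X₀ u)) := by
  apply tendsto_of_sand 1 (supp_nonneg_of_zero_mem hX₀ h0 u)
  intro η hη
  filter_upwards [H η hη] with k hk
  rw [pow_one]
  exact ⟨supp_le_of_subset_smul (hne k) hX₀ (by linarith) hk.1 u,
    supp_le_of_subset_smul hne₀ (hX k) (by linarith) hk.2 u⟩

lemma projVol_nonneg (Y : Set (EE n)) (u : EE n) : 0 ≤ projVol Y u := ENNReal.toReal_nonneg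

section projections

variable {m : ℕ}

/-- The volume of the projection scales with the dilate. -/
lemma projVol_le_of_subset_smul {X Y : Set (EE (m + 1))} (hX : IsCompact X) (hY : IsCompact Y) {c : ℝ}
    (hc : 0 ≤ c) (h : X ⊆ c • Y) {u : EE (m + 1)} (hu : ‖u‖ = 1) :
    projVol X u ≤ c ^ m * projVol Y u := by
  obtain ⟨b, rfl⟩ := exists_basis hu
  rw [projVol_eq hX, projVol_eq hY]
  have hsub : cmap b '' X ⊆ c • (cmap b '' Y) := by
    rintro _ ⟨x, hx, rfl⟩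
    obtain ⟨y, hy, rfl⟩ := h hx
    refine ⟨_, ⟨y, hy, rfl⟩, ?_⟩
    have := cmap_add_smul b y y c 0
    simp only [zero_smul, add_zero] at this
    exact this.symm
  have hYc : IsCompact (cmap b '' Y) := hY.image (cmap_continuous b)
  exact volume_le_of_subset_smul hYc hc hsub

/-- Projection volumes converge. -/
lemma tendsto_projVol {X : ℕ → Set (EE (m + 1))} {X₀ : Set (EE (m + 1))} (hX : ∀ k, IsCompact (X k))
    (hX₀ : IsCompact X₀) (H : ∀ η > 0, ∀ᶠ k in atTop, Sand (X k) X₀ η) {u : EE (m + 1)} (hu : ‖u‖ = 1) :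
    Tendsto (fun k => projVol (X k) u) atTop (𝓝 (projVol X₀ u)) := by
  apply tendsto_of_sand m (projVol_nonneg _ _)
  intro η hη
  filter_upwards [H η hη] with k hk
  exact ⟨projVol_le_of_subset_smul (hX k) hX₀ (by linarith) hk.1 hu,
    projVol_le_of_subset_smul hX₀ (hX k) (by linarith) hk.2 hu⟩

end projections

end

end Vale.Agent.Lib.P237.PN
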