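import Mathlib

/-!
# Comparison of the recursive constant with Petty's constant

`kap n` is the volume of the unit ball of `ℝⁿ`, `RR n = κ(n-1)^n κ(n)^(2-n)` is the constant in
Petty's conjectured projection inequality, and `rNum n = (3π²/4) ∏_{j=4}^n κ(j)^(1/j)`.
We prove `exp (-(log n)²) * RR n ≤ rNum n` for all `n ≥ 3`.
-/

open Real

namespace Vale.Agent.Lib.P237.PN

noncomputable section

/-- The volume of the unit ball of `ℝⁿ`. -/
def kap (n : ℕ) : ℝ := √π ^ n / Real.Gamma ((n : ℝ) / 2 + 1)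

/-- `kap n` is the volume of the unit ball of Euclidean `n`-space. -/
lemma volume_closedBall_eq_kap (n : ℕ) (hn : 0 < n) :
    (MeasureTheory.volume (Metric.closedBall (0 : EuclideanSpace ℝ (Fin n)) 1)).toReal = kap n := by
  have : Nonempty (Fin n) := ⟨⟨0, hn⟩⟩
  rw [EuclideanSpace.volume_closedBall]
  simp only [Fintype.card_fin, ENNReal.ofReal_one, one_pow, one_mul]
  rw [ENNReal.toReal_ofReal]
  · rfl
  · have : 0 < Real.Gamma ((n : ℝ) / 2 + 1) := Real.Gamma_pos_of_pos (by positivity)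
    positivity

/-- The constant of Petty's conjectured projection inequality: `κ(n-1)^n κ(n)^(2-n)`. -/
def RR (n : ℕ) : ℝ := kap (n - 1) ^ n / kap n ^ (n - 2)

/-- The recursive constant: `rNum 3 = 3π²/4`, `rNum n = rNum (n-1) * κ(n)^(1/n)`. -/
def rNum (n : ℕ) : ℝ := 3 * π ^ 2 / 4 * ∏ j ∈ Finset.Icc 4 n, kap j ^ (1 / (j : ℝ))

lemma kap_pos (n : ℕ) : 0 < kap n := by
  have : 0 < Real.Gamma ((n : ℝ) / 2 + 1) := Real.Gamma_pos_of_pos (by positivity)
  have h2 : 0 < √π := Real.sqrt_pos.2 Real.pi_pos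
  unfold kap
  positivity

lemma rNum_three : rNum 3 = 3 * π ^ 2 / 4 := by
  simp [rNum]

lemma rNum_succ {n : ℕ} (hn : 3 ≤ n) : rNum (n + 1) = rNum n * kap (n + 1) ^ (1 / ((n + 1 : ℕ) : ℝ)) := by
  unfold rNum
  rw [Finset.prod_Icc_succ_top (by omega)]
  ring

lemma RR_three : RR 3 = 3 * π ^ 2 / 4 := by
  have h1 : kap 2 = π := by
    unfold kap
    have : ((2 : ℕ) : ℝ) / 2 + 1 = 1 + 1 := by norm_num
    rw [this, Real.Gamma_add_one (by norm_num), Real.Gamma_one, Real.sq_sqrt Real.pi_pos.le]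
    simp
  have h2 : kap 3 = 4 * π / 3 := by
    unfold kap
    have : ((3 : ℕ) : ℝ) / 2 + 1 = (1 / 2 + 1) + 1 := by norm_num
    rw [this, Real.Gamma_add_one (by norm_num), Real.Gamma_add_one (by norm_num),
      Real.Gamma_one_half_eq]
    have h3 : √π ^ 3 = √π * π := by
      rw [pow_succ, Real.sq_sqrt Real.pi_pos.le]; ring
    rw [h3]
    have h4 : √π ≠ 0 := (Real.sqrt_pos.2 Real.pi_pos).ne'
    field_simp
    norm_num
  unfold RR
  norm_num
  rw [h1, h2]
  have := Real.pi_pos
  field_simp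

lemma kap_zero : kap 0 = 1 := by
  simp [kap]

lemma kap_one : kap 1 = 2 := by
  unfold kap
  have : ((1 : ℕ) : ℝ) / 2 + 1 = 1 / 2 + 1 := by norm_num
  rw [this, Real.Gamma_add_one (by norm_num), Real.Gamma_one_half_eq]
  have h4 : √π ≠ 0 := (Real.sqrt_pos.2 Real.pi_pos).ne'
  field_simp

lemma kap_add_two (n : ℕ) : kap (n + 2) = 2 * π / ((n : ℝ) + 2) * kap n := by
  unfold kap
  have h1 : ((n + 2 : ℕ) : ℝ) / 2 + 1 = ((n : ℝ) / 2 + 1) + 1 := by push_cast; ring
  have hpos : (n : ℝ) / 2 + 1 ≠ 0 := by positivity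
  rw [h1, Real.Gamma_add_one hpos]
  have hG : Real.Gamma ((n : ℝ) / 2 + 1) ≠ 0 := (Real.Gamma_pos_of_pos (by positivity)).ne'
  have h3 : √π ^ (n + 2) = √π ^ n * π := by
    rw [pow_add, Real.sq_sqrt Real.pi_pos.le]
  rw [h3]
  have hn2 : (n : ℝ) + 2 ≠ 0 := by positivity
  field_simp

/-- The closed form of consecutive products. -/
lemma kap_mul (n : ℕ) :
    kap (n + 1) * kap n = 2 ^ (n + 1) * π ^ n / ((n + 1).factorial : ℝ) := by
  induction n with
  | zero => simp [kap_zero, kap_one]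
  | succ n ih =>
    have h : kap (n + 1 + 1) = 2 * π / ((n : ℝ) + 2) * kap n := kap_add_two n
    rw [h, Nat.factorial_succ (n + 1)]
    have e : 2 * π / ((n : ℝ) + 2) * kap n * kap (n + 1)
        = 2 * π / ((n : ℝ) + 2) * (kap (n + 1) * kap n) := by ring
    rw [e, ih]
    have hf : ((n + 1).factorial : ℝ) ≠ 0 := by positivity
    have hn2 : (n : ℝ) + 2 ≠ 0 := by positivity
    push_cast
    field_simp
    ring

/-- Log-concavity of `kap`: consequence of the log-convexity of `Γ`. -/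
lemma kap_mul_le_sq (n : ℕ) : kap n * kap (n + 2) ≤ kap (n + 1) ^ 2 := by
  set x : ℝ := (n : ℝ) / 2 + 1 with hx
  have hxpos : 0 < x := by positivity
  have h1 : ((n + 2 : ℕ) : ℝ) / 2 + 1 = x + 1 := by rw [hx]; push_cast; ring
  have h2 : ((n + 1 : ℕ) : ℝ) / 2 + 1 = x + 1 / 2 := by rw [hx]; push_cast; ring
  have hG0 : 0 < Real.Gamma x := Real.Gamma_pos_of_pos hxpos
  have hG1 : 0 < Real.Gamma (x + 1) := Real.Gamma_pos_of_pos (by positivity)
  have hGh : 0 < Real.Gamma (x + 1 / 2) := Real.Gamma_pos_of_pos (by positivity)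
  have key : Real.Gamma (x + 1 / 2) ^ 2 ≤ Real.Gamma x * Real.Gamma (x + 1) := by
    have h := Real.Gamma_mul_add_mul_le_rpow_Gamma_mul_rpow_Gamma (s := x) (t := x + 1)
      (a := 1 / 2) (b := 1 / 2) hxpos (by positivity) (by norm_num) (by norm_num) (by norm_num)
    have e : 1 / 2 * x + 1 / 2 * (x + 1) = x + 1 / 2 := by ring
    rw [e] at h
    have h3 : Real.Gamma (x + 1 / 2) ^ 2 ≤
        (Real.Gamma x ^ (1 / 2 : ℝ) * Real.Gamma (x + 1) ^ (1 / 2 : ℝ)) ^ 2 :=
      pow_le_pow_left₀ hGh.le h 2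
    have h4 : (Real.Gamma x ^ (1 / 2 : ℝ) * Real.Gamma (x + 1) ^ (1 / 2 : ℝ)) ^ 2
        = Real.Gamma x * Real.Gamma (x + 1) := by
      rw [mul_pow, ← Real.rpow_natCast, ← Real.rpow_natCast, ← Real.rpow_mul hG0.le,
        ← Real.rpow_mul hG1.le]
      norm_num
    linarith
  unfold kap
  rw [h1, h2, ← hx]
  have e1 : √π ^ n / Real.Gamma x * (√π ^ (n + 2) / Real.Gamma (x + 1))
      = π ^ (n + 1) / (Real.Gamma x * Real.Gamma (x + 1)) := by
    have : √π ^ n * √π ^ (n + 2) = π ^ (n + 1) := by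
      rw [← Real.sq_sqrt Real.pi_pos.le, ← pow_mul, ← pow_add, Real.sq_sqrt Real.pi_pos.le]
      congr 1
      omega
    rw [div_mul_div_comm, this]
  have e2 : (√π ^ (n + 1) / Real.Gamma (x + 1 / 2)) ^ 2
      = π ^ (n + 1) / Real.Gamma (x + 1 / 2) ^ 2 := by
    rw [div_pow, ← pow_mul, mul_comm, pow_mul, Real.sq_sqrt Real.pi_pos.le]
  rw [e1, e2]
  exact div_le_div_of_nonneg_left (by positivity) (by positivity) key

/-- The key lower bound on consecutive ratios. -/
lemma sq_ratio (m : ℕ) : 2 * π / ((m : ℝ) + 2) * kap m ^ 2 ≤ kap (m + 1) ^ 2 := by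
  have h := kap_mul_le_sq m
  rw [kap_add_two] at h
  calc 2 * π / ((m : ℝ) + 2) * kap m ^ 2 = kap m * (2 * π / ((m : ℝ) + 2) * kap m) := by ring
    _ ≤ _ := h

/-- The logarithm of `kap`. -/
def logKap (n : ℕ) : ℝ := Real.log (kap n)

lemma logKap_sum (m : ℕ) :
    logKap (m + 1) + logKap m
      = (m + 1) * Real.log 2 + m * Real.log π - Real.log ((m + 1).factorial : ℝ) := by
  unfold logKap
  rw [← Real.log_mul (kap_pos _).ne' (kap_pos _).ne', kap_mul,
    Real.log_div (by positivity) (by positivity),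
    Real.log_mul (by positivity) (by positivity), Real.log_pow, Real.log_pow]
  push_cast
  ring

lemma logKap_step (m : ℕ) : Real.log (2 * π / ((m : ℝ) + 2)) + 2 * logKap m ≤ 2 * logKap (m + 1) := by
  have h := sq_ratio m
  have hpos : 0 < 2 * π / ((m : ℝ) + 2) := by
    have := Real.pi_pos
    positivity
  have h1 := Real.log_le_log (by have := kap_pos m; positivity) h
  rw [Real.log_mul hpos.ne' (by have := kap_pos m; positivity), Real.log_pow, Real.log_pow] at h1
  unfold logKap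
  push_cast at h1
  linarith

/-- Stirling-type bound. -/
lemma log_factorial_le (m : ℕ) :
    Real.log ((m + 1).factorial : ℝ)
      ≤ ((m : ℝ) + 1) * Real.log ((m : ℝ) + 1) - ((m : ℝ) + 1) + Real.log ((m : ℝ) + 1) + 1 := by
  induction m with
  | zero => simp
  | succ m ih =>
    rw [Nat.factorial_succ, Nat.cast_mul, Real.log_mul (by positivity) (by positivity)]
    push_cast
    have hm : (0 : ℝ) < (m : ℝ) + 1 := by positivity
    have hm2 : (0 : ℝ) < (m : ℝ) + 1 + 1 := by positivity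
    have hk : 1 / ((m : ℝ) + 1 + 1) ≤ Real.log ((m : ℝ) + 1 + 1) - Real.log ((m : ℝ) + 1) := by
      rw [← Real.log_div hm2.ne' hm.ne']
      have := Real.one_sub_inv_le_log_of_pos (x := ((m : ℝ) + 1 + 1) / ((m : ℝ) + 1)) (by positivity)
      have e : 1 - (((m : ℝ) + 1 + 1) / ((m : ℝ) + 1))⁻¹ = 1 / ((m : ℝ) + 1 + 1) := by
        field_simp
        ring
      rw [e] at this
      exact this
    have hk2 : 1 ≤ ((m : ℝ) + 1 + 1) * (Real.log ((m : ℝ) + 1 + 1) - Real.log ((m : ℝ) + 1)) := by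
      have := mul_le_mul_of_nonneg_left hk hm2.le
      rwa [mul_one_div_cancel hm2.ne'] at this
    nlinarith [ih, hk2]

/-- The explicit upper bound on the logarithm of `RR (m + 1)`. -/
def BB (m : ℕ) : ℝ :=
  (m + 1) * Real.log 2 + m * Real.log π - Real.log ((m + 1).factorial : ℝ)
    - (m / 2) * Real.log (2 * π / ((m : ℝ) + 2))

lemma log_RR_le (m : ℕ) (hm : 1 ≤ m) : Real.log (RR (m + 1)) ≤ BB m := by
  obtain ⟨k, rfl⟩ : ∃ k, m = k + 1 := ⟨m - 1, by omega⟩
  unfold RR
  have e1 : k + 1 + 1 - 1 = k + 1 := by omega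
  have e2 : k + 1 + 1 - 2 = k := by omega
  rw [e1, e2, Real.log_div (pow_ne_zero _ (kap_pos _).ne') (pow_ne_zero _ (kap_pos _).ne'),
    Real.log_pow, Real.log_pow]
  have hs := logKap_sum (k + 1)
  have hst := logKap_step (k + 1)
  unfold BB
  unfold logKap at hs hst
  set P := Real.log (kap (k + 1)) with hP
  set Q := Real.log (kap (k + 1 + 1)) with hQ
  set G := Real.log (2 * π / (((k + 1 : ℕ) : ℝ) + 2)) with hG
  set F := Real.log (((k + 1 + 1).factorial : ℝ)) with hF
  push_cast at *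
  have hkk : (0 : ℝ) ≤ (k : ℝ) + 1 := by positivity
  nlinarith [mul_le_mul_of_nonneg_left hst hkk]

lemma log_two_pi_div (x : ℝ) (hx : 0 < x) :
    Real.log (2 * π / x) = Real.log 2 + Real.log π - Real.log x := by
  rw [Real.log_div (by have := Real.pi_pos; positivity) hx.ne',
    Real.log_mul (by norm_num) Real.pi_pos.ne']

lemma BB_succ (m : ℕ) :
    BB (m + 1) - BB m
      = (1 / 2) * (Real.log 2 + Real.log π) - (1 / 2) * Real.log ((m : ℝ) + 2)
        + (((m : ℝ) + 1) / 2) * (Real.log ((m : ℝ) + 3) - Real.log ((m : ℝ) + 2)) := by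
  unfold BB
  have hf : (((m + 1 + 1).factorial : ℕ) : ℝ) = ((m : ℝ) + 2) * ((m + 1).factorial : ℝ) := by
    rw [Nat.factorial_succ (m + 1)]
    push_cast
    ring
  have hm2 : (0 : ℝ) < (m : ℝ) + 2 := by positivity
  have hm3 : (0 : ℝ) < (m : ℝ) + 3 := by positivity
  have e1 : (((m + 1 : ℕ) : ℝ) + 2) = (m : ℝ) + 3 := by push_cast; ring
  rw [hf, Real.log_mul hm2.ne' (by positivity), e1, log_two_pi_div _ hm3, log_two_pi_div _ hm2]
  push_cast
  ring

/-- The real inequality behind the induction step. -/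
lemma step_ineq (M u L L' d l2 lp A F : ℝ) (hM : 4 ≤ M) (hu : M * u = 1)
    (hd0 : 0 ≤ d) (hd1 : d ≤ u) (hL : 1.38 ≤ L) (hLL1 : u ≤ L - L') (hLL2 : L - L' ≤ 1 / 3)
    (hlp : lp - l2 ≤ 0.6) (hF : F ≤ M * L - M + L + 1)
    (hA : M * l2 + (M - 1) * lp - F + (1 / 2) * (l2 + lp - L - d) ≤ 2 * A) :
    (1 / 2) * (l2 + lp) - (1 / 2) * L + ((M - 1) / 2) * d - (L ^ 2 - L' ^ 2) ≤ u * A := by
  have hu0 : 0 < u := by
    by_contra h
    push Not at h
    nlinarith
  have hu4 : u ≤ 1 / 4 := by nlinarith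
  -- the bound on the sum of squares
  have h1 : (7 / 4) * L ≤ L + L' := by linarith
  have h2 : u * ((7 / 4) * L) ≤ L ^ 2 - L' ^ 2 := by
    have e : L ^ 2 - L' ^ 2 = (L - L') * (L + L') := by ring
    rw [e]
    have hpos : 0 ≤ (7 / 4) * L := by linarith
    exact mul_le_mul hLL1 h1 hpos (by linarith)
  -- the term with d
  have h3 : ((M - 1) / 2) * d ≤ 1 / 2 - u / 2 := by
    have : ((M - 1) / 2) * d ≤ ((M - 1) / 2) * u :=
      mul_le_mul_of_nonneg_left hd1 (by linarith)
    have e : ((M - 1) / 2) * u = 1 / 2 - u / 2 := by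
      have : ((M - 1) / 2) * u = (M * u) / 2 - u / 2 := by ring
      rw [this, hu]
    linarith
  -- multiply hA by u
  have h4 := mul_le_mul_of_nonneg_left hA hu0.le
  have h5 := mul_le_mul_of_nonneg_left hF hu0.le
  have e1 : u * (M * l2 + (M - 1) * lp - F + (1 / 2) * (l2 + lp - L - d))
      = (M * u) * l2 + (M * u) * lp - u * lp - u * F + (1 / 2) * u * (l2 + lp - L - d) := by ring
  have e2 : u * (M * L - M + L + 1) = (M * u) * L - (M * u) + u * L + u := by ring
  rw [hu] at e1 e2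
  rw [e1] at h4
  rw [e2] at h5
  have e3 : u * (2 * A) = 2 * (u * A) := by ring
  rw [e3] at h4
  have h6 : u * (lp - l2) ≤ u * 0.6 := mul_le_mul_of_nonneg_left hlp hu0.le
  have h7 : u * d ≤ u * (1 / 4) := mul_le_mul_of_nonneg_left (by linarith) hu0.le
  have h8 : u * 1.38 ≤ u * L := mul_le_mul_of_nonneg_left hL hu0.le
  nlinarith

lemma log_four_ge : (1.38 : ℝ) ≤ Real.log 4 := by
  have : Real.log 4 = 2 * Real.log 2 := by
    rw [show (4 : ℝ) = 2 ^ 2 by norm_num, Real.log_pow]
    norm_num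
  rw [this]
  have := Real.log_two_gt_d9
  linarith

/-- The induction. -/
lemma BB_sub_sq_le_log_rr (m : ℕ) (hm : 2 ≤ m) :
    BB m - Real.log ((m : ℝ) + 1) ^ 2 ≤ Real.log (rNum (m + 1)) := by
  induction m, hm using Nat.le_induction with
  | base =>
    have h3 : rNum (2 + 1) = 3 * π ^ 2 / 4 := rNum_three
    rw [h3]
    have hfac : (((2 + 1).factorial : ℕ) : ℝ) = 2 * 3 := by norm_num [Nat.factorial]
    unfold BB
    rw [hfac, log_two_pi_div _ (by positivity)]
    have hpi := Real.pi_pos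
    have e1 : Real.log (3 * π ^ 2 / 4) = Real.log 3 + 2 * Real.log π - 2 * Real.log 2 := by
      rw [Real.log_div (by positivity) (by norm_num), Real.log_mul (by norm_num) (by positivity),
        Real.log_pow, show (4 : ℝ) = 2 ^ 2 by norm_num, Real.log_pow]
      norm_num
    have e2 : Real.log ((2 : ℝ) * 3) = Real.log 2 + Real.log 3 :=
      Real.log_mul (by norm_num) (by norm_num)
    have e3 : Real.log (((2 : ℕ) : ℝ) + 2) = 2 * Real.log 2 := by
      rw [show (((2 : ℕ) : ℝ) + 2) = 2 ^ 2 by norm_num, Real.log_pow]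
      norm_num
    have e4 : (((2 : ℕ) : ℝ) + 1) = 3 := by norm_num
    rw [e1, e2, e3, e4]
    have h1 : 1 ≤ Real.log 3 := by
      rw [Real.le_log_iff_exp_le (by norm_num)]
      have := Real.exp_one_lt_d9
      linarith
    have h2 : Real.log 3 ≤ Real.log π := Real.log_le_log (by norm_num) Real.pi_gt_three.le
    have h3 := Real.log_two_lt_d9
    push_cast
    nlinarith
  | succ m hm ih =>
    have hr : rNum (m + 1 + 1) = rNum (m + 1) * kap (m + 1 + 1) ^ (1 / ((m + 1 + 1 : ℕ) : ℝ)) :=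
      rNum_succ (by omega)
    have hrpos : 0 < rNum (m + 1) := by
      unfold rNum
      have := Real.pi_pos
      apply mul_pos (by positivity)
      apply Finset.prod_pos
      intro j _
      exact Real.rpow_pos_of_pos (kap_pos j) _
    rw [hr, Real.log_mul hrpos.ne' (Real.rpow_pos_of_pos (kap_pos _) _).ne',
      Real.log_rpow (kap_pos _)]
    have hm2 : (2 : ℝ) ≤ m := by exact_mod_cast hm
    set M : ℝ := (m : ℝ) + 2 with hMdef
    have hM : 4 ≤ M := by rw [hMdef]; linarith
    have hMpos : 0 < M := by linarith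
    have cast1 : ((m + 1 + 1 : ℕ) : ℝ) = M := by rw [hMdef]; push_cast; ring
    have cast2 : ((m + 1 : ℕ) : ℝ) + 1 = M := by rw [hMdef]; push_cast; ring
    have cast3 : (m : ℝ) + 1 = M - 1 := by rw [hMdef]; ring
    have cast4 : (m : ℝ) + 3 = M + 1 := by rw [hMdef]; ring
    rw [cast1, cast2]
    rw [cast3] at ih
    have hbb := BB_succ m
    rw [← hMdef, cast3, cast4] at hbb
    -- the inputs of `step_ineq`
    have hlog_d0 : 0 ≤ Real.log (M + 1) - Real.log M := by
      have := Real.log_le_log hMpos (by linarith : M ≤ M + 1)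
      linarith
    have hlog_d1 : Real.log (M + 1) - Real.log M ≤ 1 / M := by
      rw [← Real.log_div (by linarith) hMpos.ne']
      have := Real.log_le_sub_one_of_pos (x := (M + 1) / M) (by positivity)
      have e : (M + 1) / M - 1 = 1 / M := by field_simp; ring
      linarith
    have hL : (1.38 : ℝ) ≤ Real.log M :=
      log_four_ge.trans (Real.log_le_log (by norm_num) hM)
    have hLL1 : 1 / M ≤ Real.log M - Real.log (M - 1) := by
      have hpos : 0 < M - 1 := by linarith
      rw [← Real.log_div hMpos.ne' hpos.ne']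
      have := Real.one_sub_inv_le_log_of_pos (x := M / (M - 1)) (by positivity)
      have e : 1 - (M / (M - 1))⁻¹ = 1 / M := by field_simp; ring
      linarith
    have hLL2 : Real.log M - Real.log (M - 1) ≤ 1 / 3 := by
      have hpos : 0 < M - 1 := by linarith
      rw [← Real.log_div hMpos.ne' hpos.ne']
      have := Real.log_le_sub_one_of_pos (x := M / (M - 1)) (by positivity)
      have e : M / (M - 1) - 1 = 1 / (M - 1) := by field_simp; ring
      have h3 : 1 / (M - 1) ≤ 1 / 3 := one_div_le_one_div_of_le (by norm_num) (by linarith)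
      linarith
    have hlp : Real.log π - Real.log 2 ≤ 0.6 := by
      rw [← Real.log_div Real.pi_pos.ne' (by norm_num)]
      have := Real.log_le_sub_one_of_pos (x := π / 2) (by have := Real.pi_pos; positivity)
      have h4 := Real.pi_lt_d2
      linarith
    have hF := log_factorial_le (m + 1)
    have cast5 : ((m + 1 : ℕ) : ℝ) + 1 = M := cast2
    rw [cast5] at hF
    have hA : M * Real.log 2 + (M - 1) * Real.log π - Real.log ((m + 1 + 1).factorial : ℝ)
        + (1 / 2) * (Real.log 2 + Real.log π - Real.log M - (Real.log (M + 1) - Real.log M))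
        ≤ 2 * Real.log (kap (m + 1 + 1)) := by
      have hs := logKap_sum (m + 1)
      have hst := logKap_step (m + 1)
      unfold logKap at hs hst
      have e5 : ((m + 1 : ℕ) : ℝ) + 2 = M + 1 := by rw [hMdef]; push_cast; ring
      rw [e5, log_two_pi_div _ (by linarith)] at hst
      have e6 : ((m + 1 : ℕ) : ℝ) + 1 = M := cast2
      rw [e6] at hs
      have e7 : ((m + 1 : ℕ) : ℝ) = M - 1 := by rw [hMdef]; push_cast; ring
      rw [e7] at hs
      linarith
    have key := step_ineq M (1 / M) (Real.log M) (Real.log (M - 1))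
      (Real.log (M + 1) - Real.log M) (Real.log 2) (Real.log π) (Real.log (kap (m + 1 + 1)))
      (Real.log ((m + 1 + 1).factorial : ℝ)) hM (by field_simp) hlog_d0 hlog_d1 hL hLL1 hLL2 hlp hF
      hA
    linarith

theorem r_ge (n : ℕ) (hn : 3 ≤ n) :
    Real.exp (-(Real.log (n : ℝ)) ^ 2) * RR n ≤ rNum n := by
  obtain ⟨m, rfl⟩ : ∃ m, n = m + 1 := ⟨n - 1, by omega⟩
  have hm : 2 ≤ m := by omega
  have h1 := log_RR_le m (by omega)
  have h2 := BB_sub_sq_le_log_rr m hm
  have hRpos : 0 < RR (m + 1) := by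
    unfold RR
    exact div_pos (pow_pos (kap_pos _) _) (pow_pos (kap_pos _) _)
  have hrpos : 0 < rNum (m + 1) := by
    unfold rNum
    have := Real.pi_pos
    apply mul_pos (by positivity)
    apply Finset.prod_pos
    intro j _
    exact Real.rpow_pos_of_pos (kap_pos j) _
  rw [← Real.log_le_log_iff (by positivity) hrpos, Real.log_mul (Real.exp_ne_zero _) hRpos.ne',
    Real.log_exp]
  push_cast
  linarith

end

end Vale.Agent.Lib.P237.PN
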