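import Mathlib.Analysis.InnerProductSpace.PiL2
import Mathlib.MeasureTheory.Measure.Haar.InnerProductSpace
import Mathlib.MeasureTheory.Measure.Lebesgue.Basic
import Mathlib.Analysis.SpecialFunctions.Pow.Real

/-!
# The statement of the bound in all dimensions
-/

open MeasureTheory
open scoped RealInnerProductSpace Real

namespace Vale.Agent.Lib.P237.StmtN

/-- Euclidean `n`-space. -/
abbrev EE (n : ℕ) := EuclideanSpace ℝ (Fin n)

noncomputable section

/-- The coordinates of `x` in the first `m` vectors of an orthonormal basis `b` of `ℝ^(m+1)`: this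
is the orthogonal projection of `x` onto the hyperplane orthogonal to the last vector of `b`, written
in the orthonormal basis of that hyperplane given by the other vectors of `b`. -/
def shadowCoord {m : ℕ} (b : OrthonormalBasis (Fin (m + 1)) ℝ (EE (m + 1))) (x : EE (m + 1)) : EE m :=
  WithLp.toLp 2 fun i => ⟪b i.castSucc, x⟫

/-- The `m`-dimensional volume of the orthogonal projection of `K` onto the hyperplane orthogonal to
the last vector of `b`. -/
def shadowVol {m : ℕ} (K : Set (EE (m + 1))) (b : OrthonormalBasis (Fin (m + 1)) ℝ (EE (m + 1))) : ℝ :=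
  (volume (shadowCoord b '' K)).toReal

/-- The support function of `L`. -/
def supportFn {n : ℕ} (L : Set (EE n)) (u : EE n) : ℝ := sSup ((fun x : EE n => ⟪x, u⟫) '' L)

/-- `L` is the projection body of `K`: a compact convex nonempty set whose support function at a unit
vector `u` is the volume of the orthogonal projection of `K` onto the hyperplane orthogonal to `u`
(every unit vector is the last vector of an orthonormal basis). -/
structure IsProjectionBody {m : ℕ} (K L : Set (EE (m + 1))) : Prop where
  compact : IsCompact L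
  convex : Convex ℝ L
  nonempty : L.Nonempty
  support : ∀ b : OrthonormalBasis (Fin (m + 1)) ℝ (EE (m + 1)),
    supportFn L (b (Fin.last m)) = shadowVol K b

/-- The volume of the unit ball of `ℝⁿ`. -/
def kappa (n : ℕ) : ℝ := (volume (Metric.closedBall (0 : EE n) 1)).toReal

/-- The constant `r_n = (3 π² / 4) ∏_{j=4}^n κ_j^(1/j)`, i.e. `r_3 = 3 π² / 4` and
`r_n = r_(n-1) κ_n^(1/n)`. -/
def rConst (n : ℕ) : ℝ := 3 * π ^ 2 / 4 * ∏ j ∈ Finset.Icc 4 n, kappa j ^ ((1 : ℝ) / j)

/-- The constant of Petty's conjecture: `κ_(n-1)^n κ_n^(2-n)`. -/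
def pettyConst (n : ℕ) : ℝ := kappa (n - 1) ^ n / kappa n ^ (n - 2)

end

end Vale.Agent.Lib.P237.StmtN
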