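import Vale.Agent.Lib.P237.PN.Min
import Vale.Agent.Lib.P237.PN.StmtN
import Vale.Agent.Lib.P237.PN.Ratio
import Vale.Agent.Lib.P237.PettyFinal

/-!
# Petty's inequality in all dimensions with the constant `r_n`
-/

open MeasureTheory Set Module Filter Topology
open scoped RealInnerProductSpace ENNReal Pointwise Real

namespace Vale.Agent.Lib.P237.PN

open Vale.Agent.Lib.P237

noncomputable section

/-- The base case: dimension three. -/
theorem pettyDim_three : PettyDim 3 (3 * π ^ 2 / 4) := by
  intro K hK hKc hi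
  exact (Petty.AllK.all_of_zonotope (c := 3 * π ^ 2 / 4) (fun a => Petty.zonotope_sharp a) hK hKc hi).2

lemma rConst_three : StmtN.rConst 3 = 3 * π ^ 2 / 4 := by
  unfold StmtN.rConst
  simp

lemma rConst_succ (k : ℕ) : StmtN.rConst (k + 3 + 1)
    = StmtN.rConst (k + 3) * StmtN.kappa (k + 3 + 1) ^ ((1 : ℝ) / ((k + 3 + 1 : ℕ) : ℝ)) := by
  unfold StmtN.rConst
  rw [Finset.prod_Icc_succ_top (by omega), mul_assoc]

lemma rConst_nonneg (k : ℕ) : 0 ≤ StmtN.rConst (k + 3) := by
  unfold StmtN.rConst
  apply mul_nonneg (by positivity)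
  apply Finset.prod_nonneg
  intro j _
  exact Real.rpow_nonneg ENNReal.toReal_nonneg _

/-- **Petty's inequality in all dimensions `n ≥ 3`, with the constant `r_n`.** -/
theorem pettyDim_all (k : ℕ) : PettyDim (k + 3) (StmtN.rConst (k + 3)) := by
  induction k with
  | zero =>
    rw [rConst_three]
    exact pettyDim_three
  | succ k ih =>
    have hs := petty_step (k := k + 2) (by omega) (rConst_nonneg k) ih
    have e : (1 : ℝ) / (((k + 2 + 1 : ℕ) : ℝ) + 1) = (1 : ℝ) / ((k + 3 + 1 : ℕ) : ℝ) := by
      push_cast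
      ring
    rw [e] at hs
    have : StmtN.rConst (k + 1 + 3) = StmtN.rConst (k + 3 + 1) := rfl
    rw [this, rConst_succ]
    exact hs

variable {m : ℕ}

/-- The explicit projection body is a projection body. -/
theorem toIsProjBody {K L : Set (EE (m + 1))} (hK : IsCompact K) (h : StmtN.IsProjectionBody K L) :
    IsProjBody K L where
  compact := h.compact
  convex := h.convex
  nonempty := h.nonempty
  support := fun u hu => by
    obtain ⟨b, rfl⟩ := exists_basis hu
    rw [projVol_eq hK b]
    exact h.support b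

/-- A projection body is an explicit projection body. -/
theorem ofIsProjBody {K L : Set (EE (m + 1))} (hK : IsCompact K) (h : IsProjBody K L) :
    StmtN.IsProjectionBody K L where
  compact := h.compact
  convex := h.convex
  nonempty := h.nonempty
  support := fun b => by
    have h1 := h.support _ (b.norm_eq_one (Fin.last m))
    rw [projVol_eq hK b] at h1
    exact h1

/-- Existence of the projection body for a convex body. -/
theorem exists_projBody {K : Set (EE (m + 1))} (hK : IsCompact K) (hKc : Convex ℝ K)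
    (hi : (interior K).Nonempty) : IsProjBody K (projBodyOf K) := by
  obtain ⟨x₀, hx₀⟩ := hi
  obtain ⟨ρ, hρ, hball⟩ := Metric.nhds_basis_closedBall.mem_iff.mp (mem_interior_iff_mem_nhds.mp hx₀)
  set K₁ := (fun x => x + (-x₀)) '' K with hK₁
  have hK₁c : IsCompact K₁ := hK.image (by fun_prop)
  have hK₁v : Convex ℝ K₁ := by
    rintro _ ⟨x, hx, rfl⟩ _ ⟨z, hz, rfl⟩ a e ha he hae
    refine ⟨a • x + e • z, hKc hx hz ha he hae, ?_⟩
    have : a • (x + -x₀) + e • (z + -x₀) = a • x + e • z + (a + e) • (-x₀) := by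
      rw [smul_add, smul_add, add_smul]
      abel
    simp only at this ⊢
    rw [this, hae, one_smul]
  have hB₁ : Metric.closedBall (0 : EE (m + 1)) ρ ⊆ K₁ := by
    intro z hz
    refine ⟨z + x₀, hball ?_, by simp⟩
    rw [mem_closedBall_iff_norm, add_sub_cancel_right]
    simpa using hz
  have h1 := isProjBody_projBodyOf hK₁c hK₁v hρ hB₁
  rw [projBodyOf_translate hK] at h1
  refine ⟨h1.compact, h1.convex, h1.nonempty, fun u hu => ?_⟩
  rw [h1.support u hu, hK₁, projVol_translate hK _ hu]

lemma kappa_eq_kap {n : ℕ} (hn : 0 < n) : StmtN.kappa n = kap n :=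
  volume_closedBall_eq_kap n hn

lemma rConst_eq_rNum (n : ℕ) : StmtN.rConst n = rNum n := by
  unfold StmtN.rConst rNum
  congr 1
  apply Finset.prod_congr rfl
  intro j hj
  rw [kappa_eq_kap (by have := (Finset.mem_Icc.mp hj).1; omega)]

lemma pettyConst_eq_RR {n : ℕ} (hn : 2 ≤ n) : StmtN.pettyConst n = RR n := by
  unfold StmtN.pettyConst RR
  rw [kappa_eq_kap (by omega), kappa_eq_kap (by omega)]

/-- The constant `r_n` is within a factor `exp ((log n)²)` of the constant of Petty's conjecture. -/
theorem pettyConst_le_rConst {n : ℕ} (hn : 3 ≤ n) :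
    Real.exp (-(Real.log (n : ℝ)) ^ 2) * StmtN.pettyConst n ≤ StmtN.rConst n := by
  rw [rConst_eq_rNum, pettyConst_eq_RR (by omega)]
  exact r_ge n hn

/-- **Main theorem.** -/
theorem petty_all_dim (hm : 2 ≤ m) {K : Set (EE (m + 1))} (hK : IsCompact K) (hKc : Convex ℝ K)
    (hi : (interior K).Nonempty) :
    ∃ L, StmtN.IsProjectionBody K L ∧ (∀ L', StmtN.IsProjectionBody K L' → L' = L) ∧
      StmtN.rConst (m + 1) * (volume K).toReal ^ m ≤ (volume L).toReal := by
  obtain ⟨k, rfl⟩ : ∃ k, m = k + 2 := ⟨m - 2, by omega⟩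
  have h1 := exists_projBody hK hKc hi
  refine ⟨projBodyOf K, ofIsProjBody hK h1, fun L' hL' => isProjBody_eq (toIsProjBody hK hL'), ?_⟩
  have := pettyDim_all k K hK hKc hi
  simpa using this

end

end Vale.Agent.Lib.P237.PN
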