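import Vale.Agent.Lib.P237.PN.Sweep

/-!
# Polytope approximation, Cauchy upper bound, the tangent inequality for `K` and `Π² K`

`W = projBodyOf K`.  `exists_poly`: `W ⊆ P = poly N (supp W) ⊆ (1+η) W`.  `projVol_poly_le`: Cauchy as an upper
bound, `projVol P u ≤ ∑ |⟪G_n, u⟫|`, `G_n = (A_n/2) n`, since `cmap b '' P` is covered by the images of the upper
facets and a flat set scales by `|⟪n, u⟫|` (`volume_cmap_plane`, the minor of an orthogonal matrix,
`abs_det_minor`).  `sum_cones`: `∑ β_n A_n ≤ (m+1) |P|`, pyramids over the facets are disjoint up to null sets.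
`tangent_zs`: Brunn-Minkowski and `volume_zs_le` give the tangent line; then `η → 0`.
-/

open MeasureTheory Set Module Filter Topology
open scoped RealInnerProductSpace ENNReal Pointwise

namespace Vale.Agent.Lib.P237.PN

noncomputable section

variable {m : ℕ}

/-- A polytope given by finitely many half spaces. -/
def poly (N : Finset (EE (m + 1))) (β : EE (m + 1) → ℝ) : Set (EE (m + 1)) :=
  {x | ∀ n ∈ N, ⟪x, n⟫ ≤ β n}

/-- The facet of a polytope with outer normal `n`. -/
def facet (N : Finset (EE (m + 1))) (β : EE (m + 1) → ℝ) (n : EE (m + 1)) : Set (EE (m + 1)) :=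
  {x | x ∈ poly N β ∧ ⟪x, n⟫ = β n}

lemma poly_closed (N : Finset (EE (m + 1))) (β : EE (m + 1) → ℝ) : IsClosed (poly N β) := by
  have : poly N β = ⋂ n ∈ N, {x | ⟪x, n⟫ ≤ β n} := by
    ext x
    simp [poly]
  rw [this]
  exact isClosed_biInter fun n _ => isClosed_le (continuous_id.inner continuous_const) continuous_const

lemma facet_closed (N : Finset (EE (m + 1))) (β : EE (m + 1) → ℝ) (n : EE (m + 1)) :
    IsClosed (facet N β n) := by
  have : facet N β n = poly N β ∩ {x | ⟪x, n⟫ = β n} := rfl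
  rw [this]
  exact (poly_closed N β).inter (isClosed_eq (continuous_id.inner continuous_const) continuous_const)

lemma facet_compact {N : Finset (EE (m + 1))} {β : EE (m + 1) → ℝ} (hP : IsCompact (poly N β))
    (n : EE (m + 1)) : IsCompact (facet N β n) :=
  hP.of_isClosed_subset (facet_closed N β n) fun _ hx => hx.1

/-- Polytope approximation from outside. -/
theorem exists_poly {K : Set (EE (m + 1))} (hK : IsCompact K) (hKc : Convex ℝ K) {ρ : ℝ} (hρ : 0 < ρ)
    (hB : Metric.closedBall (0 : EE (m + 1)) ρ ⊆ K) {ε : ℝ} (hε : 0 < ε) :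
    ∃ N : Finset (EE (m + 1)), (∀ n ∈ N, ‖n‖ = 1) ∧ K ⊆ poly N (supp K) ∧
      poly N (supp K) ⊆ (1 + ε) • K := by
  have h0 : (0 : EE (m + 1)) ∈ K := hB (by simp [hρ.le])
  have hnhds : K ∈ 𝓝 (0 : EE (m + 1)) := Filter.mem_of_superset (Metric.closedBall_mem_nhds 0 hρ) hB
  have habs : Absorbent ℝ K := absorbent_nhds_zero hnhds
  have hgc : Continuous (gauge K) := continuous_gauge hKc hnhds
  have hmem : ∀ {x : EE (m + 1)}, gauge K x ≤ 1 → x ∈ K := by
    intro x hx
    have := (gauge_le_one_iff_mem_closure hKc hnhds).mp hx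
    rwa [hK.isClosed.closure_eq] at this
  have hε1 : 0 < 1 + ε := by linarith
  have hscale : ∀ {x : EE (m + 1)}, gauge K x ≤ 1 + ε → x ∈ (1 + ε) • K := by
    intro x hx
    refine (mem_smul_set_iff_inv_smul_mem₀ hε1.ne' _ _).mpr (hmem ?_)
    rw [gauge_smul_of_nonneg (by positivity), smul_eq_mul]
    rw [inv_mul_le_iff₀ hε1]
    linarith
  set C : Set (EE (m + 1)) := {y | gauge K y = 1 + ε} with hC
  have hCc : IsCompact C :=
    (hK.smul (1 + ε)).of_isClosed_subset (isClosed_eq hgc continuous_const) fun y hy =>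
      hscale (le_of_eq hy)
  have hsep : ∀ y ∈ C, ∃ n : EE (m + 1), ‖n‖ = 1 ∧ supp K n < ⟪y, n⟫ := by
    intro y hy
    apply exists_sep hK hKc ⟨0, h0⟩
    intro hyK
    have h1 := gauge_le_one_of_mem hyK
    have h2 : gauge K y = 1 + ε := hy
    linarith
  choose! nn hnn1 hnn2 using hsep
  obtain ⟨t, htC, ht⟩ := hCc.elim_nhds_subcover (fun y => {z | supp K (nn y) < ⟪z, nn y⟫}) (by
    intro y hy
    apply (isOpen_lt continuous_const (continuous_id.inner continuous_const)).mem_nhds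
    exact hnn2 y hy)
  classical
  refine ⟨t.image nn, ?_, ?_, ?_⟩
  · intro n hn
    obtain ⟨y, hy, rfl⟩ := Finset.mem_image.mp hn
    exact hnn1 y (htC y hy)
  · intro x hx n _
    exact le_supp hK hx n
  · intro x hx
    apply hscale
    by_contra hlt
    have hg : 1 + ε < gauge K x := not_le.mp hlt
    have hg0 : 0 < gauge K x := by linarith
    set τ := (1 + ε) / gauge K x with hτ
    have hτ0 : 0 < τ := by positivity
    have hτ1 : τ < 1 := by
      rw [hτ, div_lt_one hg0]
      exact hg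
    have hyC : τ • x ∈ C := by
      show gauge K (τ • x) = 1 + ε
      rw [gauge_smul_of_nonneg hτ0.le, smul_eq_mul, hτ]
      field_simp
    have hcov := ht hyC
    simp only [mem_iUnion, exists_prop] at hcov
    obtain ⟨y, hyt, hy⟩ := hcov
    have hn : nn y ∈ t.image nn := Finset.mem_image_of_mem nn hyt
    have h1 : ⟪x, nn y⟫ ≤ supp K (nn y) := hx _ hn
    have h2 : supp K (nn y) < ⟪τ • x, nn y⟫ := hy
    rw [real_inner_smul_left] at h2
    have h3 : 0 ≤ supp K (nn y) := by
      have := le_supp hK h0 (nn y)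
      simpa using this
    rcases le_or_gt 0 ⟪x, nn y⟫ with h4 | h4
    · nlinarith
    · nlinarith

section basis

variable (b : OrthonormalBasis (Fin (m + 1)) ℝ (EE (m + 1)))

lemma cmap_lastP : cmap b (b (Fin.last m)) = 0 := by
  ext i
  simpa using b_inner_ne b (Fin.castSucc_lt_last i).ne

/-- The highest point of a fiber lies on an upper facet. -/
lemma top_facet {N : Finset (EE (m + 1))} {β : EE (m + 1) → ℝ} (hP : IsCompact (poly N β))
    {x : EE (m + 1)} (hx : x ∈ poly N β) :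
    ∃ n ∈ N, 0 < ⟪b (Fin.last m), n⟫ ∧ ∃ x' ∈ facet N β n, cmap b x' = cmap b x := by
  set e := b (Fin.last m) with he
  set S := poly N β ∩ {y | cmap b y = cmap b x} with hS
  have hSc : IsCompact S := hP.inter_right (isClosed_eq (cmap_continuous b) continuous_const)
  have hSne : S.Nonempty := ⟨x, hx, rfl⟩
  obtain ⟨z, hzS, hzmax⟩ := hSc.exists_isMaxOn hSne
    (f := fun y => ⟪y, e⟫) (continuous_id.inner continuous_const).continuousOn
  by_contra hno
  have hall : ∀ n ∈ N, 0 < ⟪e, n⟫ → ⟪z, n⟫ < β n := by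
    intro n hn hpos
    refine lt_of_le_of_ne (hzS.1 n hn) fun heq => hno ⟨n, hn, hpos, z, ⟨hzS.1, heq⟩, hzS.2⟩
  have hev : ∀ᶠ δ in 𝓝[>] (0 : ℝ), ∀ n ∈ N, ⟪z + δ • e, n⟫ ≤ β n := by
    rw [Finset.eventually_all]
    intro n hn
    by_cases hpos : 0 < ⟪e, n⟫
    · have hc : Continuous fun δ : ℝ => ⟪z + δ • e, n⟫ := by fun_prop
      have h0 : Tendsto (fun δ : ℝ => ⟪z + δ • e, n⟫) (𝓝 0) (𝓝 ⟪z, n⟫) := by
        have := hc.tendsto 0
        simpa using this
      have := h0.eventually (gt_mem_nhds (hall n hn hpos))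
      exact (this.filter_mono nhdsWithin_le_nhds).mono fun δ hδ => hδ.le
    · filter_upwards [self_mem_nhdsWithin] with δ hδ
      have hδ' : 0 < δ := hδ
      rw [inner_add_left, real_inner_smul_left]
      have := hzS.1 n hn
      have h2 : δ * ⟪e, n⟫ ≤ 0 := mul_nonpos_of_nonneg_of_nonpos hδ'.le (not_lt.mp hpos)
      linarith
  obtain ⟨δ, hδ1, hδ2⟩ := (hev.and self_mem_nhdsWithin).exists
  have hδ' : 0 < δ := hδ2
  have hmem : z + δ • e ∈ S := by
    refine ⟨hδ1, ?_⟩
    have := cmap_add_smul b z e 1 δ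
    rw [one_smul, cmap_lastP, one_smul, smul_zero, add_zero] at this
    exact this.trans hzS.2
  have hle := hzmax hmem
  simp only [mem_setOf_eq] at hle
  rw [inner_add_left, real_inner_smul_left, b_inner_self b] at hle
  linarith

lemma image_poly_subset {N : Finset (EE (m + 1))} {β : EE (m + 1) → ℝ} (hP : IsCompact (poly N β)) :
    cmap b '' poly N β
      ⊆ ⋃ n ∈ N.filter (fun n => 0 < ⟪b (Fin.last m), n⟫), cmap b '' facet N β n := by
  rintro q ⟨x, hx, rfl⟩
  obtain ⟨n, hn, hpos, x', hx', he⟩ := top_facet b hP hx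
  simp only [mem_iUnion, exists_prop, Finset.mem_filter]
  exact ⟨n, ⟨hn, hpos⟩, x', hx', he⟩

end basis

/-- The absolute value of a principal minor of an orthogonal matrix. -/
lemma abs_det_minor (O : Matrix (Fin (m + 1)) (Fin (m + 1)) ℝ) (hO : O * O.transpose = 1) :
    |(O.submatrix Fin.castSucc Fin.castSucc).det| = |O (Fin.last m) (Fin.last m)| := by
  have hO' : O.transpose * O = 1 := mul_eq_one_comm.mp hO
  have hdet : O.det * O.det = 1 := by
    have := congrArg Matrix.det hO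
    rwa [Matrix.det_mul, Matrix.det_transpose, Matrix.det_one] at this
  have hadj : O.adjugate = O.det • O.transpose := by
    have h1 : O.transpose * (O * O.adjugate) = O.det • O.transpose := by
      rw [Matrix.mul_adjugate, Matrix.mul_smul, Matrix.mul_one]
    rw [← Matrix.mul_assoc, hO', Matrix.one_mul] at h1
    exact h1
  have h2 := congrFun (congrFun hadj (Fin.last m)) (Fin.last m)
  rw [Matrix.adjugate_fin_succ_eq_det_submatrix] at h2
  have hsucc : (Fin.last m).succAbove = Fin.castSucc := by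
    funext i
    simp
  rw [hsucc] at h2
  simp only [Matrix.smul_apply, Matrix.transpose_apply, smul_eq_mul] at h2
  have habs : |O.det| = 1 := by
    have h3 : |O.det| * |O.det| = 1 := by rw [← abs_mul, hdet, abs_one]
    nlinarith [abs_nonneg O.det, sq_nonneg (|O.det| - 1), sq_nonneg (|O.det| + 1)]
  have h4 := congrArg abs h2
  rw [abs_mul, abs_mul, habs, one_mul] at h4
  rw [← h4, abs_pow]
  simp

/-- The volume of the image of a flat set under a change of frame. -/
lemma volume_cmap_plane (b b' : OrthonormalBasis (Fin (m + 1)) ℝ (EE (m + 1))) {A : Set (EE (m + 1))}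
    {c : ℝ} (hA : ∀ x ∈ A, ⟪x, b' (Fin.last m)⟫ = c) :
    volume (cmap b '' A) = ENNReal.ofReal |⟪b' (Fin.last m), b (Fin.last m)⟫| * volume (cmap b' '' A) := by
  set Mt : Matrix (Fin m) (Fin m) ℝ := Matrix.of fun i j => ⟪b i.castSucc, b' j.castSucc⟫ with hMt
  set M : EE m →ₗ[ℝ] EE m := Matrix.toLpLin 2 2 Mt with hM
  set O : Matrix (Fin (m + 1)) (Fin (m + 1)) ℝ := Matrix.of fun i j => ⟪b i, b' j⟫ with hOd
  have hO : O * O.transpose = 1 := by
    ext i k
    simp only [Matrix.mul_apply, Matrix.transpose_apply, hOd, Matrix.of_apply, Matrix.one_apply]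
    have h := b'.sum_inner_mul_inner (b i) (b k)
    have e : ∑ j, ⟪b i, b' j⟫ * ⟪b k, b' j⟫ = ⟪b i, b k⟫ := by
      rw [← h]
      refine Finset.sum_congr rfl fun j _ => ?_
      rw [real_inner_comm (b k) (b' j)]
    rw [e]
    split_ifs with hik
    · subst hik
      exact b_inner_self b i
    · exact b_inner_ne b hik
  have hsub : O.submatrix Fin.castSucc Fin.castSucc = Mt := by
    ext i j
    simp [hOd, hMt]
  have hdet : |LinearMap.det M| = |⟪b' (Fin.last m), b (Fin.last m)⟫| := by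
    rw [hM, Matrix.toLpLin_eq_toLin, LinearMap.det_toLin, ← hsub, abs_det_minor O hO]
    simp only [hOd, Matrix.of_apply]
    rw [real_inner_comm]
  set w : EE m := c • cmap b (b' (Fin.last m)) with hw
  have hmap : ∀ x ∈ A, cmap b x = M (cmap b' x) + w := by
    intro x hx
    have hexp := pt_coord b' x
    have hc : ⟪b' (Fin.last m), x⟫ = c := by
      rw [real_inner_comm]
      exact hA x hx
    simp only [coord, hc] at hexp
    ext i
    simp only [hw, hM, PiLp.add_apply, PiLp.smul_apply, smul_eq_mul, cmap_apply,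
      Matrix.toLpLin_apply, hMt]
    conv_lhs => rw [← hexp]
    simp only [pt, inner_add_right, inner_sum, real_inner_smul_right, cmap_apply]
    simp [Matrix.mulVec, dotProduct, mul_comm]
  have himg : cmap b '' A = (fun q => q + w) '' (M '' (cmap b' '' A)) := by
    ext q
    constructor
    · rintro ⟨x, hx, rfl⟩
      exact ⟨M (cmap b' x), ⟨_, ⟨x, hx, rfl⟩, rfl⟩, (hmap x hx).symm⟩
    · rintro ⟨_, ⟨_, ⟨x, hx, rfl⟩, rfl⟩, rfl⟩
      exact ⟨x, hx, hmap x hx⟩
  rw [himg, Set.image_add_right, measure_preimage_add_right, Measure.addHaar_image_linearMap, hdet]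

/-- A chosen frame whose last vector is `n`. -/
def frameOf {n : EE (m + 1)} (h : ‖n‖ = 1) : OrthonormalBasis (Fin (m + 1)) ℝ (EE (m + 1)) :=
  Classical.choose (exists_basis h)

lemma frameOf_last {n : EE (m + 1)} (h : ‖n‖ = 1) : frameOf h (Fin.last m) = n :=
  Classical.choose_spec (exists_basis h)

open Classical in
/-- The `m`-volume of the facet with outer normal `n`. -/
def facetArea (N : Finset (EE (m + 1))) (β : EE (m + 1) → ℝ) (n : EE (m + 1)) : ℝ :=
  if h : ‖n‖ = 1 then (volume (cmap (frameOf h) '' facet N β n)).toReal else 0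

lemma facetArea_nonneg (N : Finset (EE (m + 1))) (β : EE (m + 1) → ℝ) (n : EE (m + 1)) :
    0 ≤ facetArea N β n := by
  unfold facetArea
  split_ifs
  · exact ENNReal.toReal_nonneg
  · exact le_rfl

lemma image_facet_real (b : OrthonormalBasis (Fin (m + 1)) ℝ (EE (m + 1))) (N : Finset (EE (m + 1)))
    (β : EE (m + 1) → ℝ) {n : EE (m + 1)} (hn : ‖n‖ = 1) :
    (volume (cmap b '' facet N β n)).toReal = |⟪n, b (Fin.last m)⟫| * facetArea N β n := by
  have hA : ∀ x ∈ facet N β n, ⟪x, frameOf hn (Fin.last m)⟫ = β n := by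
    intro x hx
    rw [frameOf_last]
    exact hx.2
  rw [volume_cmap_plane b (frameOf hn) hA, ENNReal.toReal_mul, ENNReal.toReal_ofReal (abs_nonneg _),
    frameOf_last]
  unfold facetArea
  rw [dif_pos hn]

/-- Half of Cauchy's formula, as an upper bound. -/
theorem projVol_upper (b : OrthonormalBasis (Fin (m + 1)) ℝ (EE (m + 1))) {N : Finset (EE (m + 1))}
    {β : EE (m + 1) → ℝ} (hP : IsCompact (poly N β)) (hN : ∀ n ∈ N, ‖n‖ = 1) :
    projVol (poly N β) (b (Fin.last m))
      ≤ ∑ n ∈ N.filter (fun n => 0 < ⟪b (Fin.last m), n⟫), ⟪b (Fin.last m), n⟫ * facetArea N β n := by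
  classical
  rw [projVol_eq hP b]
  have hcomp : ∀ n, IsCompact (cmap b '' facet N β n) := fun n =>
    (facet_compact hP n).image (cmap_continuous b)
  have h1 : volume (cmap b '' poly N β) ≤
      ∑ n ∈ N.filter (fun n => 0 < ⟪b (Fin.last m), n⟫), volume (cmap b '' facet N β n) :=
    (measure_mono (image_poly_subset b hP)).trans (measure_biUnion_finset_le _ _)
  have h2 := ENNReal.toReal_mono
    (ENNReal.sum_ne_top.mpr fun n _ => (hcomp n).measure_lt_top.ne) h1
  rw [ENNReal.toReal_sum fun n _ => (hcomp n).measure_lt_top.ne] at h2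
  refine h2.trans (le_of_eq ?_)
  apply Finset.sum_congr rfl
  intro n hn
  rw [Finset.mem_filter] at hn
  rw [image_facet_real b N β (hN n hn.1), real_inner_comm, abs_of_pos hn.2]

/-- Cauchy's formula for polytopes, as an upper bound. -/
theorem projVol_poly_le {N : Finset (EE (m + 1))} {β : EE (m + 1) → ℝ} (hP : IsCompact (poly N β))
    (hN : ∀ n ∈ N, ‖n‖ = 1) {u : EE (m + 1)} (hu : ‖u‖ = 1) :
    projVol (poly N β) u ≤ ∑ n ∈ N, |⟪(2⁻¹ * facetArea N β n) • n, u⟫| := by
  classical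
  obtain ⟨b, rfl⟩ := exists_basis hu
  have hu' : ‖-(b (Fin.last m))‖ = 1 := by rw [norm_neg]; exact hu
  obtain ⟨b₂, hb₂⟩ := exists_basis hu'
  have h1 := projVol_upper b hP hN
  have h2 := projVol_upper b₂ hP hN
  have e : projVol (poly N β) (b₂ (Fin.last m)) = projVol (poly N β) (b (Fin.last m)) := by
    rw [hb₂]
    exact projVol_neg hP hu
  rw [e, hb₂] at h2
  rw [Finset.sum_filter] at h1 h2
  have h3 : 2 * projVol (poly N β) (b (Fin.last m))
      ≤ ∑ n ∈ N, |⟪b (Fin.last m), n⟫| * facetArea N β n := by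
    have h4 : ∑ n ∈ N, |⟪b (Fin.last m), n⟫| * facetArea N β n =
        (∑ n ∈ N, if 0 < ⟪b (Fin.last m), n⟫ then ⟪b (Fin.last m), n⟫ * facetArea N β n else 0)
        + ∑ n ∈ N, if 0 < ⟪-b (Fin.last m), n⟫ then ⟪-b (Fin.last m), n⟫ * facetArea N β n else 0 := by
      rw [← Finset.sum_add_distrib]
      apply Finset.sum_congr rfl
      intro n _
      simp only [inner_neg_left]
      rcases lt_trichotomy ⟪b (Fin.last m), n⟫ 0 with h | h | h
      · rw [if_neg (not_lt.mpr h.le), if_pos (by linarith), abs_of_neg h]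
        ring
      · simp [h]
      · rw [if_pos h, if_neg (by linarith), abs_of_pos h]
        ring
    rw [h4]
    linarith
  have h5 : ∑ n ∈ N, |⟪(2⁻¹ * facetArea N β n) • n, b (Fin.last m)⟫|
      = 2⁻¹ * ∑ n ∈ N, |⟪b (Fin.last m), n⟫| * facetArea N β n := by
    rw [Finset.mul_sum]
    apply Finset.sum_congr rfl
    intro n _
    have hf := facetArea_nonneg N β n
    rw [real_inner_smul_left, abs_mul, abs_of_nonneg (by positivity), real_inner_comm]
    ring
  rw [h5]
  linarith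



/-- The pyramid over `F` with apex at the origin. -/
def pyr (F : Set (EE (m + 1))) : Set (EE (m + 1)) := {x | ∃ s ∈ Icc (0 : ℝ) 1, ∃ y ∈ F, x = s • y}

lemma pyr_compact {F : Set (EE (m + 1))} (hF : IsCompact F) : IsCompact (pyr F) := by
  have e : pyr F = (fun q : ℝ × EE (m + 1) => q.1 • q.2) '' (Icc (0 : ℝ) 1 ×ˢ F) := by
    ext x
    constructor
    · rintro ⟨s, hs, y, hy, rfl⟩
      exact ⟨(s, y), ⟨hs, hy⟩, rfl⟩
    · rintro ⟨⟨s, y⟩, ⟨hs, hy⟩, rfl⟩
      exact ⟨s, hs, y, hy, rfl⟩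
  rw [e]
  exact (isCompact_Icc.prod hF).image (by fun_prop)

lemma integral_scaled_pow {β : ℝ} (hβ : 0 < β) (m : ℕ) :
    ∫ t in Ioo 0 β, (t / β) ^ m = β / ((m : ℝ) + 1) := by
  rw [← integral_Ioc_eq_integral_Ioo, ← intervalIntegral.integral_of_le hβ.le]
  have e : ∀ t : ℝ, (t / β) ^ m = (β ^ m)⁻¹ * t ^ m := by
    intro t
    rw [div_pow]
    field_simp
  simp only [e]
  rw [intervalIntegral.integral_const_mul, integral_pow]
  have hm : ((m : ℝ) + 1) ≠ 0 := by positivity
  rw [zero_pow (Nat.succ_ne_zero m), pow_succ]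
  field_simp
  ring

lemma lintegral_scaled_pow {β : ℝ} (hβ : 0 < β) (m : ℕ) :
    ∫⁻ t in Ioo 0 β, ENNReal.ofReal ((t / β) ^ m) = ENNReal.ofReal (β / ((m : ℝ) + 1)) := by
  rw [← integral_scaled_pow hβ m]
  symm
  apply ofReal_integral_eq_lintegral_ofReal
  · have hc : ContinuousOn (fun t : ℝ => (t / β) ^ m) (Icc 0 β) := by fun_prop
    exact (hc.integrableOn_compact isCompact_Icc).mono_set Ioo_subset_Icc_self
  · refine (ae_restrict_iff' measurableSet_Ioo).mpr (Filter.Eventually.of_forall fun t ht => ?_)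
    have : 0 < t / β := div_pos ht.1 hβ
    positivity

/-- The volume of a pyramid, from below. -/
lemma pyr_volume_ge (b : OrthonormalBasis (Fin (m + 1)) ℝ (EE (m + 1))) {F : Set (EE (m + 1))}
    (hF : IsCompact F) {β : ℝ} (hβ : 0 < β) (hFb : ∀ y ∈ F, ⟪y, b (Fin.last m)⟫ = β) :
    ENNReal.ofReal (β / ((m : ℝ) + 1)) * volume (cmap b '' F) ≤ volume (pyr F) := by
  rw [volume_eq_lintegral_sec b (pyr_compact hF).measurableSet]
  have hsec : ∀ t ∈ Ioo 0 β, ENNReal.ofReal ((t / β) ^ m) * volume (cmap b '' F)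
      ≤ volume (sec b (pyr F) t) := by
    intro t ht
    have hs : 0 ≤ t / β := (div_pos ht.1 hβ).le
    rw [← vol_smul hs]
    apply measure_mono
    rintro _ ⟨_, ⟨y, hy, rfl⟩, rfl⟩
    show pt b ((t / β) • cmap b y) t ∈ pyr F
    refine ⟨t / β, ⟨hs, (div_le_one hβ).2 ht.2.le⟩, y, hy, ?_⟩
    have e1 : y = pt b (cmap b y) β := by
      have h1 := pt_coord b y
      simp only [coord] at h1
      rw [real_inner_comm, hFb y hy] at h1
      exact h1.symm
    have e2 := pt_comb b (cmap b y) 0 β 0 (t / β) 0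
    rw [smul_zero, add_zero, zero_mul, add_zero, zero_smul, add_zero] at e2
    have e3 : t / β * β = t := by field_simp
    rw [e3, ← e1] at e2
    exact e2
  have hmeas : Measurable fun t : ℝ => ENNReal.ofReal ((t / β) ^ m) := by
    apply ENNReal.measurable_ofReal.comp
    fun_prop
  calc ENNReal.ofReal (β / ((m : ℝ) + 1)) * volume (cmap b '' F)
      = ∫⁻ t in Ioo 0 β, ENNReal.ofReal ((t / β) ^ m) * volume (cmap b '' F) := by
        rw [lintegral_mul_const _ hmeas, lintegral_scaled_pow hβ m]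
    _ ≤ ∫⁻ t in Ioo 0 β, volume (sec b (pyr F) t) :=
        setLIntegral_mono' measurableSet_Ioo hsec
    _ ≤ ∫⁻ t, volume (sec b (pyr F) t) := setLIntegral_le_lintegral _ _

lemma pyr_facet_subset {N : Finset (EE (m + 1))} {β : EE (m + 1) → ℝ} (hβ : ∀ n ∈ N, 0 < β n)
    (n : EE (m + 1)) : pyr (facet N β n) ⊆ poly N β := by
  rintro _ ⟨s, hs, y, hy, rfl⟩ n' hn'
  rw [real_inner_smul_left]
  have h1 := hy.1 n' hn'
  have h2 := hβ n' hn'
  nlinarith [hs.1, hs.2]

lemma hyperplane_null_EE {w : EE (m + 1)} (hw : w ≠ 0) : volume {x : EE (m + 1) | ⟪w, x⟫ = 0} = 0 := by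
  have e : {x : EE (m + 1) | ⟪w, x⟫ = 0} = ((ℝ ∙ w)ᗮ : Submodule ℝ (EE (m + 1))) := by
    ext x
    simp [Submodule.mem_orthogonal_singleton_iff_inner_right]
  rw [e]
  apply Measure.addHaar_submodule
  intro htop
  have h1 : w ∈ (ℝ ∙ w)ᗮ := by rw [htop]; trivial
  rw [Submodule.mem_orthogonal_singleton_iff_inner_right] at h1
  exact hw (inner_self_eq_zero.mp h1)

/-- Two pyramids over different facets overlap in a null set. -/
lemma pyr_disj {N : Finset (EE (m + 1))} {β : EE (m + 1) → ℝ} {n n' : EE (m + 1)} (hn : n ∈ N)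
    (hn' : n' ∈ N) (h1 : ‖n‖ = 1) (h1' : ‖n'‖ = 1) (hne : n ≠ n') (hb : 0 < β n) (hb' : 0 < β n') :
    volume (pyr (facet N β n) ∩ pyr (facet N β n')) = 0 := by
  set w : EE (m + 1) := β n' • n - β n • n' with hw
  have hw0 : w ≠ 0 := by
    intro hc
    have e : β n' • n = β n • n' := sub_eq_zero.mp hc
    have hnorm : β n' = β n := by
      have := congrArg norm e
      rw [norm_smul, norm_smul, h1, h1', Real.norm_of_nonneg hb'.le, Real.norm_of_nonneg hb.le,
        mul_one, mul_one] at this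
      exact this
    rw [hnorm] at e
    exact hne (smul_right_injective _ hb.ne' e)
  apply measure_mono_null _ (hyperplane_null_EE hw0)
  rintro x ⟨⟨s, hs, y, hy, rfl⟩, ⟨s', hs', y', hy', he⟩⟩
  have e1 : ⟪s • y, n⟫ = s * β n := by rw [real_inner_smul_left, hy.2]
  have e2 : ⟪s • y, n'⟫ = s' * β n' := by rw [he, real_inner_smul_left, hy'.2]
  have e3 : ⟪s • y, n⟫ ≤ s' * β n := by
    rw [he, real_inner_smul_left]
    exact mul_le_mul_of_nonneg_left (hy'.1 n hn) hs'.1
  have e4 : ⟪s • y, n'⟫ ≤ s * β n' := by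
    rw [real_inner_smul_left]
    exact mul_le_mul_of_nonneg_left (hy.1 n' hn') hs.1
  have h5 : s ≤ s' := by
    rw [e1] at e3
    exact le_of_mul_le_mul_right e3 hb
  have h6 : s' ≤ s := by
    rw [e2] at e4
    exact le_of_mul_le_mul_right e4 hb'
  have h7 : s = s' := le_antisymm h5 h6
  show ⟪w, s • y⟫ = 0
  rw [real_inner_comm, hw, inner_sub_right, inner_smul_right, inner_smul_right, e1, e2, h7]
  ring

/-- **Cones over the facets**: the facet areas and the support numbers have sum at most `(m+1)|P|`. -/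
theorem sum_cones {N : Finset (EE (m + 1))} {β : EE (m + 1) → ℝ} (hP : IsCompact (poly N β))
    (hN : ∀ n ∈ N, ‖n‖ = 1) (hβ : ∀ n ∈ N, 0 < β n) :
    ∑ n ∈ N, β n * facetArea N β n ≤ ((m : ℝ) + 1) * (volume (poly N β)).toReal := by
  classical
  have hcomp : ∀ n, IsCompact (pyr (facet N β n)) := fun n => pyr_compact (facet_compact hP n)
  have hm1 : (0 : ℝ) < (m : ℝ) + 1 := by positivity
  have hone : ∀ n ∈ N, β n * facetArea N β n
      ≤ ((m : ℝ) + 1) * (volume (pyr (facet N β n))).toReal := by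
    intro n hn
    have hn1 := hN n hn
    have h := pyr_volume_ge (frameOf hn1) (facet_compact hP n) (hβ n hn) (fun y hy => by
      rw [frameOf_last]
      exact hy.2)
    have hfin : volume (cmap (frameOf hn1) '' facet N β n) ≠ ∞ :=
      ((facet_compact hP n).image (cmap_continuous _)).measure_lt_top.ne
    have h2 := ENNReal.toReal_mono (hcomp n).measure_lt_top.ne h
    rw [ENNReal.toReal_mul, ENNReal.toReal_ofReal (div_nonneg (hβ n hn).le hm1.le)] at h2
    have e : facetArea N β n = (volume (cmap (frameOf hn1) '' facet N β n)).toReal := by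
      unfold facetArea
      rw [dif_pos hn1]
    rw [e]
    rw [div_mul_eq_mul_div, div_le_iff₀ hm1] at h2
    linarith
  have hsum : ∑ n ∈ N, (volume (pyr (facet N β n))).toReal ≤ (volume (poly N β)).toReal := by
    rw [← ENNReal.toReal_sum fun n _ => (hcomp n).measure_lt_top.ne,
      ← measure_biUnion_finset₀ ?_ fun n _ => (hcomp n).measurableSet.nullMeasurableSet]
    · apply ENNReal.toReal_mono hP.measure_lt_top.ne
      apply measure_mono
      intro x hx
      simp only [mem_iUnion, exists_prop] at hx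
      obtain ⟨n, _, hx⟩ := hx
      exact pyr_facet_subset hβ n hx
    · intro n hn n' hn' hne
      exact pyr_disj hn hn' (hN n hn) (hN n' hn') hne (hβ n hn) (hβ n' hn')
  calc ∑ n ∈ N, β n * facetArea N β n
      ≤ ∑ n ∈ N, ((m : ℝ) + 1) * (volume (pyr (facet N β n))).toReal := Finset.sum_le_sum hone
    _ = ((m : ℝ) + 1) * ∑ n ∈ N, (volume (pyr (facet N β n))).toReal := by rw [Finset.mul_sum]
    _ ≤ _ := mul_le_mul_of_nonneg_left hsum hm1.le

/-- The generators of the zonotope attached to a polytope. -/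
def genOf (N : Finset (EE (m + 1))) (β : EE (m + 1) → ℝ) (i : N) : EE (m + 1) :=
  (2⁻¹ * facetArea N β i.1) • i.1

lemma zs_zero_nonempty {ι : Type*} [Fintype ι] (G : ι → EE (m + 1)) (T : Finset ι) :
    (zs ({0} : Set (EE (m + 1))) G T).Nonempty :=
  ⟨0 + ∑ i ∈ T, (0 : ι → ℝ) i • G i, 0, rfl, 0, by simp, rfl⟩

/-- The support function of a zonotope, from below. -/
lemma sum_abs_le_supp {ι : Type*} [Fintype ι] (G : ι → EE (m + 1)) (u : EE (m + 1)) :
    ∑ i, |⟪G i, u⟫| ≤ supp (zs ({0} : Set (EE (m + 1))) G Finset.univ) u := by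
  classical
  have hc := zs_compact (isCompact_singleton (x := (0 : EE (m + 1)))) G Finset.univ
  set r : ι → ℝ := fun i => if 0 ≤ ⟪G i, u⟫ then 1 else -1 with hr
  have hrabs : ∀ i, |r i| ≤ 1 := by
    intro i
    simp only [hr]
    split_ifs <;> simp
  have hz : 0 + ∑ i, r i • G i ∈ zs ({0} : Set (EE (m + 1))) G Finset.univ :=
    ⟨0, rfl, r, hrabs, rfl⟩
  have h := le_supp hc hz u
  refine le_trans (le_of_eq ?_) h
  rw [zero_add, sum_inner]
  refine Finset.sum_congr rfl fun i _ => ?_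
  rw [real_inner_smul_left]
  simp only [hr]
  split_ifs with hi
  · rw [abs_of_nonneg hi, one_mul]
  · rw [abs_of_neg (not_le.mp hi)]
    ring

/-- The projection body of a polytope lies in the zonotope of its facets. -/
theorem projBodyOf_poly_subset {N : Finset (EE (m + 1))} {β : EE (m + 1) → ℝ}
    (hP : IsCompact (poly N β)) (hN : ∀ n ∈ N, ‖n‖ = 1) :
    projBodyOf (poly N β) ⊆ zs ({0} : Set (EE (m + 1))) (genOf N β) Finset.univ := by
  intro x hx
  by_contra hno
  have hc := zs_compact (isCompact_singleton (x := (0 : EE (m + 1)))) (genOf N β) Finset.univ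
  have hv := zs_convex (convex_singleton (𝕜 := ℝ) (0 : EE (m + 1))) (genOf N β) Finset.univ
  obtain ⟨u, hu, hlt⟩ := exists_sep hc hv (zs_zero_nonempty _ _) hno
  have h1 := hx u hu
  have h2 := projVol_poly_le hP hN hu
  have h3 := sum_abs_le_supp (genOf N β) u
  have h4 : ∑ i, |⟪genOf N β i, u⟫| = ∑ n ∈ N, |⟪(2⁻¹ * facetArea N β n) • n, u⟫| :=
    Finset.sum_coe_sort N (fun n => |⟪(2⁻¹ * facetArea N β n) • n, u⟫|)
  rw [h4] at h3
  linarith

/-- The sum of `HH K` over the generators of the zonotope of a polytope whose support numbers are the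
values of `projVol K`. -/
lemma sum_HH_genOf {K : Set (EE (m + 1))} {N : Finset (EE (m + 1))} {β : EE (m + 1) → ℝ}
    (hN : ∀ n ∈ N, ‖n‖ = 1) (hβ : ∀ n ∈ N, β n = projVol K n) :
    ∑ i, HH K (genOf N β i) = 2⁻¹ * ∑ n ∈ N, β n * facetArea N β n := by
  rw [Finset.mul_sum, ← Finset.sum_coe_sort N (fun n => 2⁻¹ * (β n * facetArea N β n))]
  refine Finset.sum_congr rfl fun i _ => ?_
  rcases (facetArea_nonneg N β i.1).eq_or_lt with h0 | hpos
  · simp only [genOf, ← h0]
    simp [HH_zero]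
  · have hs : 0 < 2⁻¹ * facetArea N β i.1 := by positivity
    simp only [genOf]
    rw [HH_smul K _ hs, HH_unit K (hN _ i.2), hβ _ i.2]
    ring



lemma bernoulli_shift {x h : ℝ} (hx : 0 < x) (hh : 0 ≤ h) (m : ℕ) :
    x ^ (m + 1) + ((m : ℝ) + 1) * x ^ m * h ≤ (x + h) ^ (m + 1) := by
  have h1 := one_add_mul_le_pow (a := h / x) (by
    have : 0 ≤ h / x := by positivity
    linarith) (m + 1)
  have e : (x + h) ^ (m + 1) = x ^ (m + 1) * (1 + h / x) ^ (m + 1) := by
    rw [← mul_pow]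
    congr 1
    field_simp
  rw [e]
  have h2 : x ^ (m + 1) * (1 + ((m + 1 : ℕ) : ℝ) * (h / x)) ≤ x ^ (m + 1) * (1 + h / x) ^ (m + 1) :=
    mul_le_mul_of_nonneg_left h1 (by positivity)
  refine le_trans (le_of_eq ?_) h2
  push_cast
  field_simp
  ring

/-- Dilated generators: sums with segments. -/
lemma zs_comb {ι : Type*} [Fintype ι] {K : Set (EE (m + 1))} (hKc : Convex ℝ K) (G : ι → EE (m + 1))
    {δ ε : ℝ} (hδ : 0 < δ) (hε : 0 < ε) (hδε : δ < ε) {x y : EE (m + 1)} (hx : x ∈ K)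
    (hy : y ∈ zs K (fun i => ε • G i) Finset.univ) :
    (1 - δ / ε) • x + (δ / ε) • y ∈ zs K (fun i => δ • G i) Finset.univ := by
  obtain ⟨y₀, hy₀, r, hr, rfl⟩ := hy
  have hl0 : 0 < δ / ε := by positivity
  have hl1 : δ / ε < 1 := by
    rw [div_lt_one hε]
    exact hδε
  refine ⟨(1 - δ / ε) • x + (δ / ε) • y₀, hKc hx hy₀ (by linarith) hl0.le (by ring), r, hr, ?_⟩
  have e : ∀ i, (δ / ε) • (r i • (ε • G i)) = r i • (δ • G i) := by
    intro i
    rw [smul_smul, smul_smul, smul_smul]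
    congr 1
    field_simp
  simp only [smul_add, Finset.smul_sum, e, add_assoc]

/-- The tangent line for the `(m+1)`-th root of the volume of `K + ε Z`, `Z` a zonotope. -/
theorem tangent_zs {ι : Type*} [Fintype ι] {K : Set (EE (m + 1))} (hK : IsCompact K)
    (hKc : Convex ℝ K) {ρ : ℝ} (hρ : 0 < ρ) (hB : Metric.closedBall (0 : EE (m + 1)) ρ ⊆ K)
    (G : ι → EE (m + 1)) {g₀ : ℝ} (hg₀ : 0 < g₀) (hv : (volume K).toReal = g₀ ^ (m + 1)) {ε : ℝ}
    (hε : 0 < ε) :
    (volume (zs K (fun i => ε • G i) Finset.univ)).toReal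
      ≤ (g₀ + ε * (2 / ((m : ℝ) + 1) * (∑ i, HH K (G i)) / g₀ ^ m)) ^ (m + 1) := by
  classical
  have hn : m + 1 ≠ 0 := Nat.succ_ne_zero m
  have hS0 : 0 ≤ ∑ i, HH K (G i) := Finset.sum_nonneg fun i _ => HH_nonneg _ _
  set SS := ∑ i, HH K (G i) with hSS
  have hm1 : (0 : ℝ) < (m : ℝ) + 1 := by positivity
  set C := zs K (fun i => ε • G i) Finset.univ with hC
  have hCc : IsCompact C := zs_compact hK _ _
  have hK0 : (0 : EE (m + 1)) ∈ K := hB (by simp [hρ.le])
  have hsubK : ∀ c : ℝ, K ⊆ zs K (fun i => c • G i) Finset.univ := by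
    intro c x hx
    exact ⟨x, hx, 0, by simp, by simp⟩
  set gε := rootVol C with hgε
  have hgε0 : 0 ≤ gε := rootVol_nonneg C
  have hgεp : gε ^ (m + 1) = (volume C).toReal := rootVol_pow hn C
  have hrK : rootVol K = g₀ := rootVol_of_pow hn hg₀.le hv
  set F := 2 / ((m : ℝ) + 1) * SS / g₀ ^ m with hF
  have hF0 : 0 ≤ F := by positivity
  suffices hs : gε ≤ g₀ + ε * F by
    have := pow_le_pow_left₀ hgε0 hs (m + 1)
    rwa [hgεp] at this
  by_cases ht : gε ≤ g₀
  · have : 0 ≤ ε * F := by positivity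
    linarith
  have ht' : 0 < gε - g₀ := by linarith [not_le.mp ht]
  set t := gε - g₀ with htd
  set D := (∑ i, ‖G i‖) / ρ with hD
  have hD0 : 0 ≤ D := div_nonneg (Finset.sum_nonneg fun i _ => norm_nonneg _) hρ.le
  have key : ∀ δ ∈ Ioo 0 ε, ((m : ℝ) + 1) * g₀ ^ m * t / ε ≤ 2 * (1 + δ * D) ^ m * SS := by
    intro δ hδ
    have hδ0 : 0 < δ := hδ.1
    have hl0 : 0 < δ / ε := by positivity
    have hl1 : δ / ε < 1 := by
      rw [div_lt_one hε]
      exact hδ.2
    have hNc := zs_compact hK (fun i => δ • G i) Finset.univ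
    have hbm := bm_comb hn hK hCc hNc ⟨0, hK0⟩ ⟨0, hsubK _ hK0⟩ hl0.le hl1.le
      (fun x hx y hy => zs_comb hKc G hδ0 hε hδ.2 hx hy)
    rw [hrK] at hbm
    have h1 : (1 - δ / ε) * g₀ + δ / ε * gε = g₀ + δ / ε * t := by
      rw [htd]; ring
    rw [h1] at hbm
    have hs : 0 ≤ δ / ε * t := by positivity
    have h2 := bernoulli_shift hg₀ hs m
    have hrN0 : 0 ≤ g₀ + δ / ε * t := by positivity
    have h3 := pow_le_pow_left₀ hrN0 hbm (m + 1)
    rw [rootVol_pow hn] at h3
    have h4 := volume_zs_le hK hKc hρ hB (fun i => δ • G i) Finset.univ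
    have e1 : ∑ i, ‖δ • G i‖ = δ * ∑ i, ‖G i‖ := by
      rw [Finset.mul_sum]
      apply Finset.sum_congr rfl
      intro i _
      rw [norm_smul, Real.norm_of_nonneg hδ0.le]
    have e2 : ∑ i, HH K (δ • G i) = δ * SS := by
      rw [hSS, Finset.mul_sum]
      apply Finset.sum_congr rfl
      intro i _
      exact HH_smul K (G i) hδ0
    rw [e1, e2] at h4
    have e3 : (δ * ∑ i, ‖G i‖) / ρ = δ * D := by
      rw [hD]
      ring
    rw [e3, hv] at h4
    have h5 : ((m : ℝ) + 1) * g₀ ^ m * (δ / ε * t) ≤ 2 * (1 + δ * D) ^ m * (δ * SS) := by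
      linarith
    have h6 : δ * (((m : ℝ) + 1) * g₀ ^ m * t / ε) ≤ δ * (2 * (1 + δ * D) ^ m * SS) := by
      have e1 : δ * (((m : ℝ) + 1) * g₀ ^ m * t / ε) = ((m : ℝ) + 1) * g₀ ^ m * (δ / ε * t) := by
        field_simp
      rw [e1]
      calc _ ≤ _ := h5
        _ = _ := by ring
    exact le_of_mul_le_mul_left h6 hδ0
  have hlim : Tendsto (fun δ : ℝ => 2 * (1 + δ * D) ^ m * SS) (𝓝[>] 0)
      (𝓝 (2 * (1 + 0 * D) ^ m * SS)) := by
    have hc : Continuous fun δ : ℝ => 2 * (1 + δ * D) ^ m * SS := by fun_prop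
    exact (hc.tendsto 0).mono_left nhdsWithin_le_nhds
  have hle : ((m : ℝ) + 1) * g₀ ^ m * t / ε ≤ 2 * (1 + 0 * D) ^ m * SS := ge_of_tendsto hlim (by
    filter_upwards [Ioo_mem_nhdsGT hε] with δ hδ
    exact key δ hδ)
  have hle2 : ((m : ℝ) + 1) * g₀ ^ m * t / ε ≤ 2 * SS := by
    simpa using hle
  have hg2 : 0 < g₀ ^ m := by positivity
  have h6 : t ≤ ε * F := by
    rw [div_le_iff₀ hε] at hle2
    rw [hF]
    have h7 : t * (((m : ℝ) + 1) * g₀ ^ m) ≤ ε * (2 * SS) := by nlinarith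
    have e : ε * (2 / ((m : ℝ) + 1) * SS / g₀ ^ m) = (ε * (2 * SS)) / (((m : ℝ) + 1) * g₀ ^ m) := by
      field_simp
    rw [e, le_div_iff₀ (by positivity)]
    exact h7
  rw [htd] at h6
  linarith

lemma tendsto_eta_pow (A : ℝ) (m : ℕ) :
    Tendsto (fun η : ℝ => (1 + η) ^ (m + 1) * A) (𝓝[>] 0) (𝓝 A) := by
  have hc : Continuous fun η : ℝ => (1 + η) ^ (m + 1) * A := by fun_prop
  have := (hc.tendsto 0).mono_left (nhdsWithin_le_nhds (s := Ioi 0))
  simpa using this

/-- The data of a polytope approximating the projection body. -/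
lemma poly_data {K : Set (EE (m + 1))} (hK : IsCompact K) (hKc : Convex ℝ K) {ρ : ℝ} (hρ : 0 < ρ)
    (hB : Metric.closedBall (0 : EE (m + 1)) ρ ⊆ K) {η : ℝ} (hη : 0 < η) :
    ∃ (N : Finset (EE (m + 1))) (β : EE (m + 1) → ℝ),
      projBodyOf (projBodyOf K) ⊆ zs ({0} : Set (EE (m + 1))) (genOf N β) Finset.univ ∧
      2 / ((m : ℝ) + 1) * ∑ i, HH K (genOf N β i) ≤
        (1 + η) ^ (m + 1) * (volume (projBodyOf K)).toReal := by
  classical
  have hW := isProjBody_projBodyOf hK hKc hρ hB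
  set W := projBodyOf K with hWd
  have hr0 : 0 < (volume (Metric.closedBall (0 : EE m) ρ)).toReal :=
    ENNReal.toReal_pos (Metric.measure_closedBall_pos _ _ hρ).ne'
      (isCompact_closedBall (0 : EE m) ρ).measure_lt_top.ne
  set r := (volume (Metric.closedBall (0 : EE m) ρ)).toReal with hr
  have hBW : Metric.closedBall (0 : EE (m + 1)) r ⊆ W := ball_subset_projBodyOf hK hB
  obtain ⟨N, hN, h1, h2⟩ := exists_poly hW.compact hW.convex hr0 hBW hη
  set β := supp W with hβd
  have hPc : IsCompact (poly N β) :=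
    (hW.compact.smul (1 + η)).of_isClosed_subset (poly_closed _ _) h2
  have hβ : ∀ n ∈ N, 0 < β n := by
    intro n hn
    have hmem : r • n ∈ W := hBW (by
      simp [norm_smul, hN n hn, abs_of_pos hr0, Real.norm_eq_abs])
    have h3 := le_supp hW.compact hmem n
    rw [real_inner_smul_left, real_inner_self_eq_norm_sq, hN n hn] at h3
    have : r * 1 ^ 2 = r := by ring
    rw [this] at h3
    exact lt_of_lt_of_le hr0 h3
  refine ⟨N, β, ?_, ?_⟩
  · exact (projBodyOf_mono hPc h1).trans (projBodyOf_poly_subset hPc hN)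
  · have hsum := sum_HH_genOf (K := K) hN (β := β) (fun n hn => hW.support n (hN n hn))
    have hc := sum_cones hPc hN hβ
    have hvol : (volume (poly N β)).toReal ≤ (1 + η) ^ (m + 1) * (volume W).toReal := by
      rw [← vol_smul_real (by linarith)]
      exact ENNReal.toReal_mono (hW.compact.smul (1 + η)).measure_lt_top.ne (measure_mono h2)
    rw [hsum]
    have hm1 : (0 : ℝ) < (m : ℝ) + 1 := by positivity
    have e : 2 / ((m : ℝ) + 1) * (2⁻¹ * ∑ n ∈ N, β n * facetArea N β n)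
        = (∑ n ∈ N, β n * facetArea N β n) / ((m : ℝ) + 1) := by
      field_simp
    rw [e, div_le_iff₀ hm1]
    nlinarith

/-- **The tangent line inequality for `K` and `Π² K`.** -/
theorem tangent_general (hm : 0 < m) {K : Set (EE (m + 1))} (hK : IsCompact K) (hKc : Convex ℝ K)
    {ρ : ℝ} (hρ : 0 < ρ) (hB : Metric.closedBall (0 : EE (m + 1)) ρ ⊆ K) {g₀ : ℝ} (hg₀ : 0 < g₀)
    (hv : (volume K).toReal = g₀ ^ (m + 1)) {ε : ℝ} (hε : 0 ≤ ε) :
    (volume (K + ε • projBodyOf (projBodyOf K))).toReal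
      ≤ (g₀ + ε * ((volume (projBodyOf K)).toReal / g₀ ^ m)) ^ (m + 1) := by
  set A := (volume (projBodyOf K)).toReal with hA
  have hA0 : 0 ≤ A := ENNReal.toReal_nonneg
  rcases hε.eq_or_lt with rfl | hε0
  · -- `ε = 0`
    have hW := isProjBody_projBodyOf hK hKc hρ hB
    have hr0 : 0 < (volume (Metric.closedBall (0 : EE m) ρ)).toReal :=
      ENNReal.toReal_pos (Metric.measure_closedBall_pos _ _ hρ).ne'
        (isCompact_closedBall (0 : EE m) ρ).measure_lt_top.ne
    have hBW := ball_subset_projBodyOf hK hB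
    have hWW := isProjBody_projBodyOf hW.compact hW.convex hr0 hBW
    have e : K + (0 : ℝ) • projBodyOf (projBodyOf K) ⊆ K := by
      rintro _ ⟨x, hx, _, ⟨y, _, rfl⟩, rfl⟩
      simpa using hx
    have h1 : (volume (K + (0 : ℝ) • projBodyOf (projBodyOf K))).toReal ≤ (volume K).toReal :=
      ENNReal.toReal_mono hK.measure_lt_top.ne (measure_mono e)
    rw [hv] at h1
    simpa using h1
  have hg2 : 0 < g₀ ^ m := by positivity
  have key : ∀ η : ℝ, 0 < η → (volume (K + ε • projBodyOf (projBodyOf K))).toReal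
      ≤ (g₀ + ε * ((1 + η) ^ (m + 1) * A / g₀ ^ m)) ^ (m + 1) := by
    intro η hη
    obtain ⟨N, β, h1, h2⟩ := poly_data hK hKc hρ hB hη
    have hsub : K + ε • projBodyOf (projBodyOf K) ⊆ zs K (fun i => ε • genOf N β i) Finset.univ := by
      rintro _ ⟨x, hx, _, ⟨y, hy, rfl⟩, rfl⟩
      obtain ⟨y₀, hy₀, r, hr, rfl⟩ := h1 hy
      refine ⟨x, hx, r, hr, ?_⟩
      have hy0 : y₀ = 0 := hy₀
      simp only [hy0, zero_add, Finset.smul_sum]
      congr 1
      refine Finset.sum_congr rfl fun i _ => ?_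
      rw [smul_comm]
    have h5 : (volume (K + ε • projBodyOf (projBodyOf K))).toReal
        ≤ (volume (zs K (fun i => ε • genOf N β i) Finset.univ)).toReal :=
      ENNReal.toReal_mono (zs_compact hK _ _).measure_lt_top.ne (measure_mono hsub)
    have h6 := tangent_zs hK hKc hρ hB (genOf N β) hg₀ hv hε0
    refine h5.trans (h6.trans ?_)
    have hS : 0 ≤ ∑ i, HH K (genOf N β i) := Finset.sum_nonneg fun _ _ => HH_nonneg _ _
    apply pow_le_pow_left₀ (by positivity)
    gcongr
  have hlim : Tendsto (fun η : ℝ => (g₀ + ε * ((1 + η) ^ (m + 1) * A / g₀ ^ m)) ^ (m + 1)) (𝓝[>] 0)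
      (𝓝 ((g₀ + ε * (A / g₀ ^ m)) ^ (m + 1))) :=
    (((tendsto_eta_pow A m).div_const _).const_mul ε |>.const_add g₀).pow (m + 1)
  exact ge_of_tendsto hlim (by
    filter_upwards [self_mem_nhdsWithin] with η hη
    exact key η hη)

/-- **Minkowski's inequality for `K` and `Π² K`.** -/
theorem mink_general (hm : 0 < m) {K : Set (EE (m + 1))} (hK : IsCompact K) (hKc : Convex ℝ K)
    {ρ : ℝ} (hρ : 0 < ρ) (hB : Metric.closedBall (0 : EE (m + 1)) ρ ⊆ K) :
    (volume K).toReal ^ m * (volume (projBodyOf (projBodyOf K))).toReal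
      ≤ (volume (projBodyOf K)).toReal ^ (m + 1) := by
  have hn : m + 1 ≠ 0 := Nat.succ_ne_zero m
  have hW := isProjBody_projBodyOf hK hKc hρ hB
  have hr0 : 0 < (volume (Metric.closedBall (0 : EE m) ρ)).toReal :=
    ENNReal.toReal_pos (Metric.measure_closedBall_pos _ _ hρ).ne'
      (isCompact_closedBall (0 : EE m) ρ).measure_lt_top.ne
  have hBW := ball_subset_projBodyOf hK hB
  have hWW := isProjBody_projBodyOf hW.compact hW.convex hr0 hBW
  set A := (volume (projBodyOf K)).toReal with hA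
  have hA0 : 0 ≤ A := ENNReal.toReal_nonneg
  set Z := projBodyOf (projBodyOf K) with hZ
  have hVK : 0 < (volume K).toReal :=
    ENNReal.toReal_pos (ne_of_gt (lt_of_lt_of_le (Metric.measure_closedBall_pos _ _ hρ)
      (measure_mono hB))) hK.measure_lt_top.ne
  set g₀ := rootVol K with hg
  have hgp : g₀ ^ (m + 1) = (volume K).toReal := rootVol_pow hn K
  have hg0 : 0 < g₀ := by
    rcases (rootVol_nonneg K).eq_or_lt with h | h
    · exfalso
      rw [← hg, ] at h
      rw [← h] at hgp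
      rw [zero_pow hn] at hgp
      linarith
    · exact h
  have ht := tangent_general hm hK hKc hρ hB hg0 hgp.symm (ε := 1) zero_le_one
  have hSc : IsCompact (K + (1 : ℝ) • Z) := hK.add (hWW.compact.smul 1)
  have hbm := bm_add hn hK hWW.compact hSc ⟨0, hB (by simp [hρ.le])⟩ hWW.nonempty
    (c := 1) zero_le_one (fun x hx y hy => Set.add_mem_add hx (Set.smul_mem_smul_set hy))
  have h1 : rootVol (K + (1 : ℝ) • Z) ≤ g₀ + 1 * (A / g₀ ^ m) := by
    have h2 := rootVol_nonneg (K + (1 : ℝ) • Z)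
    have h3 : rootVol (K + (1 : ℝ) • Z) ^ (m + 1) ≤ (g₀ + 1 * (A / g₀ ^ m)) ^ (m + 1) := by
      rw [rootVol_pow hn]
      exact ht
    exact (pow_le_pow_iff_left₀ h2 (by positivity) hn).mp h3
  have h4 : rootVol Z ≤ A / g₀ ^ m := by linarith
  have h5 : (volume Z).toReal ≤ (A / g₀ ^ m) ^ (m + 1) := by
    rw [← rootVol_pow hn Z]
    exact pow_le_pow_left₀ (rootVol_nonneg Z) h4 _
  have e : (volume K).toReal ^ m * (A / g₀ ^ m) ^ (m + 1) = A ^ (m + 1) := by
    rw [← hgp, div_pow]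
    have hne : g₀ ≠ 0 := hg0.ne'
    field_simp
    ring
  calc (volume K).toReal ^ m * (volume Z).toReal
      ≤ (volume K).toReal ^ m * (A / g₀ ^ m) ^ (m + 1) := by gcongr
    _ = A ^ (m + 1) := e

end

end Vale.Agent.Lib.P237.PN
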