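import Vale.Agent.Lib.P237.PN.Basic

/-!
# Sweeps, the function `HH`, the projection body, covariance
-/

open MeasureTheory Set Module Filter Topology
open scoped RealInnerProductSpace ENNReal Pointwise

namespace Vale.Agent.Lib.P237.PN

noncomputable section

variable {m : ℕ}

/-- The sum of a set with the segment from `-g` to `g`. -/
def sweep (C : Set (EE (m + 1))) (g : EE (m + 1)) : Set (EE (m + 1)) :=
  {x | ∃ y ∈ C, ∃ r ∈ Icc (-1 : ℝ) 1, x = y + r • g}

/-- `‖g‖` times the projection volume of `C` in the direction of `g`. -/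
def HH {n : ℕ} (C : Set (EE n)) (g : EE n) : ℝ := ‖g‖ * projVol C (‖g‖⁻¹ • g)

lemma projVol_nonneg {n : ℕ} (C : Set (EE n)) (u : EE n) : 0 ≤ projVol C u := ENNReal.toReal_nonneg

lemma HH_nonneg {n : ℕ} (C : Set (EE n)) (g : EE n) : 0 ≤ HH C g :=
  mul_nonneg (norm_nonneg _) (projVol_nonneg _ _)

lemma HH_zero {n : ℕ} (C : Set (EE n)) : HH C 0 = 0 := by simp [HH]

lemma HH_smul {n : ℕ} (C : Set (EE n)) (g : EE n) {s : ℝ} (hs : 0 < s) : HH C (s • g) = s * HH C g := by
  unfold HH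
  rw [norm_smul, Real.norm_of_nonneg hs.le]
  by_cases hg : g = 0
  · subst hg
    simp
  have hg' : ‖g‖ ≠ 0 := norm_ne_zero_iff.mpr hg
  have e : (s * ‖g‖)⁻¹ • s • g = ‖g‖⁻¹ • g := by
    rw [smul_smul]
    congr 1
    field_simp
  rw [e]
  ring

lemma unit_of_ne {n : ℕ} {g : EE n} (hg : g ≠ 0) : ‖‖g‖⁻¹ • g‖ = 1 := by
  rw [norm_smul, norm_inv, norm_norm]
  exact inv_mul_cancel₀ (norm_ne_zero_iff.mpr hg)

lemma HH_unit {n : ℕ} (C : Set (EE n)) {u : EE n} (hu : ‖u‖ = 1) : HH C u = projVol C u := by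
  simp [HH, hu]


/-! ### Coordinates -/

lemma coord_injective (b : OrthonormalBasis (Fin (m + 1)) ℝ (EE (m + 1))) :
    Function.Injective (coord b) := by
  intro x y h
  have hx := pt_coord b x
  have hy := pt_coord b y
  rw [h] at hx
  rw [← hx, hy]

lemma coord_comb (b : OrthonormalBasis (Fin (m + 1)) ℝ (EE (m + 1))) (x y : EE (m + 1)) (a c : ℝ) :
    coord b (a • x + c • y) = a • coord b x + c • coord b y := by
  simp only [coord, cmap_add_smul, inner_add_right, inner_smul_right, Prod.smul_mk, Prod.mk_add_mk,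
    smul_eq_mul]

lemma cmap_last (b : OrthonormalBasis (Fin (m + 1)) ℝ (EE (m + 1))) :
    cmap b (b (Fin.last m)) = 0 := by
  ext i
  simpa using b_inner_ne b (Fin.castSucc_lt_last i).ne

/-- Adding a vertical segment to a set. -/
def thickN (C : Set (EE m × ℝ)) (η : ℝ) : Set (EE m × ℝ) :=
  {x | ∃ y ∈ C, ∃ r ∈ Icc (-1 : ℝ) 1, x = (y.1, y.2 + r * η)}

lemma thickN_compact {C : Set (EE m × ℝ)} (hC : IsCompact C) (η : ℝ) : IsCompact (thickN C η) := by
  have : thickN C η
      = (fun p : (EE m × ℝ) × ℝ => (p.1.1, p.1.2 + p.2 * η)) '' (C ×ˢ Icc (-1 : ℝ) 1) := by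
    ext x
    constructor
    · rintro ⟨y, hy, r, hr, rfl⟩
      exact ⟨(y, r), ⟨hy, hr⟩, rfl⟩
    · rintro ⟨⟨y, r⟩, ⟨hy, hr⟩, rfl⟩
      exact ⟨y, hy, r, hr, rfl⟩
  rw [this]
  apply (hC.prod isCompact_Icc).image
  fun_prop

/-- Volume of a compact convex subset of the line after adding an interval. -/
lemma vol_line_thickN {S : Set ℝ} (hc : IsCompact S) (hv : Convex ℝ S) (hne : S.Nonempty)
    {η : ℝ} (hη : 0 ≤ η) :
    volume {s : ℝ | ∃ y ∈ S, ∃ r ∈ Icc (-1 : ℝ) 1, s = y + r * η}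
      = volume S + ENNReal.ofReal (2 * η) := by
  have hconn : IsConnected S := ⟨hne, hv.isPreconnected⟩
  have hS := eq_Icc_of_connected_compact hconn hc
  set p := sInf S
  set q := sSup S
  have hpq : p ≤ q := by
    rw [hS] at hne
    exact nonempty_Icc.mp hne
  have h1 : {s : ℝ | ∃ y ∈ S, ∃ r ∈ Icc (-1 : ℝ) 1, s = y + r * η} = Icc (p - η) (q + η) := by
    ext s
    rw [hS]
    constructor
    · rintro ⟨y, hy, r, hr, rfl⟩
      have h2 : r * η ≤ η := by nlinarith [hr.2]
      have h3 : -η ≤ r * η := by nlinarith [hr.1]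
      exact ⟨by linarith [hy.1], by linarith [hy.2]⟩
    · rintro ⟨h1, h2⟩
      rcases hη.eq_or_lt with h0 | h0
      · have hs : s ∈ Icc p q := by
          rw [← h0] at h1 h2
          exact ⟨by linarith, by linarith⟩
        exact ⟨s, hs, 0, ⟨by norm_num, by norm_num⟩, by ring⟩
      by_cases hs : s ≤ p
      · refine ⟨p, ⟨le_refl _, hpq⟩, (s - p) / η, ⟨?_, ?_⟩, ?_⟩
        · rw [le_div_iff₀ h0]
          linarith
        · rw [div_le_iff₀ h0]
          linarith
        · field_simp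
          ring
      · by_cases hs' : q ≤ s
        · refine ⟨q, ⟨hpq, le_refl _⟩, (s - q) / η, ⟨?_, ?_⟩, ?_⟩
          · rw [le_div_iff₀ h0]
            linarith
          · rw [div_le_iff₀ h0]
            linarith
          · field_simp
            ring
        · exact ⟨s, ⟨(not_le.mp hs).le, (not_le.mp hs').le⟩, 0, ⟨by norm_num, by norm_num⟩, by ring⟩
  rw [h1, hS, Real.volume_Icc, Real.volume_Icc, ← ENNReal.ofReal_add (by linarith) (by positivity)]
  congr 1
  ring

lemma fibN_compact {C : Set (EE m × ℝ)} (hC : IsCompact C) (y : EE m) :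
    IsCompact (Prod.mk y ⁻¹' C) := by
  have : Prod.mk y ⁻¹' C = Prod.snd '' (C ∩ (Prod.fst ⁻¹' {y})) := by
    ext s
    constructor
    · intro hs
      exact ⟨(y, s), ⟨hs, rfl⟩, rfl⟩
    · rintro ⟨⟨y', s'⟩, ⟨hs, hy⟩, rfl⟩
      have : y' = y := hy
      rw [this] at hs
      exact hs
  rw [this]
  apply (hC.inter_right (isClosed_singleton.preimage continuous_fst)).image continuous_snd

lemma fibN_convex {C : Set (EE m × ℝ)} (hC : Convex ℝ C) (y : EE m) :
    Convex ℝ (Prod.mk y ⁻¹' C) := by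
  intro s hs s' hs' a c ha hc hac
  have := hC hs hs' ha hc hac
  have e : a • (y, s) + c • (y, s') = (y, a • s + c • s') := by
    ext1
    · simp only [Prod.fst_add, Prod.smul_fst, ← add_smul, hac, one_smul]
    · simp
  rw [e] at this
  exact this

/-- **Steiner formula** for a vertical segment. -/
lemma steinerN {C : Set (EE m × ℝ)} (hc : IsCompact C) (hv : Convex ℝ C) {η : ℝ} (hη : 0 ≤ η) :
    volume (thickN C η) = volume C + ENNReal.ofReal (2 * η) * volume (Prod.fst '' C) := by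
  have hmT := (thickN_compact hc η).measurableSet
  have hmF : MeasurableSet (Prod.fst '' C) := (hc.image continuous_fst).measurableSet
  rw [Measure.volume_eq_prod, Measure.prod_apply hmT, Measure.prod_apply hc.measurableSet]
  have key : ∀ y : EE m, volume (Prod.mk y ⁻¹' thickN C η)
      = volume (Prod.mk y ⁻¹' C)
        + (Prod.fst '' C).indicator (fun _ => ENNReal.ofReal (2 * η)) y := by
    intro y
    have hfib : Prod.mk y ⁻¹' thickN C η
        = {s : ℝ | ∃ s' ∈ Prod.mk y ⁻¹' C, ∃ r ∈ Icc (-1 : ℝ) 1, s = s' + r * η} := by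
      ext s
      constructor
      · rintro ⟨⟨y', s'⟩, hy', r, hr, he⟩
        have e1 : y = y' := congrArg Prod.fst he
        have e2 : s = s' + r * η := congrArg Prod.snd he
        subst e1
        exact ⟨s', hy', r, hr, e2⟩
      · rintro ⟨s', hs', r, hr, rfl⟩
        exact ⟨(y, s'), hs', r, hr, rfl⟩
    rw [hfib]
    by_cases hy : y ∈ Prod.fst '' C
    · rw [indicator_of_mem hy]
      obtain ⟨⟨y', s0⟩, hs0, rfl⟩ := hy
      exact vol_line_thickN (fibN_compact hc _) (fibN_convex hv _) ⟨s0, hs0⟩ hη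
    · rw [indicator_of_notMem hy, add_zero]
      have hem : Prod.mk y ⁻¹' C = ∅ := by
        rw [eq_empty_iff_forall_notMem]
        intro s hs
        exact hy ⟨(y, s), hs, rfl⟩
      rw [hem]
      simp
  simp only [key]
  rw [lintegral_add_right _ (measurable_const.indicator hmF), lintegral_indicator hmF,
    setLIntegral_const]

theorem volume_sweep {C : Set (EE (m + 1))} (hc : IsCompact C) (hv : Convex ℝ C) {u : EE (m + 1)}
    (hu : ‖u‖ = 1) {η : ℝ} (hη : 0 ≤ η) :
    (volume (sweep C (η • u))).toReal = (volume C).toReal + 2 * η * projVol C u := by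
  obtain ⟨b, rfl⟩ := exists_basis hu
  have hs : ⟪b (Fin.last m), b (Fin.last m)⟫ = 1 := b_inner_self b _
  set C' := coord b '' C with hC'
  have hCc : IsCompact C' := hc.image (coord_continuous b)
  have hCv : Convex ℝ C' := by
    rintro _ ⟨x, hx, rfl⟩ _ ⟨y, hy, rfl⟩ a c ha hc hac
    exact ⟨a • x + c • y, hv hx hy ha hc hac, coord_comb b x y a c⟩
  have hcc : ∀ (y : EE (m + 1)) (r : ℝ), coord b (y + r • η • b (Fin.last m))
      = ((coord b y).1, (coord b y).2 + r * η) := by
    intro y r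
    have e : y + r • η • b (Fin.last m) = (1 : ℝ) • y + (r * η) • b (Fin.last m) := by
      rw [one_smul, mul_smul]
    rw [e, coord_comb, one_smul]
    simp only [coord, Prod.smul_mk, Prod.mk_add_mk]
    congr 1
    · rw [cmap_last]
      simp
    · rw [hs]
      simp
  have hpre : coord b ⁻¹' (thickN C' η) = sweep C (η • b (Fin.last m)) := by
    ext x
    constructor
    · rintro ⟨_, ⟨y, hy, rfl⟩, r, hr, he⟩
      refine ⟨y, hy, r, hr, ?_⟩
      apply coord_injective b
      rw [he, hcc]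
    · rintro ⟨y, hy, r, hr, rfl⟩
      exact ⟨coord b y, ⟨y, hy, rfl⟩, r, hr, hcc y r⟩
  have hpreC : coord b ⁻¹' C' = C := (coord_injective b).preimage_image C
  have h1 := (mp_coord b).measure_preimage (thickN_compact hCc η).measurableSet.nullMeasurableSet
  have h2 := (mp_coord b).measure_preimage hCc.measurableSet.nullMeasurableSet
  rw [hpre] at h1
  rw [hpreC] at h2
  have h3 := steinerN hCc hCv hη
  have hfst : Prod.fst '' C' = cmap b '' C := by
    rw [hC', image_image]
    rfl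
  rw [hfst] at h3
  rw [h1, h3, ← h2, projVol_eq hc b]
  have hf1 : volume C ≠ ⊤ := hc.measure_lt_top.ne
  have hf2 : volume (cmap b '' C) ≠ ⊤ :=
    (hc.image (cmap_continuous b)).measure_lt_top.ne
  rw [ENNReal.toReal_add hf1 (ENNReal.mul_ne_top ENNReal.ofReal_ne_top hf2), ENNReal.toReal_mul,
    ENNReal.toReal_ofReal (by positivity)]

/-- **The sweep formula** (Steiner). `C` may be empty or have empty interior. -/
theorem volume_sweep_HH {C : Set (EE (m + 1))} (hc : IsCompact C) (hv : Convex ℝ C) (g : EE (m + 1)) :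
    (volume (sweep C g)).toReal = (volume C).toReal + 2 * HH C g := by
  by_cases hg : g = 0
  · subst hg
    have : sweep C 0 = C := by
      ext x
      constructor
      · rintro ⟨y, hy, r, _, rfl⟩
        simpa using hy
      · intro hx
        exact ⟨x, hx, 0, ⟨by norm_num, by norm_num⟩, by simp⟩
    rw [this, HH_zero]
    ring
  have hu := unit_of_ne hg
  have e : g = ‖g‖ • ‖g‖⁻¹ • g := by
    rw [smul_smul, mul_inv_cancel₀ (norm_ne_zero_iff.mpr hg), one_smul]
  have h := volume_sweep hc hv hu (norm_nonneg g)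
  rw [← e] at h
  rw [h]
  unfold HH
  ring

lemma sweep_compact {C : Set (EE (m + 1))} (hc : IsCompact C) (g : EE (m + 1)) :
    IsCompact (sweep C g) := by
  have : sweep C g = (fun p : EE (m + 1) × ℝ => p.1 + p.2 • g) '' (C ×ˢ Icc (-1 : ℝ) 1) := by
    ext x
    constructor
    · rintro ⟨y, hy, r, hr, rfl⟩
      exact ⟨(y, r), ⟨hy, hr⟩, rfl⟩
    · rintro ⟨⟨y, r⟩, ⟨hy, hr⟩, rfl⟩
      exact ⟨y, hy, r, hr, rfl⟩
  rw [this]
  apply (hc.prod isCompact_Icc).image
  fun_prop

lemma sweep_convex {C : Set (EE (m + 1))} (hv : Convex ℝ C) (g : EE (m + 1)) :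
    Convex ℝ (sweep C g) := by
  rintro _ ⟨y, hy, r, hr, rfl⟩ _ ⟨y', hy', r', hr', rfl⟩ a c ha hc hac
  refine ⟨a • y + c • y', hv hy hy' ha hc hac, a * r + c * r', ⟨?_, ?_⟩, ?_⟩
  · nlinarith [hr.1, hr'.1]
  · nlinarith [hr.2, hr'.2]
  · simp only [smul_add, smul_smul, add_smul]
    abel

/-- The projection volume of a subset of a dilate. -/
lemma projVol_le_of_subset {A K : Set (EE (m + 1))} (hA : IsCompact A) (hK : IsCompact K) {t : ℝ}
    (ht : 0 ≤ t) (hsub : A ⊆ t • K) {u : EE (m + 1)} (hu : ‖u‖ = 1) :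
    projVol A u ≤ t ^ m * projVol K u := by
  obtain ⟨b, rfl⟩ := exists_basis hu
  rw [projVol_eq hA b, projVol_eq hK b]
  have h1 : cmap b '' A ⊆ t • (cmap b '' K) := by
    rintro _ ⟨x, hx, rfl⟩
    obtain ⟨w, hw, rfl⟩ := hsub hx
    refine ⟨cmap b w, ⟨w, hw, rfl⟩, ?_⟩
    have := cmap_add_smul b w 0 t 0
    simpa using this.symm
  have hc2 : IsCompact (cmap b '' K) := hK.image (cmap_continuous b)
  have h2 : (volume (cmap b '' A)).toReal ≤ (volume (t • (cmap b '' K))).toReal :=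
    ENNReal.toReal_mono (hc2.smul t).measure_lt_top.ne (measure_mono h1)
  rwa [vol_smul_real ht] at h2

lemma HH_le_of_subset {A K : Set (EE (m + 1))} (hA : IsCompact A) (hK : IsCompact K) {t : ℝ}
    (ht : 0 ≤ t) (hsub : A ⊆ t • K) (g : EE (m + 1)) : HH A g ≤ t ^ m * HH K g := by
  by_cases hg : g = 0
  · subst hg
    simp [HH_zero]
  have := projVol_le_of_subset hA hK ht hsub (unit_of_ne hg)
  unfold HH
  calc ‖g‖ * projVol A (‖g‖⁻¹ • g) ≤ ‖g‖ * (t ^ m * projVol K (‖g‖⁻¹ • g)) := by gcongr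
    _ = _ := by ring

section zs

variable {ι : Type*} [Fintype ι]

/-- The sum of a set with the segments from `-G i` to `G i`, for `i ∈ T`. -/
def zs (K : Set (EE (m + 1))) (G : ι → EE (m + 1)) (T : Finset ι) : Set (EE (m + 1)) :=
  {x | ∃ y ∈ K, ∃ r : ι → ℝ, (∀ i, |r i| ≤ 1) ∧ x = y + ∑ i ∈ T, r i • G i}

lemma zs_empty (K : Set (EE (m + 1))) (G : ι → EE (m + 1)) : zs K G ∅ = K := by
  ext x
  constructor
  · rintro ⟨y, hy, r, _, rfl⟩
    simpa using hy
  · intro hx
    exact ⟨x, hx, 0, fun i => by simp, by simp⟩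

lemma zs_insert [DecidableEq ι] (K : Set (EE (m + 1))) (G : ι → EE (m + 1)) {T : Finset ι} {j : ι}
    (hj : j ∉ T) : zs K G (insert j T) = sweep (zs K G T) (G j) := by
  ext x
  constructor
  · rintro ⟨y, hy, r, hr, rfl⟩
    refine ⟨y + ∑ i ∈ T, r i • G i, ⟨y, hy, r, hr, rfl⟩, r j, abs_le.mp (hr j), ?_⟩
    rw [Finset.sum_insert hj]
    abel
  · rintro ⟨_, ⟨y, hy, r, hr, rfl⟩, r', hr', rfl⟩
    refine ⟨y, hy, Function.update r j r', fun i => ?_, ?_⟩
    · by_cases h : i = j
      · subst h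
        simpa using abs_le.mpr hr'
      · simpa [Function.update_of_ne h] using hr i
    · rw [Finset.sum_insert hj, Function.update_self]
      have : ∑ i ∈ T, Function.update r j r' i • G i = ∑ i ∈ T, r i • G i := by
        apply Finset.sum_congr rfl
        intro i hi
        have : i ≠ j := fun h => hj (h ▸ hi)
        rw [Function.update_of_ne this]
      rw [this]
      abel

lemma zs_compact {K : Set (EE (m + 1))} (hK : IsCompact K) (G : ι → EE (m + 1)) (T : Finset ι) :
    IsCompact (zs K G T) := by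
  have hbox : IsCompact (Set.pi univ fun _ : ι => Icc (-1 : ℝ) 1) :=
    isCompact_univ_pi fun _ => isCompact_Icc
  have : zs K G T = (fun p : EE (m + 1) × (ι → ℝ) => p.1 + ∑ i ∈ T, p.2 i • G i) ''
      (K ×ˢ Set.pi univ fun _ : ι => Icc (-1 : ℝ) 1) := by
    ext x
    constructor
    · rintro ⟨y, hy, r, hr, rfl⟩
      exact ⟨(y, r), ⟨hy, fun i _ => abs_le.mp (hr i)⟩, rfl⟩
    · rintro ⟨⟨y, r⟩, ⟨hy, hr⟩, rfl⟩
      exact ⟨y, hy, r, fun i => abs_le.mpr (hr i (mem_univ i)), rfl⟩
  rw [this]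
  apply (hK.prod hbox).image
  fun_prop

lemma zs_convex {K : Set (EE (m + 1))} (hK : Convex ℝ K) (G : ι → EE (m + 1)) (T : Finset ι) :
    Convex ℝ (zs K G T) := by
  rintro _ ⟨y, hy, r, hr, rfl⟩ _ ⟨y', hy', r', hr', rfl⟩ a c ha hc hac
  refine ⟨a • y + c • y', hK hy hy' ha hc hac, fun i => a * r i + c * r' i, fun i => ?_, ?_⟩
  · have h1 := abs_le.mp (hr i)
    have h2 := abs_le.mp (hr' i)
    rw [abs_le]
    constructor <;> nlinarith [h1.1, h1.2, h2.1, h2.2]
  · simp only [smul_add, Finset.smul_sum, smul_smul, add_smul, Finset.sum_add_distrib]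
    abel

/-- A point of `K` plus a small vector lies in a dilate of `K`. -/
lemma add_mem_smul {K : Set (EE (m + 1))} (hKc : Convex ℝ K) {ρ : ℝ} (hρ : 0 < ρ)
    (hB : Metric.closedBall (0 : EE (m + 1)) ρ ⊆ K) {D : ℝ} (hD : 0 ≤ D) {y z : EE (m + 1)}
    (hy : y ∈ K) (hz : ‖z‖ ≤ D) : y + z ∈ (1 + D / ρ) • K := by
  rcases hD.eq_or_lt with rfl | hD0
  · have : z = 0 := by simpa using hz
    subst this
    simpa using hy
  set t := 1 + D / ρ with ht
  have hd0 : 0 < D / ρ := by positivity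
  have ht0 : 0 < t := by positivity
  refine (mem_smul_set_iff_inv_smul_mem₀ ht0.ne' _ _).mpr ?_
  have hz' : ((D / ρ)⁻¹ • z) ∈ K := by
    apply hB
    rw [mem_closedBall_zero_iff, norm_smul, norm_inv, Real.norm_of_nonneg hd0.le]
    have : (D / ρ)⁻¹ = ρ / D := by field_simp
    rw [this]
    calc ρ / D * ‖z‖ ≤ ρ / D * D := by gcongr
      _ = ρ := by field_simp
  have hcomb := hKc hy hz' (a := t⁻¹) (b := t⁻¹ * (D / ρ)) (by positivity) (by positivity) (by
    rw [ht]
    field_simp)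
  have e : t⁻¹ • (y + z) = t⁻¹ • y + (t⁻¹ * (D / ρ)) • (D / ρ)⁻¹ • z := by
    rw [smul_smul, smul_add]
    congr 2
    field_simp
  rw [e]
  exact hcomb

lemma zs_subset {K : Set (EE (m + 1))} (hKc : Convex ℝ K) {ρ : ℝ} (hρ : 0 < ρ)
    (hB : Metric.closedBall (0 : EE (m + 1)) ρ ⊆ K) (G : ι → EE (m + 1)) (T : Finset ι) :
    zs K G T ⊆ (1 + (∑ i, ‖G i‖) / ρ) • K := by
  rintro _ ⟨y, hy, r, hr, rfl⟩
  apply add_mem_smul hKc hρ hB (Finset.sum_nonneg fun i _ => norm_nonneg _) hy
  calc ‖∑ i ∈ T, r i • G i‖ ≤ ∑ i ∈ T, ‖r i • G i‖ := norm_sum_le _ _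
    _ ≤ ∑ i ∈ T, ‖G i‖ := by
        apply Finset.sum_le_sum
        intro i _
        rw [norm_smul, Real.norm_eq_abs]
        calc |r i| * ‖G i‖ ≤ 1 * ‖G i‖ := by gcongr; exact hr i
          _ = ‖G i‖ := one_mul _
    _ ≤ ∑ i, ‖G i‖ := Finset.sum_le_sum_of_subset_of_nonneg (Finset.subset_univ _)
        fun i _ _ => norm_nonneg _

/-- The volume of `K` plus segments, up to the dilation factor. -/
lemma volume_zs_le {K : Set (EE (m + 1))} (hK : IsCompact K) (hKc : Convex ℝ K) {ρ : ℝ} (hρ : 0 < ρ)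
    (hB : Metric.closedBall (0 : EE (m + 1)) ρ ⊆ K) (G : ι → EE (m + 1)) (T : Finset ι) :
    (volume (zs K G T)).toReal ≤ (volume K).toReal
      + 2 * (1 + (∑ i, ‖G i‖) / ρ) ^ m * ∑ i ∈ T, HH K (G i) := by
  classical
  have hD : 0 ≤ (∑ i, ‖G i‖) / ρ := div_nonneg (Finset.sum_nonneg fun i _ => norm_nonneg _) hρ.le
  induction T using Finset.induction_on with
  | empty =>
    rw [zs_empty]
    simp
  | insert j T hj ih =>
    rw [zs_insert K G hj, volume_sweep_HH (zs_compact hK G T) (zs_convex hKc G T),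
      Finset.sum_insert hj]
    have h1 := HH_le_of_subset (zs_compact hK G T) hK (t := 1 + (∑ i, ‖G i‖) / ρ) (by positivity)
      (zs_subset hKc hρ hB G T) (G j)
    rw [mul_add]
    have : 0 ≤ (1 + (∑ i, ‖G i‖) / ρ) ^ m * HH K (G j) := mul_nonneg (by positivity) (HH_nonneg _ _)
    linarith [ih, h1]

end zs

/-- Subadditivity of `HH`. -/
theorem HH_add {K : Set (EE (m + 1))} (hK : IsCompact K) (hKc : Convex ℝ K) {ρ : ℝ} (hρ : 0 < ρ)
    (hB : Metric.closedBall (0 : EE (m + 1)) ρ ⊆ K) (g h : EE (m + 1)) :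
    HH K (g + h) ≤ HH K g + HH K h := by
  have hcomp : ∀ e : ℝ, IsCompact (zs K ![e • g, e • h] (Finset.univ : Finset (Fin 2))) :=
    fun e => zs_compact hK _ _
  have key : ∀ e : ℝ, 0 < e →
      HH K (g + h) ≤ (1 + e * ((‖g‖ + ‖h‖) / ρ)) ^ m * (HH K g + HH K h) := by
    intro e he
    have h1 := volume_sweep_HH hK hKc (e • (g + h))
    have hsub : sweep K (e • (g + h)) ⊆ zs K ![e • g, e • h] (Finset.univ : Finset (Fin 2)) := by
      rintro _ ⟨y, hy, r, hr, rfl⟩
      refine ⟨y, hy, fun _ => r, fun _ => abs_le.mpr hr, ?_⟩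
      simp [Fin.sum_univ_two, smul_add]
    have h2 : (volume (sweep K (e • (g + h)))).toReal
        ≤ (volume (zs K ![e • g, e • h] (Finset.univ : Finset (Fin 2)))).toReal :=
      ENNReal.toReal_mono (hcomp e).measure_lt_top.ne (measure_mono hsub)
    have h3 := volume_zs_le hK hKc hρ hB ![e • g, e • h] (Finset.univ : Finset (Fin 2))
    simp only [Fin.sum_univ_two, Matrix.cons_val_zero, Matrix.cons_val_one, HH_smul _ _ he,
      norm_smul, Real.norm_of_nonneg he.le] at h3
    rw [HH_smul _ _ he] at h1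
    have e1 : (1 + (e * ‖g‖ + e * ‖h‖) / ρ) = 1 + e * ((‖g‖ + ‖h‖) / ρ) := by
      field_simp
    rw [e1] at h3
    have h4 : 2 * (e * HH K (g + h))
        ≤ 2 * (e * ((1 + e * ((‖g‖ + ‖h‖) / ρ)) ^ m * (HH K g + HH K h))) := by
      have : 2 * (1 + e * ((‖g‖ + ‖h‖) / ρ)) ^ m * (e * HH K g + e * HH K h)
          = 2 * (e * ((1 + e * ((‖g‖ + ‖h‖) / ρ)) ^ m * (HH K g + HH K h))) := by ring
      linarith
    have h5 : e * HH K (g + h) ≤ e * ((1 + e * ((‖g‖ + ‖h‖) / ρ)) ^ m * (HH K g + HH K h)) := by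
      linarith
    exact le_of_mul_le_mul_left h5 he
  have hlim : Tendsto (fun e : ℝ => (1 + e * ((‖g‖ + ‖h‖) / ρ)) ^ m * (HH K g + HH K h))
      (𝓝[>] 0) (𝓝 ((1 + 0 * ((‖g‖ + ‖h‖) / ρ)) ^ m * (HH K g + HH K h))) := by
    apply Tendsto.mono_left _ nhdsWithin_le_nhds
    apply Continuous.tendsto
    fun_prop
  have hfin : HH K (g + h) ≤ (1 + 0 * ((‖g‖ + ‖h‖) / ρ)) ^ m * (HH K g + HH K h) :=
    ge_of_tendsto hlim (by
      filter_upwards [self_mem_nhdsWithin] with e he
      exact key e he)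
  simpa using hfin

lemma projVol_neg {K : Set (EE (m + 1))} (hK : IsCompact K) {u : EE (m + 1)} (hu : ‖u‖ = 1) :
    projVol K (-u) = projVol K u := by
  have e : (ℝ ∙ (-u)) = (ℝ ∙ u) := by
    rw [← Set.neg_singleton, Submodule.span_neg]
  have aux : ∀ {S T : Submodule ℝ (EE (m + 1))} [S.HasOrthogonalProjection]
      [T.HasOrthogonalProjection], S = T →
      (volume (S.orthogonalProjectionOnto '' K)).toReal
        = (volume (T.orthogonalProjectionOnto '' K)).toReal := by
    intro S T _ _ h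
    subst h
    rfl
  exact aux (S := (ℝ ∙ (-u))ᗮ) (T := (ℝ ∙ u)ᗮ) (by rw [e])

lemma HH_neg {K : Set (EE (m + 1))} (hK : IsCompact K) (g : EE (m + 1)) : HH K (-g) = HH K g := by
  by_cases hg : g = 0
  · subst hg
    simp
  unfold HH
  have e : ‖-g‖⁻¹ • (-g) = -(‖g‖⁻¹ • g) := by
    rw [norm_neg, smul_neg]
  rw [e, projVol_neg hK (unit_of_ne hg), norm_neg]

/-- The projection body. -/
def projBodyOf {n : ℕ} (K : Set (EE n)) : Set (EE n) := {x | ∀ u : EE n, ‖u‖ = 1 → ⟪x, u⟫ ≤ projVol K u}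

lemma mem_projBodyOf_iff {K : Set (EE (m + 1))} {x : EE (m + 1)} :
    x ∈ projBodyOf K ↔ ∀ v : EE (m + 1), ⟪x, v⟫ ≤ HH K v := by
  constructor
  · intro hx v
    by_cases hv : v = 0
    · subst hv
      simp [HH_zero]
    have hu := hx _ (unit_of_ne hv)
    have hn : 0 < ‖v‖ := norm_pos_iff.mpr hv
    unfold HH
    have e : ⟪x, v⟫ = ‖v‖ * ⟪x, ‖v‖⁻¹ • v⟫ := by
      rw [inner_smul_right, ← mul_assoc, mul_inv_cancel₀ hn.ne', one_mul]
    rw [e]
    gcongr
  · intro hx u hu
    have := hx u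
    unfold HH at this
    rw [hu] at this
    simpa using this

lemma projBodyOf_closed {n : ℕ} (K : Set (EE n)) : IsClosed (projBodyOf K) := by
  have : projBodyOf K = ⋂ u : EE n, ⋂ _ : ‖u‖ = 1, {x | ⟪x, u⟫ ≤ projVol K u} := by
    ext x
    simp [projBodyOf]
  rw [this]
  exact isClosed_iInter fun u => isClosed_iInter fun _ =>
    isClosed_le (continuous_id.inner continuous_const) continuous_const

lemma projBodyOf_convex {n : ℕ} (K : Set (EE n)) : Convex ℝ (projBodyOf K) := by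
  intro x hx y hy a c ha hc hac u hu
  rw [inner_add_left, real_inner_smul_left, real_inner_smul_left]
  have h1 := hx u hu
  have h2 := hy u hu
  have h3 : a * ⟪x, u⟫ ≤ a * projVol K u := by gcongr
  have h4 : c * ⟪y, u⟫ ≤ c * projVol K u := by gcongr
  calc _ ≤ a * projVol K u + c * projVol K u := by linarith
    _ = _ := by rw [← add_mul, hac, one_mul]

/-- `projBodyOf` is monotone for compact sets. -/
lemma projBodyOf_mono {A K : Set (EE (m + 1))} (hK : IsCompact K) (hsub : A ⊆ K) :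
    projBodyOf A ⊆ projBodyOf K := by
  intro x hx u hu
  refine (hx u hu).trans ?_
  have hc : IsCompact ((ℝ ∙ u)ᗮ.orthogonalProjectionOnto '' K) :=
    hK.image (ContinuousLinearMap.continuous _)
  exact ENNReal.toReal_mono hc.measure_lt_top.ne (measure_mono (image_mono hsub))

lemma projVol_ball_le {K : Set (EE (m + 1))} {R : ℝ} (hK : K ⊆ Metric.closedBall 0 R) (u : EE (m + 1))
    (hu : ‖u‖ = 1) : projVol K u ≤ (volume (Metric.closedBall (0 : EE m) R)).toReal := by
  obtain ⟨b, rfl⟩ := exists_basis hu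
  have hBc : IsCompact (Metric.closedBall (0 : EE (m + 1)) R) := isCompact_closedBall 0 R
  have h0 : IsCompact ((ℝ ∙ b (Fin.last m))ᗮ.orthogonalProjectionOnto ''
      Metric.closedBall (0 : EE (m + 1)) R) :=
    hBc.image (ContinuousLinearMap.continuous _)
  have h1 : projVol K (b (Fin.last m)) ≤ projVol (Metric.closedBall (0 : EE (m + 1)) R)
      (b (Fin.last m)) :=
    ENNReal.toReal_mono h0.measure_lt_top.ne (measure_mono (image_mono hK))
  rw [projVol_eq hBc b] at h1
  refine h1.trans ?_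
  apply ENNReal.toReal_mono (isCompact_closedBall _ _).measure_lt_top.ne
  apply measure_mono
  rintro _ ⟨x, hx, rfl⟩
  rw [mem_closedBall_zero_iff] at hx ⊢
  exact (norm_cmap_le b x).trans hx

lemma le_projVol_of_ball {K : Set (EE (m + 1))} (hK : IsCompact K) {ρ : ℝ}
    (hB : Metric.closedBall (0 : EE (m + 1)) ρ ⊆ K) {u : EE (m + 1)} (hu : ‖u‖ = 1) :
    (volume (Metric.closedBall (0 : EE m) ρ)).toReal ≤ projVol K u := by
  obtain ⟨b, rfl⟩ := exists_basis hu
  rw [projVol_eq hK b]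
  apply ENNReal.toReal_mono (hK.image (cmap_continuous b)).measure_lt_top.ne
  apply measure_mono
  intro p hp
  refine ⟨pt b p 0, hB ?_, cmap_pt b p 0⟩
  rw [mem_closedBall_zero_iff] at hp ⊢
  have h2 := norm_sq_pt b p 0
  have h3 : ‖pt b p 0‖ ^ 2 ≤ ρ ^ 2 := by
    rw [h2]
    have := pow_le_pow_left₀ (norm_nonneg p) hp 2
    nlinarith
  have hρ : 0 ≤ ρ := (norm_nonneg p).trans hp
  exact (pow_le_pow_iff_left₀ (norm_nonneg _) hρ two_ne_zero).mp h3

/-- A ball inside the projection body. -/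
lemma ball_subset_projBodyOf {K : Set (EE (m + 1))} (hK : IsCompact K) {ρ : ℝ}
    (hB : Metric.closedBall (0 : EE (m + 1)) ρ ⊆ K) :
    Metric.closedBall (0 : EE (m + 1)) (volume (Metric.closedBall (0 : EE m) ρ)).toReal
      ⊆ projBodyOf K := by
  intro x hx u hu
  rw [mem_closedBall_zero_iff] at hx
  calc ⟪x, u⟫ ≤ ‖x‖ * ‖u‖ := real_inner_le_norm _ _
    _ = ‖x‖ := by rw [hu, mul_one]
    _ ≤ _ := hx
    _ ≤ _ := le_projVol_of_ball hK hB hu

lemma projBodyOf_sym {K : Set (EE (m + 1))} (hK : IsCompact K) {x : EE (m + 1)}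
    (hx : x ∈ projBodyOf K) : -x ∈ projBodyOf K := by
  intro u hu
  have h := hx (-u) (by rw [norm_neg]; exact hu)
  rw [projVol_neg hK hu, inner_neg_right] at h
  rw [inner_neg_left]
  exact h

/-- **The projection body exists.** No zonotopes: Hahn-Banach for the sublinear function `HH K`. -/
theorem isProjBody_projBodyOf {K : Set (EE (m + 1))} (hK : IsCompact K) (hKc : Convex ℝ K)
    {ρ : ℝ} (hρ : 0 < ρ) (hB : Metric.closedBall (0 : EE (m + 1)) ρ ⊆ K) :
    IsProjBody K (projBodyOf K) := by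
  have h0 : (0 : EE (m + 1)) ∈ projBodyOf K := by
    intro u _
    rw [inner_zero_left]
    exact projVol_nonneg _ _
  have hWc : IsCompact (projBodyOf K) := by
    obtain ⟨R, hR⟩ := hK.isBounded.exists_norm_le
    apply Metric.isCompact_of_isClosed_isBounded (projBodyOf_closed K)
    rw [isBounded_iff_forall_norm_le]
    refine ⟨(volume (Metric.closedBall (0 : EE m) R)).toReal, fun x hx => ?_⟩
    by_cases hx0 : x = 0
    · subst hx0
      simp
    have h1 := hx _ (unit_of_ne hx0)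
    have h2 := projVol_ball_le (K := K) (R := R) (fun y hy => by
      rw [mem_closedBall_zero_iff]
      exact hR y hy) _ (unit_of_ne hx0)
    rw [inner_smul_right, real_inner_self_eq_norm_sq] at h1
    have hn : 0 < ‖x‖ := norm_pos_iff.mpr hx0
    have e : ‖x‖⁻¹ * ‖x‖ ^ 2 = ‖x‖ := by
      field_simp
    rw [e] at h1
    exact h1.trans h2
  refine ⟨hWc, projBodyOf_convex K, ⟨0, h0⟩, fun u hu => ?_⟩
  apply le_antisymm
  · apply csSup_le (Set.Nonempty.image _ ⟨0, h0⟩)
    rintro _ ⟨x, hx, rfl⟩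
    exact hx u hu
  · have hu0 : u ≠ 0 := by
      intro h
      rw [h, norm_zero] at hu
      exact zero_ne_one hu
    let f : EE (m + 1) →ₗ.[ℝ] ℝ := LinearPMap.mkSpanSingleton (K := ℝ) u (projVol K u) hu0
    obtain ⟨g, hg1, hg2⟩ := exists_extension_of_le_sublinear f (HH K)
      (fun c hc x => HH_smul K x hc) (HH_add hK hKc hρ hB) (by
        rintro ⟨x, hx⟩
        obtain ⟨t, rfl⟩ := Submodule.mem_span_singleton.mp hx
        have hval : f ⟨t • u, hx⟩ = t * projVol K u := by
          exact (LinearPMap.mkSpanSingleton'_apply u (projVol K u) _ t hx).trans (by simp)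
        rw [hval]
        show t * projVol K u ≤ HH K (t • u)
        rcases lt_trichotomy t 0 with ht | rfl | ht
        · have h1 : t * projVol K u ≤ 0 :=
            mul_nonpos_of_nonpos_of_nonneg ht.le (projVol_nonneg _ _)
          exact h1.trans (HH_nonneg _ _)
        · simp [HH_zero]
        · rw [HH_smul K u ht, HH_unit K hu])
    set x := (InnerProductSpace.toDual ℝ (EE (m + 1))).symm (LinearMap.toContinuousLinearMap g) with hx
    have hxv : ∀ v, ⟪x, v⟫ = g v := by
      intro v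
      rw [hx, InnerProductSpace.toDual_symm_apply]
      rfl
    have hxW : x ∈ projBodyOf K := mem_projBodyOf_iff.mpr fun v => by
      rw [hxv]
      exact hg2 v
    have hgu : g u = projVol K u := by
      have hmem : u ∈ f.domain := Submodule.mem_span_singleton_self u
      have h1 := hg1 ⟨u, hmem⟩
      have h2 : f ⟨u, hmem⟩ = projVol K u :=
        LinearPMap.mkSpanSingleton'_apply_self u (projVol K u) _ hmem
      exact h1.trans h2
    rw [← hgu, ← hxv]
    exact le_csSup ((hWc.image (continuous_id.inner continuous_const)).bddAbove) ⟨x, hxW, rfl⟩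

/-- Separation in the form used everywhere: a point outside a compact convex nonempty set is
separated by a unit vector, with the support function. -/
lemma exists_sep {K : Set (EE (m + 1))} (hK : IsCompact K) (hKc : Convex ℝ K) (hne : K.Nonempty)
    {y : EE (m + 1)} (hy : y ∉ K) : ∃ n : EE (m + 1), ‖n‖ = 1 ∧ supp K n < ⟪y, n⟫ := by
  obtain ⟨f, u, hf, hu⟩ := geometric_hahn_banach_closed_point hKc hK.isClosed hy
  set v := (InnerProductSpace.toDual ℝ (EE (m + 1))).symm f with hv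
  have hfv : ∀ x, f x = ⟪x, v⟫ := by
    intro x
    rw [real_inner_comm, hv, InnerProductSpace.toDual_symm_apply]
  have hv0 : v ≠ 0 := by
    intro h
    obtain ⟨a, ha⟩ := hne
    have h1 := hf a ha
    rw [hfv, h, inner_zero_right] at h1 hu
    linarith
  have hnv : 0 < ‖v‖ := norm_pos_iff.mpr hv0
  refine ⟨‖v‖⁻¹ • v, unit_of_ne hv0, ?_⟩
  have h1 : supp K (‖v‖⁻¹ • v) ≤ ‖v‖⁻¹ * u := by
    apply csSup_le (hne.image _)
    rintro _ ⟨x, hx, rfl⟩
    simp only
    rw [inner_smul_right, ← hfv]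
    exact mul_le_mul_of_nonneg_left (hf x hx).le (by positivity)
  have h2 : ‖v‖⁻¹ * u < ⟪y, ‖v‖⁻¹ • v⟫ := by
    rw [inner_smul_right, ← hfv]
    exact mul_lt_mul_of_pos_left hu (by positivity)
  linarith

lemma le_supp {K : Set (EE (m + 1))} (hK : IsCompact K) {x : EE (m + 1)} (hx : x ∈ K) (n : EE (m + 1)) :
    ⟪x, n⟫ ≤ supp K n := by
  exact le_csSup ((hK.image (continuous_id.inner continuous_const)).bddAbove) ⟨x, hx, rfl⟩

lemma supp_attained {K : Set (EE (m + 1))} (hK : IsCompact K) (hne : K.Nonempty) (n : EE (m + 1)) :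
    ∃ x ∈ K, ⟪x, n⟫ = supp K n := by
  obtain ⟨x, hx, hmax⟩ := hK.exists_isMaxOn hne
    (f := fun x : EE (m + 1) => ⟪x, n⟫) (continuous_id.inner continuous_const).continuousOn
  refine ⟨x, hx, le_antisymm (le_supp hK hx n) ?_⟩
  apply csSup_le (hne.image _)
  rintro _ ⟨y, hy, rfl⟩
  exact hmax hy

/-- A projection body is `projBodyOf`. -/
theorem isProjBody_eq {K L : Set (EE (m + 1))} (hL : IsProjBody K L) : L = projBodyOf K := by
  ext x
  constructor
  · intro hx u hu
    rw [← hL.support u hu]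
    exact le_supp hL.compact hx u
  · intro hx
    by_contra hc
    obtain ⟨n, hn, hlt⟩ := exists_sep hL.compact hL.convex hL.nonempty hc
    rw [hL.support n hn] at hlt
    have := hx n hn
    linarith

lemma projVol_translate {K : Set (EE (m + 1))} (hK : IsCompact K) (x₀ : EE (m + 1)) {u : EE (m + 1)}
    (hu : ‖u‖ = 1) : projVol ((fun x => x + x₀) '' K) u = projVol K u := by
  obtain ⟨b, rfl⟩ := exists_basis hu
  have hc : IsCompact ((fun x => x + x₀) '' K) := hK.image (by fun_prop)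
  rw [projVol_eq hc b, projVol_eq hK b]
  have e : cmap b '' ((fun x => x + x₀) '' K) = (fun p => p + cmap b x₀) '' (cmap b '' K) := by
    rw [image_image, image_image]
    apply image_congr
    intro x _
    have := cmap_add_smul b x x₀ 1 1
    simpa using this
  rw [e, Set.image_add_right, measure_preimage_add_right]

lemma projBodyOf_translate {K : Set (EE (m + 1))} (hK : IsCompact K) (x₀ : EE (m + 1)) :
    projBodyOf ((fun x => x + x₀) '' K) = projBodyOf K := by
  ext x
  constructor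
  · intro hx u hu
    rw [← projVol_translate hK x₀ hu]
    exact hx u hu
  · intro hx u hu
    rw [projVol_translate hK x₀ hu]
    exact hx u hu

section linear

variable (T : EE (m + 1) ≃ₗ[ℝ] EE (m + 1))

/-- The absolute value of the determinant of `T`. -/
def dT : ℝ := |LinearMap.det (T : EE (m + 1) →ₗ[ℝ] EE (m + 1))|

lemma dT_pos : 0 < dT T := abs_pos.mpr (LinearEquiv.isUnit_det' T).ne_zero

lemma volume_image_real (X : Set (EE (m + 1))) :
    (volume (T '' X)).toReal = dT T * (volume X).toReal := by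
  have h : volume (T '' X) = ENNReal.ofReal (dT T) * volume X :=
    Measure.addHaar_image_linearMap volume (T : EE (m + 1) →ₗ[ℝ] EE (m + 1)) X
  rw [h, ENNReal.toReal_mul, ENNReal.toReal_ofReal (dT_pos T).le]

lemma image_compact {C : Set (EE (m + 1))} (hc : IsCompact C) : IsCompact (T '' C) := by
  exact hc.image ((T : EE (m + 1) →ₗ[ℝ] EE (m + 1)).continuous_of_finiteDimensional)

lemma image_convex {C : Set (EE (m + 1))} (hv : Convex ℝ C) : Convex ℝ (T '' C) := by
  exact hv.linear_image (T : EE (m + 1) →ₗ[ℝ] EE (m + 1))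

lemma sweep_image (C : Set (EE (m + 1))) (g : EE (m + 1)) : sweep (T '' C) (T g) = T '' sweep C g := by
  ext x
  constructor
  · rintro ⟨_, ⟨y, hy, rfl⟩, r, hr, rfl⟩
    exact ⟨y + r • g, ⟨y, hy, r, hr, rfl⟩, by simp⟩
  · rintro ⟨_, ⟨y, hy, r, hr, rfl⟩, rfl⟩
    exact ⟨T y, ⟨y, hy, rfl⟩, r, hr, by simp⟩

/-- Covariance of the support function of the projection body. -/
lemma HH_image {C : Set (EE (m + 1))} (hc : IsCompact C) (hv : Convex ℝ C) (g : EE (m + 1)) :
    HH (T '' C) (T g) = dT T * HH C g := by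
  have h1 := volume_sweep_HH (image_compact T hc) (image_convex T hv) (T g)
  have h2 := volume_sweep_HH hc hv g
  rw [sweep_image, volume_image_real, volume_image_real, h2] at h1
  linarith

/-- The linear map `S` with `Π (T K) = S⁻¹ Π K`. -/
def SS : EE (m + 1) →ₗ[ℝ] EE (m + 1) :=
  (dT T)⁻¹ • LinearMap.adjoint (T : EE (m + 1) →ₗ[ℝ] EE (m + 1))

lemma SS_inner (x w : EE (m + 1)) : ⟪SS T x, w⟫ = (dT T)⁻¹ * ⟪x, T w⟫ := by
  simp only [SS, LinearMap.smul_apply, real_inner_smul_left]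
  rw [LinearMap.adjoint_inner_left]
  rfl

lemma projBodyOf_image {C : Set (EE (m + 1))} (hc : IsCompact C) (hv : Convex ℝ C) :
    projBodyOf (T '' C) = SS T ⁻¹' projBodyOf C := by
  have hd := dT_pos T
  ext x
  rw [mem_projBodyOf_iff, mem_preimage, mem_projBodyOf_iff]
  constructor
  · intro h w
    have h1 := h (T w)
    rw [HH_image T hc hv] at h1
    rw [SS_inner, inv_mul_le_iff₀ hd]
    exact h1
  · intro h v
    obtain ⟨w, rfl⟩ := T.surjective v
    have h1 := h w
    rw [HH_image T hc hv]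
    rw [SS_inner, inv_mul_le_iff₀ hd] at h1
    exact h1

lemma det_adjoint : LinearMap.det (LinearMap.adjoint (T : EE (m + 1) →ₗ[ℝ] EE (m + 1)))
    = LinearMap.det (T : EE (m + 1) →ₗ[ℝ] EE (m + 1)) := by
  set b := EuclideanSpace.basisFun (Fin (m + 1)) ℝ with hb
  rw [← LinearMap.det_toMatrix b.toBasis,
    ← LinearMap.det_toMatrix b.toBasis (T : EE (m + 1) →ₗ[ℝ] EE (m + 1)),
    LinearMap.toMatrix_adjoint b b, Matrix.det_conjTranspose]
  simp

lemma det_SS : LinearMap.det (SS T)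
    = ((dT T)⁻¹) ^ (m + 1) * LinearMap.det (T : EE (m + 1) →ₗ[ℝ] EE (m + 1)) := by
  unfold SS
  rw [LinearMap.det_smul, det_adjoint, finrank_euclideanSpace_fin]

/-- `|Π (T C)| = |det T|^m |Π C|`. -/
theorem volume_projBodyOf_image {C : Set (EE (m + 1))} (hc : IsCompact C) (hv : Convex ℝ C) :
    (volume (projBodyOf (T '' C))).toReal = dT T ^ m * (volume (projBodyOf C)).toReal := by
  have hd := dT_pos T
  have hne : LinearMap.det (T : EE (m + 1) →ₗ[ℝ] EE (m + 1)) ≠ 0 := (LinearEquiv.isUnit_det' T).ne_zero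
  have hdet : LinearMap.det (SS T) ≠ 0 := by
    rw [det_SS]
    exact mul_ne_zero (by positivity) hne
  rw [projBodyOf_image T hc hv, Measure.addHaar_preimage_linearMap _ hdet, ENNReal.toReal_mul,
    ENNReal.toReal_ofReal (abs_nonneg _), det_SS]
  congr 1
  rw [abs_inv, abs_mul, abs_of_pos (by positivity : 0 < ((dT T)⁻¹) ^ (m + 1))]
  show ((dT T)⁻¹ ^ (m + 1) * dT T)⁻¹ = _
  rw [pow_succ, inv_pow]
  field_simp

end linear

end

end Vale.Agent.Lib.P237.PN
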