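import Vale.Agent.Lib.P237.PN.JC
import Vale.Agent.Lib.P237.PN.Sweep
import Mathlib.Analysis.SumIntegralComparisons

/-!
# The slice inequality in general dimension
-/

open MeasureTheory Set Module Filter Topology
open scoped RealInnerProductSpace ENNReal Pointwise

namespace Vale.Agent.Lib.P237.PN

noncomputable section

/-- Petty's inequality in dimension `n` with constant `r`. -/
def PettyDim (n : ℕ) (r : ℝ) : Prop :=
  ∀ K : Set (EE n), IsCompact K → Convex ℝ K → (interior K).Nonempty →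
    r * (volume K).toReal ^ (n - 1) ≤ (volume (projBodyOf K)).toReal

section aux

variable {n : ℕ}

lemma rootVol_neg (X : Set (EE n)) : rootVol (-X) = rootVol X := by
  unfold rootVol
  rw [Measure.measure_neg]

/-- The central symmetrization of sorts: if `(1-l) x - l y ∈ C` for all `x, y ∈ A`, then the volume
of `C` is at least that of `A`. -/
lemma rootVol_le_of_nested (hn : n ≠ 0) {A C : Set (EE n)} (hA : IsCompact A) (hC : IsCompact C)
    (hne : A.Nonempty) {l : ℝ} (l0 : 0 ≤ l) (l1 : l ≤ 1)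
    (H : ∀ x ∈ A, ∀ y ∈ A, (1 - l) • x + l • (-y) ∈ C) : rootVol A ≤ rootVol C := by
  have h := bm_comb hn hA hA.neg hC hne hne.neg l0 l1 (fun x hx y hy => by
    have := H x hx (-y) (by simpa using hy)
    simpa using this)
  rw [rootVol_neg] at h
  calc rootVol A = (1 - l) * rootVol A + l * rootVol A := by ring
    _ ≤ _ := h

lemma volume_le_of_rootVol_le (hn : n ≠ 0) {A C : Set (EE n)} (h : rootVol A ≤ rootVol C) :
    (volume A).toReal ≤ (volume C).toReal := by
  rw [← rootVol_pow hn A, ← rootVol_pow hn C]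
  exact pow_le_pow_left₀ (rootVol_nonneg A) h n

lemma interior_nonempty_of_volume_pos {K : Set (EE n)} (hK : IsCompact K) (hv : Convex ℝ K)
    (hpos : 0 < (volume K).toReal) : (interior K).Nonempty := by
  by_contra hne
  rw [not_nonempty_iff_eq_empty] at hne
  have hfr : volume (frontier K) = 0 := hv.addHaar_frontier volume
  have hsub : K ⊆ frontier K := by
    rw [frontier, hK.isClosed.closure_eq, hne]
    simp
  have : volume K = 0 := measure_mono_null hsub hfr
  rw [this] at hpos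
  simp at hpos

end aux

variable {k : ℕ} (b : OrthonormalBasis (Fin (k + 1 + 1)) ℝ (EE (k + 1 + 1))) {K L : Set (EE (k + 1 + 1))}

lemma inner_nu (w : EE (k + 1)) (x : EE (k + 1 + 1)) : ⟪pt b w 0, x⟫ = ⟪cmap b x, w⟫ := by
  unfold pt
  rw [zero_smul, add_zero, sum_inner]
  simp only [real_inner_smul_left]
  rw [PiLp.inner_apply]
  apply Finset.sum_congr rfl
  intro i _
  simp only [RCLike.inner_apply, conj_trivial, cmap_apply]

lemma norm_nu (w : EE (k + 1)) : ‖pt b w 0‖ = ‖w‖ := by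
  have h := norm_sq_pt b w 0
  have h2 : ‖pt b w 0‖ ^ 2 = ‖w‖ ^ 2 := by
    rw [h]
    ring
  exact (pow_left_inj₀ (norm_nonneg _) (norm_nonneg _) two_ne_zero).mp h2

lemma sec_sweep (K : Set (EE (k + 1 + 1))) (w : EE (k + 1)) (t : ℝ) :
    sec b (sweep K (pt b w 0)) t = sweep (sec b K t) w := by
  ext p
  constructor
  · rintro ⟨x, hx, r, hr, he⟩
    have h1 : p = cmap b x + r • w := by
      have h2 := congrArg (cmap b) he
      have e : x + r • pt b w 0 = (1 : ℝ) • x + r • pt b w 0 := by rw [one_smul]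
      rw [e, cmap_add_smul, cmap_pt, cmap_pt, one_smul] at h2
      exact h2
    have h2 : t = ⟪b (Fin.last (k + 1)), x⟫ := by
      have h3 := congrArg (fun z => ⟪b (Fin.last (k + 1)), z⟫) he
      simp only [inner_pt_last, inner_add_right, real_inner_smul_right] at h3
      rw [h3]
      ring
    refine ⟨cmap b x, ?_, r, hr, h1⟩
    show pt b (cmap b x) t ∈ K
    rw [h2]
    have := pt_coord b x
    simp only [coord] at this
    rw [this]
    exact hx
  · rintro ⟨q, hq, r, hr, rfl⟩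
    refine ⟨pt b q t, hq, r, hr, ?_⟩
    have := pt_comb b q w t 0 1 r
    simpa using this

/-- **The slice formula**: `h_{Π K}` on horizontal vectors is the integral of the `h_{Π K_t}`. -/
lemma HH_slice (hK : IsCompact K) (hKc : Convex ℝ K) (w : EE (k + 1)) :
    ∫⁻ t, ENNReal.ofReal (2 * HH (sec b K t) w) = ENNReal.ofReal (2 * HH K (pt b w 0)) := by
  set g := pt b w 0 with hg
  have hXc := sweep_compact hK g
  have h1 := volume_eq_lintegral_sec b hXc.measurableSet
  have hfin : ∀ {A : Set (EE (k + 1))}, IsCompact A → volume A = ENNReal.ofReal (volume A).toReal :=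
    fun hA => (ENNReal.ofReal_toReal hA.measure_lt_top.ne).symm
  have h2 : ∀ t, volume (sec b (sweep K g) t)
      = volume (sec b K t) + ENNReal.ofReal (2 * HH (sec b K t) w) := by
    intro t
    rw [hg, sec_sweep]
    have hs := sec_compact b hK t
    have hv := volume_sweep_HH hs (sec_convex b hKc t) w
    rw [hfin (sweep_compact hs w), hv, ENNReal.ofReal_add ENNReal.toReal_nonneg
      (mul_nonneg zero_le_two (HH_nonneg _ _)), ← hfin hs]
  simp_rw [h2] at h1
  rw [lintegral_add_left (measurable_volume_sec b hK.measurableSet),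
    ← volume_eq_lintegral_sec b hK.measurableSet] at h1
  have h3 : volume (sweep K g) = volume K + ENNReal.ofReal (2 * HH K g) := by
    rw [← ENNReal.ofReal_toReal hXc.measure_lt_top.ne, volume_sweep_HH hK hKc g,
      ENNReal.ofReal_add ENNReal.toReal_nonneg (mul_nonneg zero_le_two (HH_nonneg _ _)),
      ENNReal.ofReal_toReal hK.measure_lt_top.ne]
  rw [h3] at h1
  exact ((ENNReal.add_right_inj hK.measure_lt_top.ne).mp h1).symm

/-- Nestedness of the sections of a symmetric body. -/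
lemma sec_nested (hKc : Convex ℝ K) (hsym : ∀ x ∈ K, -x ∈ K) {s T : ℝ} (hT : 0 < T) (hs : |s| ≤ T)
    {p q : EE (k + 1)} (hp : p ∈ sec b K T) (hq : q ∈ sec b K T) :
    (1 - (T - s) / (2 * T)) • p + ((T - s) / (2 * T)) • (-q) ∈ sec b K s := by
  have hs' := abs_le.mp hs
  set θ := (T - s) / (2 * T) with hθ
  have h0 : 0 ≤ θ := div_nonneg (by linarith) (by linarith)
  have h1 : 0 ≤ 1 - θ := by
    rw [hθ, sub_nonneg, div_le_one (by linarith)]
    linarith
  have e : (1 - θ) * T + θ * -T = s := by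
    rw [hθ]; field_simp; ring
  have := sec_comb b hKc h1 h0 (by ring) hp (sec_neg b hsym hq)
  rwa [e] at this

lemma theta_facts {s T : ℝ} (hT : 0 < T) (hs : |s| ≤ T) :
    0 ≤ (T - s) / (2 * T) ∧ (T - s) / (2 * T) ≤ 1 := by
  have hs' := abs_le.mp hs
  refine ⟨div_nonneg (by linarith) (by linarith), ?_⟩
  rw [div_le_one (by linarith)]
  linarith

/-- The section volumes decrease. -/
lemma rootVol_sec_anti (hK : IsCompact K) (hKc : Convex ℝ K) (hsym : ∀ x ∈ K, -x ∈ K)
    {s T : ℝ} (hT : 0 < T) (hs : |s| ≤ T) (hne : (sec b K T).Nonempty) :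
    rootVol (sec b K T) ≤ rootVol (sec b K s) := by
  obtain ⟨h0, h1⟩ := theta_facts hT hs
  exact rootVol_le_of_nested (Nat.succ_ne_zero k) (sec_compact b hK T) (sec_compact b hK s) hne h0 h1
    (fun x hx y hy => sec_nested b hKc hsym hT hs hx hy)

/-- The projection volumes of the sections decrease. -/
lemma HH_sec_anti (hk : k ≠ 0) (hK : IsCompact K) (hKc : Convex ℝ K) (hsym : ∀ x ∈ K, -x ∈ K)
    {s T : ℝ} (hT : 0 < T) (hs : |s| ≤ T) (hne : (sec b K T).Nonempty) {w : EE (k + 1)}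
    (hw : ‖w‖ = 1) : HH (sec b K T) w ≤ HH (sec b K s) w := by
  obtain ⟨f, rfl⟩ := exists_basis hw
  rw [HH_unit _ hw, HH_unit _ hw, projVol_eq (sec_compact b hK T) f,
    projVol_eq (sec_compact b hK s) f]
  obtain ⟨h0, h1⟩ := theta_facts hT hs
  apply volume_le_of_rootVol_le hk
  apply rootVol_le_of_nested hk ((sec_compact b hK T).image (cmap_continuous f))
    ((sec_compact b hK s).image (cmap_continuous f)) (hne.image _) h0 h1
  rintro _ ⟨x, hx, rfl⟩ _ ⟨y, hy, rfl⟩
  refine ⟨_, sec_nested b hKc hsym hT hs hx hy, ?_⟩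
  rw [cmap_add_smul]
  congr 2
  have := cmap_add_smul f y y (-1) 0
  simpa using this

/-- Lower bound for a line integral by a step function. -/
lemma lintegral_steps (F : ℝ → ℝ≥0∞) {a h : ℝ} (hh : 0 ≤ h) (δ : ℕ → ℝ≥0∞) (n : ℕ)
    (H : ∀ k < n, ∀ τ ∈ Ioc (a + k * h) (a + (k + 1) * h), δ k ≤ F τ) :
    (∑ k ∈ Finset.range n, δ k) * ENNReal.ofReal h ≤ ∫⁻ τ in Ioc a (a + n * h), F τ := by
  induction n with
  | zero => simp
  | succ n ih =>
    have h1 := ih (fun k hk => H k (by omega))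
    have hcast : a + ((n + 1 : ℕ) : ℝ) * h = a + ((n : ℝ) + 1) * h := by push_cast; ring
    have hu : Ioc a (a + ((n + 1 : ℕ) : ℝ) * h) = Ioc a (a + n * h) ∪ Ioc (a + n * h) (a + ((n : ℝ) + 1) * h) := by
      rw [hcast, Ioc_union_Ioc_eq_Ioc]
      · have : 0 ≤ (n : ℝ) * h := by positivity
        linarith
      · nlinarith
    have hd : Disjoint (Ioc a (a + n * h)) (Ioc (a + n * h) (a + ((n : ℝ) + 1) * h)) :=
      Ioc_disjoint_Ioc_of_le le_rfl
    rw [hu, lintegral_union measurableSet_Ioc hd, Finset.sum_range_succ, add_mul]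
    refine add_le_add h1 ?_
    have hvol : volume (Ioc (a + n * h) (a + ((n : ℝ) + 1) * h)) = ENNReal.ofReal h := by
      rw [Real.volume_Ioc]
      congr 1
      ring
    calc δ n * ENNReal.ofReal h = ∫⁻ _ in Ioc (a + n * h) (a + ((n : ℝ) + 1) * h), δ n := by
          rw [setLIntegral_const, hvol]
      _ ≤ _ := setLIntegral_mono' measurableSet_Ioc (H n (by omega))

/-- Heights of the partition. -/
def hgt (N j : ℕ) : ℝ := ((j : ℝ) + 1) / N

lemma hgt_pos {N : ℕ} (hN : N ≠ 0) (j : ℕ) : 0 < hgt N j := by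
  unfold hgt
  have : (0 : ℝ) < N := by positivity
  positivity

lemma hgt_le_one {N j : ℕ} (hj : j < N) : hgt N j ≤ 1 := by
  unfold hgt
  have hN : (0 : ℝ) < N := by
    have : 0 < N := by omega
    positivity
  rw [div_le_one hN]
  have : ((j + 1 : ℕ) : ℝ) ≤ N := by exact_mod_cast hj
  push_cast at this
  exact this

/-- Riemann sum of the projection volumes of the sections from below. -/
lemma HH_lower (hk : k ≠ 0) (hK : IsCompact K) (hKc : Convex ℝ K) (hsym : ∀ x ∈ K, -x ∈ K)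
    (hne : ∀ t, |t| ≤ 1 → (sec b K t).Nonempty) {w : EE (k + 1)} (hw : ‖w‖ = 1) {N : ℕ} (hN : N ≠ 0) :
    2 / (N : ℝ) * ∑ j ∈ Finset.range N, HH (sec b K (hgt N j)) w ≤ HH K (pt b w 0) := by
  have hNr : (0 : ℝ) < N := by positivity
  set F : ℝ → ℝ≥0∞ := fun τ => ENNReal.ofReal (2 * HH (sec b K τ) w) with hF
  set φ : ℕ → ℝ := fun j => HH (sec b K (hgt N j)) w with hφ
  have hφ0 : ∀ j, 0 ≤ φ j := fun j => HH_nonneg _ _
  set δ : ℕ → ℝ≥0∞ := fun j => ENNReal.ofReal (2 * φ j) with hδ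
  have h1h : (0 : ℝ) ≤ 1 / N := by positivity
  have hmul : (N : ℝ) * (1 / N) = 1 := by field_simp
  have hstep : ∀ j < N, ∀ τ : ℝ, |τ| ≤ hgt N j → δ j ≤ F τ := by
    intro j hj τ hτ
    apply ENNReal.ofReal_le_ofReal
    apply mul_le_mul_of_nonneg_left _ zero_le_two
    apply HH_sec_anti b hk hK hKc hsym (hgt_pos hN j) hτ (hne _ _) hw
    rw [abs_of_pos (hgt_pos hN j)]
    exact hgt_le_one hj
  have hpos := lintegral_steps F (a := 0) h1h δ N (fun j hj τ hτ => by
    apply hstep j hj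
    have e1 : (0 : ℝ) + ((j : ℝ) + 1) * (1 / N) = hgt N j := by
      unfold hgt; ring
    have h2 : 0 ≤ (0 : ℝ) + (j : ℝ) * (1 / N) := by positivity
    rw [e1] at hτ
    rw [abs_le]
    constructor
    · have := hgt_pos hN j
      linarith [hτ.1]
    · exact hτ.2)
  have hneg := lintegral_steps F (a := -1) h1h (fun j => δ (N - 1 - j)) N (fun j hj τ hτ => by
    have hj' : N - 1 - j < N := by omega
    apply hstep _ hj'
    have hc : ((N - 1 - j : ℕ) : ℝ) = (N : ℝ) - 1 - j := by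
      have h1 : 1 ≤ N := by omega
      have h2 : j ≤ N - 1 := by omega
      rw [Nat.cast_sub h2, Nat.cast_sub h1]
      simp
    have e1 : hgt N (N - 1 - j) = 1 - (j : ℝ) * (1 / N) := by
      unfold hgt
      rw [hc]
      field_simp
      ring
    have e2 : ((j : ℝ) + 1) * (1 / N) = (j : ℝ) * (1 / N) + 1 / N := by ring
    have hk3 : (j : ℝ) + 1 ≤ N := by exact_mod_cast hj
    have hk4 : ((j : ℝ) + 1) * (1 / N) ≤ 1 := by
      rw [mul_one_div, div_le_one hNr]
      exact hk3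
    rw [e1, abs_le]
    rw [e2] at hk4 hτ
    have h5 := hτ.1
    have h6 := hτ.2
    have h7 : 0 ≤ (j : ℝ) * (1 / N) := by positivity
    constructor <;> linarith)
  rw [hmul, zero_add] at hpos
  have hz : (-1 : ℝ) + 1 = 0 := by norm_num
  rw [hmul, hz, Finset.sum_range_reflect] at hneg
  have hsum : (∑ j ∈ Finset.range N, δ j) * ENNReal.ofReal (1 / N) +
      (∑ j ∈ Finset.range N, δ j) * ENNReal.ofReal (1 / N) ≤ ENNReal.ofReal (2 * HH K (pt b w 0)) := by
    rw [← HH_slice b hK hKc w]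
    calc _ ≤ (∫⁻ τ in Ioc (-1 : ℝ) 0, F τ) + ∫⁻ τ in Ioc (0 : ℝ) 1, F τ := add_le_add hneg hpos
      _ = ∫⁻ τ in Ioc (-1 : ℝ) 0 ∪ Ioc (0 : ℝ) 1, F τ :=
          (lintegral_union measurableSet_Ioc (Ioc_disjoint_Ioc_of_le le_rfl)).symm
      _ ≤ _ := setLIntegral_le_lintegral _ _
  have hδ0 : ∀ j, 0 ≤ 2 * φ j := fun j => mul_nonneg zero_le_two (hφ0 j)
  have hδsum : ∑ j ∈ Finset.range N, δ j = ENNReal.ofReal (∑ j ∈ Finset.range N, 2 * φ j) := by
    rw [ENNReal.ofReal_sum_of_nonneg (fun j _ => hδ0 j)]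
  have hS0 : 0 ≤ ∑ j ∈ Finset.range N, 2 * φ j := Finset.sum_nonneg fun j _ => hδ0 j
  rw [hδsum, ← ENNReal.ofReal_mul hS0, ← ENNReal.ofReal_add (by positivity) (by positivity)] at hsum
  have hle := (ENNReal.ofReal_le_ofReal_iff (mul_nonneg zero_le_two (HH_nonneg _ _))).mp hsum
  rw [← Finset.mul_sum] at hle
  have e : 2 * (2 / (N : ℝ) * ∑ j ∈ Finset.range N, φ j)
      = 2 * (∑ j ∈ Finset.range N, φ j) * (1 / N) + 2 * (∑ j ∈ Finset.range N, φ j) * (1 / N) := by
    field_simp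
    ring
  have h3 : 2 * (2 / (N : ℝ) * ∑ j ∈ Finset.range N, φ j) ≤ 2 * HH K (pt b w 0) := by
    rw [e]
    exact hle
  linarith

/-- Iterated Minkowski sums. -/
def TT {n : ℕ} (c : ℝ) (D : ℕ → Set (EE n)) : ℕ → Set (EE n)
  | 0 => {0}
  | j + 1 => (fun p : EE n × EE n => p.1 + c • p.2) '' (TT c D j ×ˢ D j)

section TT

variable {n : ℕ}

lemma TT_compact (c : ℝ) {D : ℕ → Set (EE n)} (j : ℕ) (hD : ∀ i < j, IsCompact (D i)) :
    IsCompact (TT c D j) := by
  induction j with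
  | zero => exact isCompact_singleton
  | succ j ih =>
    exact ((ih fun i hi => hD i (by omega)).prod (hD j (by omega))).image (by fun_prop)

lemma TT_nonempty (c : ℝ) {D : ℕ → Set (EE n)} (j : ℕ) (hD : ∀ i < j, (D i).Nonempty) :
    (TT c D j).Nonempty := by
  induction j with
  | zero => exact singleton_nonempty _
  | succ j ih => exact ((ih fun i hi => hD i (by omega)).prod (hD j (by omega))).image _

lemma TT_bm (hn : n ≠ 0) {c : ℝ} (hc : 0 ≤ c) {D : ℕ → Set (EE n)} (j : ℕ)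
    (hD : ∀ i < j, IsCompact (D i)) (hD' : ∀ i < j, (D i).Nonempty) :
    c * ∑ i ∈ Finset.range j, rootVol (D i) ≤ rootVol (TT c D j) := by
  induction j with
  | zero => simpa using rootVol_nonneg _
  | succ j ih =>
    have h1 := ih (fun i hi => hD i (by omega)) (fun i hi => hD' i (by omega))
    have := bm_add hn (TT_compact c j fun i hi => hD i (by omega)) (hD j (by omega))
      (TT_compact c (j + 1) hD) (TT_nonempty c j fun i hi => hD' i (by omega))
      (hD' j (by omega)) hc (fun x hx y hy => ⟨(x, y), ⟨hx, hy⟩, rfl⟩)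
    rw [Finset.sum_range_succ, mul_add]
    linarith

lemma TT_bound {c : ℝ} (hc : 0 ≤ c) {D : ℕ → Set (EE n)} (w : EE n) {φ : ℕ → ℝ} (j : ℕ)
    (hφ : ∀ i < j, ∀ d ∈ D i, ⟪d, w⟫ ≤ φ i) :
    ∀ x ∈ TT c D j, ⟪x, w⟫ ≤ c * ∑ i ∈ Finset.range j, φ i := by
  induction j with
  | zero =>
    intro x hx
    have : x = 0 := hx
    simp [this]
  | succ j ih =>
    rintro _ ⟨⟨x, d⟩, ⟨hx, hd⟩, rfl⟩
    have h1 := ih (fun i hi => hφ i (by omega)) x hx
    have h2 := hφ j (by omega) d hd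
    simp only [inner_add_left, inner_smul_left, Finset.sum_range_succ, mul_add]
    simp only [RCLike.conj_to_real]
    have := mul_le_mul_of_nonneg_left h2 hc
    linarith

end TT

/-- `projBodyOf` of a bounded set is compact. -/
lemma projBodyOf_compact {m : ℕ} {C : Set (EE (m + 1))} (hC : IsCompact C) : IsCompact (projBodyOf C) := by
  obtain ⟨R, hR⟩ := hC.isBounded.subset_closedBall (0 : EE (m + 1))
  apply (isCompact_closedBall (0 : EE (m + 1)) (volume (Metric.closedBall (0 : EE m) R)).toReal).of_isClosed_subset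
    (projBodyOf_closed C)
  intro x hx
  rw [mem_closedBall_zero_iff]
  by_cases h0 : x = 0
  · subst h0
    simp
  have h1 := hx _ (unit_of_ne h0)
  have h2 := projVol_ball_le hR _ (unit_of_ne h0)
  rw [real_inner_smul_right, real_inner_self_eq_norm_sq] at h1
  have e : ‖x‖⁻¹ * ‖x‖ ^ 2 = ‖x‖ := by
    have : ‖x‖ ≠ 0 := norm_ne_zero_iff.mpr h0
    field_simp
  rw [e] at h1
  exact h1.trans h2

lemma zero_mem_projBodyOf {n : ℕ} (C : Set (EE n)) : (0 : EE n) ∈ projBodyOf C := by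
  intro u _
  rw [inner_zero_left]
  exact ENNReal.toReal_nonneg

/-- The section bodies at the partition heights. -/
def DD (b : OrthonormalBasis (Fin (k + 1 + 1)) ℝ (EE (k + 1 + 1))) (K : Set (EE (k + 1 + 1))) (N j : ℕ) :
    Set (EE (k + 1)) := projBodyOf (sec b K (hgt N j))

lemma TT_subset (hk : k ≠ 0) (hK : IsCompact K) (hKc : Convex ℝ K) (hsym : ∀ x ∈ K, -x ∈ K)
    (hne : ∀ t, |t| ≤ 1 → (sec b K t).Nonempty) (hL : IsProjBody K L) {N : ℕ} (hN : N ≠ 0) :
    TT (2 / (N : ℝ)) (DD b K N) N ⊆ cmap b '' L := by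
  intro x hx
  by_contra hxQ
  have hQc := hL.compact.image (cmap_continuous b)
  have hQv : Convex ℝ (cmap b '' L) := by
    rintro _ ⟨z, hz, rfl⟩ _ ⟨z', hz', rfl⟩ a c ha hc hac
    exact ⟨a • z + c • z', hL.convex hz hz' ha hc hac, cmap_add_smul b _ _ _ _⟩
  obtain ⟨n, hn, hlt⟩ := exists_sep hQc hQv (hL.nonempty.image _) hxQ
  have hν : ‖pt b n 0‖ = 1 := by rw [norm_nu, hn]
  obtain ⟨ℓ₀, hℓ₀, hsup⟩ := supp_attained hL.compact hL.nonempty (pt b n 0)
  have h1 := hL.support _ hν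
  have hup := TT_bound (c := 2 / (N : ℝ)) (by positivity) n (φ := fun j => HH (sec b K (hgt N j)) n) N
    (fun j _ d hd => by
      rw [HH_unit _ hn]
      exact hd n hn) x hx
  have hlow := HH_lower b hk hK hKc hsym hne hn hN
  rw [HH_unit _ hν, ← h1, ← hsup, real_inner_comm, inner_nu] at hlow
  have h3 := le_supp hQc ⟨ℓ₀, hℓ₀, rfl⟩ n
  linarith

/-- The power `(m-1)/m` of the section volume, `m = k+1`. -/
lemma rr_eq (K : Set (EE (k + 1 + 1))) (t : ℝ) :
    rr b K t = (volume (sec b K t)).toReal ^ ((k : ℝ) / ((k : ℝ) + 1)) := by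
  unfold rr
  congr 1
  push_cast
  ring_nf

lemma rr_nonneg2 (K : Set (EE (k + 1 + 1))) (t : ℝ) : 0 ≤ rr b K t :=
  Real.rpow_nonneg ENNReal.toReal_nonneg _

/-- `rr` in terms of the root of the section volume. -/
lemma rr_eq_root (K : Set (EE (k + 1 + 1))) (t : ℝ) :
    rr b K t = rootVol (sec b K t) ^ k := by
  rw [rr_eq]
  unfold rootVol
  rw [← Real.rpow_natCast, ← Real.rpow_mul ENNReal.toReal_nonneg]
  congr 1
  push_cast
  field_simp

/-- The root of `Π C`, with Petty's inequality in lower dimension. -/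
lemma root_projBody_ge (hk : k ≠ 0) {r : ℝ} (hr : 0 ≤ r) (hP : PettyDim (k + 1) r)
    {C : Set (EE (k + 1))} (hC : IsCompact C) (hCv : Convex ℝ C) :
    r ^ (((k : ℝ) + 1)⁻¹) * rootVol C ^ k ≤ rootVol (projBodyOf C) := by
  rcases (ENNReal.toReal_nonneg (a := volume C)).eq_or_lt with h0 | h0
  · have : rootVol C = 0 := by
      unfold rootVol
      rw [← h0, Real.zero_rpow]
      push_cast
      positivity
    rw [this, zero_pow hk, mul_zero]
    exact rootVol_nonneg _
  have hP' := hP C hC hCv (interior_nonempty_of_volume_pos hC hCv h0)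
  simp only [Nat.add_sub_cancel] at hP'
  have hp : (0 : ℝ) < (k : ℝ) + 1 := by positivity
  have h1 : (r ^ (((k : ℝ) + 1)⁻¹) * rootVol C ^ k) ^ (k + 1) ≤ rootVol (projBodyOf C) ^ (k + 1) := by
    rw [rootVol_pow (Nat.succ_ne_zero k), mul_pow, pow_right_comm, rootVol_pow (Nat.succ_ne_zero k),
      ← Real.rpow_natCast (r ^ _), ← Real.rpow_mul hr]
    have : ((k : ℝ) + 1)⁻¹ * ((k + 1 : ℕ) : ℝ) = 1 := by
      push_cast
      field_simp
    rw [this, Real.rpow_one]
    exact hP'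
  exact (pow_le_pow_iff_left₀ (mul_nonneg (Real.rpow_nonneg hr _) (pow_nonneg (rootVol_nonneg _) _))
    (rootVol_nonneg _) (Nat.succ_ne_zero k)).mp h1

lemma slice_sum (hk : k ≠ 0) {r : ℝ} (hr : 0 ≤ r) (hP : PettyDim (k + 1) r) (hK : IsCompact K)
    (hKc : Convex ℝ K) (hsym : ∀ x ∈ K, -x ∈ K)
    (hne : ∀ t, |t| ≤ 1 → (sec b K t).Nonempty) (hL : IsProjBody K L) {N : ℕ} (hN : N ≠ 0) :
    2 / (N : ℝ) * (r ^ (((k : ℝ) + 1)⁻¹) * ∑ j ∈ Finset.range N, rr b K (hgt N j))
      ≤ rootVol (cmap b '' L) := by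
  have hQc := hL.compact.image (cmap_continuous b)
  have hD : ∀ j < N, IsCompact (DD b K N j) := fun j _ => projBodyOf_compact (sec_compact b hK _)
  have hD' : ∀ j < N, (DD b K N j).Nonempty := fun j _ => ⟨0, zero_mem_projBodyOf _⟩
  have h1 := TT_bm (Nat.succ_ne_zero k) (c := 2 / (N : ℝ)) (by positivity) N hD hD'
  have h2 := rootVol_mono hQc (TT_subset b hk hK hKc hsym hne hL hN)
  have h3 : ∑ j ∈ Finset.range N, r ^ (((k : ℝ) + 1)⁻¹) * rr b K (hgt N j)
      ≤ ∑ j ∈ Finset.range N, rootVol (DD b K N j) :=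
    Finset.sum_le_sum fun j _ => by
      rw [rr_eq_root]
      exact root_projBody_ge hk hr hP (sec_compact b hK _) (sec_convex b hKc _)
  rw [← Finset.mul_sum] at h3
  have h4 := mul_le_mul_of_nonneg_left h3 (by positivity : (0 : ℝ) ≤ 2 / N)
  linarith

/-- Riemann sum bound for an antitone function. -/
lemma riemann_upper {f : ℝ → ℝ} (hf : AntitoneOn f (Icc 0 1)) (hf0 : ∀ t, 0 ≤ f t) {N : ℕ}
    (hN : N ≠ 0) : N * ∫ t in (0 : ℝ)..1, f t ≤ f 0 + ∑ j ∈ Finset.range N, f (hgt N j) := by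
  have hmr : (0 : ℝ) < N := by positivity
  have hg : AntitoneOn (fun x : ℝ => f (x / N)) (Icc 0 ((0 : ℝ) + (N : ℕ))) := by
    intro x hx y hy hxy
    have hx' : x / N ∈ Icc (0 : ℝ) 1 := by
      refine ⟨div_nonneg hx.1 hmr.le, ?_⟩
      rw [div_le_one hmr]
      simpa using hx.2
    have hy' : y / N ∈ Icc (0 : ℝ) 1 := by
      refine ⟨div_nonneg hy.1 hmr.le, ?_⟩
      rw [div_le_one hmr]
      simpa using hy.2
    exact hf hx' hy' (div_le_div_of_nonneg_right hxy hmr.le)
  have h := hg.integral_le_sum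
  rw [intervalIntegral.integral_comp_div _ hmr.ne'] at h
  have e1 : (0 : ℝ) / N = 0 := by simp
  have e2 : ((0 : ℝ) + (N : ℕ)) / N = 1 := by
    rw [zero_add]; exact div_self hmr.ne'
  rw [e1, e2, smul_eq_mul] at h
  refine h.trans ?_
  obtain ⟨m', rfl⟩ := Nat.exists_eq_succ_of_ne_zero hN
  rw [Finset.sum_range_succ', Finset.sum_range_succ (fun k => f (hgt _ k))]
  simp only [zero_add, Nat.cast_zero, zero_div]
  have h3 : ∀ k ∈ Finset.range m', f (((k + 1 : ℕ) : ℝ) / ((m' + 1 : ℕ) : ℝ)) = f (hgt (m' + 1) k) := by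
    intro k _
    unfold hgt
    push_cast
    rfl
  rw [Finset.sum_congr rfl h3]
  have := hf0 (hgt (m' + 1) m')
  linarith

lemma sec_nonempty_of_ball (hB : Metric.closedBall (0 : EE (k + 1 + 1)) 1 ⊆ K) {t : ℝ} (ht : |t| ≤ 1) :
    (sec b K t).Nonempty := by
  refine ⟨0, hB ?_⟩
  have h := norm_sq_pt b (0 : EE (k + 1)) t
  rw [mem_closedBall_zero_iff]
  have h2 : ‖pt b (0 : EE (k + 1)) t‖ ^ 2 ≤ 1 ^ 2 := by
    rw [h, norm_zero]
    have := sq_le_one_iff_abs_le_one t
    have h3 : t ^ 2 ≤ 1 := this.mpr ht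
    nlinarith
  exact (pow_le_pow_iff_left₀ (norm_nonneg _) zero_le_one two_ne_zero).mp h2

/-- **The slice inequality.** -/
theorem slice (hk : k ≠ 0) {r : ℝ} (hr : 0 ≤ r) (hP : PettyDim (k + 1) r) (hK : IsCompact K)
    (hKc : Convex ℝ K) (hsym : ∀ x ∈ K, -x ∈ K)
    (hB : Metric.closedBall (0 : EE (k + 1 + 1)) 1 ⊆ K) (hL : IsProjBody K L) :
    r * (2 * ∫ t in (0 : ℝ)..1, rr b K t) ^ (k + 1) ≤ projVol L (b (Fin.last (k + 1))) := by
  have hne : ∀ t, |t| ≤ 1 → (sec b K t).Nonempty := fun t ht => sec_nonempty_of_ball b hB ht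
  have hf0 : ∀ t, 0 ≤ rr b K t := fun t => rr_nonneg2 b K t
  have hanti : AntitoneOn (rr b K) (Icc 0 1) := by
    intro s hs T hT hsT
    rcases hsT.eq_or_lt with rfl | hlt
    · exact le_rfl
    have hT0 : 0 < T := lt_of_le_of_lt hs.1 hlt
    rw [rr_eq_root, rr_eq_root]
    apply pow_le_pow_left₀ (rootVol_nonneg _)
    apply rootVol_sec_anti b hK hKc hsym hT0 _ (hne T (by rw [abs_of_pos hT0]; exact hT.2))
    rw [abs_of_nonneg hs.1]
    exact hsT
  set I := ∫ t in (0 : ℝ)..1, rr b K t with hI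
  have hI0 : 0 ≤ I := intervalIntegral.integral_nonneg zero_le_one fun t _ => hf0 t
  set R := rootVol (cmap b '' L) with hR
  have hR0 : 0 ≤ R := rootVol_nonneg _
  have hproj : projVol L (b (Fin.last (k + 1))) = R ^ (k + 1) := by
    rw [hR, rootVol_pow (Nat.succ_ne_zero k)]
    exact projVol_eq hL.compact b
  set r' := r ^ (((k : ℝ) + 1)⁻¹) with hr'
  have hr'0 : 0 ≤ r' := Real.rpow_nonneg hr _
  have key : ∀ N : ℕ, N ≠ 0 → r' * (2 * I) ≤ R + 2 * r' * rr b K 0 / N := by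
    intro N hN
    have hmr : (0 : ℝ) < N := by positivity
    have h1 := slice_sum b hk hr hP hK hKc hsym hne hL hN
    have h2 := riemann_upper hanti hf0 hN
    rw [← hI] at h2
    have h3 : r' * (2 * I) = 2 / (N : ℝ) * r' * (N * I) := by
      field_simp
    have h4 : 2 / (N : ℝ) * r' * (N * I)
        ≤ 2 / (N : ℝ) * r' * (rr b K 0 + ∑ j ∈ Finset.range N, rr b K (hgt N j)) :=
      mul_le_mul_of_nonneg_left h2 (by positivity)
    have h5 : 2 / (N : ℝ) * r' * (rr b K 0 + ∑ j ∈ Finset.range N, rr b K (hgt N j))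
        = 2 * r' * rr b K 0 / N + 2 / (N : ℝ) * (r' * ∑ j ∈ Finset.range N, rr b K (hgt N j)) := by
      ring
    linarith
  have hle : r' * (2 * I) ≤ R := by
    by_contra hlt
    have hgap : 0 < r' * (2 * I) - R := by linarith [not_le.mp hlt]
    obtain ⟨N, hN⟩ := exists_nat_gt (2 * r' * rr b K 0 / (r' * (2 * I) - R))
    have hN0 : (0 : ℝ) ≤ N := Nat.cast_nonneg N
    have h1 := key (N + 1) (by omega)
    have hNr : (0 : ℝ) < ((N + 1 : ℕ) : ℝ) := by positivity
    have h2 : 2 * r' * rr b K 0 / ((N + 1 : ℕ) : ℝ) < r' * (2 * I) - R := by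
      rw [div_lt_iff₀ hNr]
      rw [div_lt_iff₀ hgap] at hN
      push_cast
      nlinarith
    linarith
  rw [hproj]
  have hr'p : r' ^ (k + 1) = r := by
    rw [hr', ← Real.rpow_natCast, ← Real.rpow_mul hr]
    have : ((k : ℝ) + 1)⁻¹ * ((k + 1 : ℕ) : ℝ) = 1 := by
      push_cast
      field_simp
    rw [this, Real.rpow_one]
  calc r * (2 * I) ^ (k + 1) = (r' * (2 * I)) ^ (k + 1) := by rw [mul_pow r' (2 * I), hr'p]
    _ ≤ R ^ (k + 1) := pow_le_pow_left₀ (by positivity) hle _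

end

end Vale.Agent.Lib.P237.PN
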