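import Vale.Agent.Lib.P237.PN.BMEq
import Vale.Agent.Lib.P237.PN.Slice
import Vale.Agent.Lib.P237.PN.Poly
import Vale.Agent.Lib.P237.PN.Limit
import Vale.Agent.Lib.P237.PN.John

/-!
# The minimizer over symmetric bodies, the fixed point, the induction step
-/

open MeasureTheory Set Module Filter Topology
open scoped RealInnerProductSpace ENNReal Pointwise

namespace Vale.Agent.Lib.P237.PN

noncomputable section

lemma vol_pos_of_ball {n : ℕ} {X : Set (EE n)} (hX : IsCompact X) {r : ℝ} (hr : 0 < r)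
    (hb : Metric.closedBall (0 : EE n) r ⊆ X) : 0 < (volume X).toReal := by
  apply ENNReal.toReal_pos _ hX.measure_lt_top.ne
  exact ((Metric.measure_closedBall_pos _ _ hr).trans_le (measure_mono hb)).ne'

variable {k : ℕ}

/-- The ratio `|Π A| / |A|^(n-1)`. -/
def ratio (A : Set (EE (k + 1 + 1))) : ℝ :=
  (volume (projBodyOf A)).toReal / (volume A).toReal ^ (k + 1)

lemma ratio_nonneg (A : Set (EE (k + 1 + 1))) : 0 ≤ ratio A :=
  div_nonneg ENNReal.toReal_nonneg (pow_nonneg ENNReal.toReal_nonneg _)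

lemma ratio_image (T : EE (k + 1 + 1) ≃ₗ[ℝ] EE (k + 1 + 1)) {C : Set (EE (k + 1 + 1))}
    (hc : IsCompact C) (hv : Convex ℝ C) : ratio (T '' C) = ratio C := by
  unfold ratio
  rw [volume_projBodyOf_image T hc hv, volume_image_real, mul_pow]
  have := dT_pos T
  exact mul_div_mul_left _ _ (pow_ne_zero _ this.ne')

lemma image_symm (M : MM (k + 1 + 1)) {C : Set (EE (k + 1 + 1))} (hs : ∀ x ∈ C, -x ∈ C) :
    ∀ x ∈ act M '' C, -x ∈ act M '' C := by
  rintro _ ⟨x, hx, rfl⟩
  exact ⟨-x, hs x hx, act_neg _ _⟩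

/-- The John position of a symmetric body, with its decomposition of the identity. -/
lemma john_form {A : Set (EE (k + 1 + 1))} {ρ : ℝ} (hA : SymBody A ρ) :
    ∃ A' : Set (EE (k + 1 + 1)), SymBody A' 1 ∧ ratio A' = ratio A ∧
      A' ⊆ Metric.closedBall 0 ((k + 1 + 1 : ℕ) : ℝ) ∧
      ∃ (ι : Type) (_ : Fintype ι) (y : ι → EE (k + 1 + 1)) (c : ι → ℝ), (∀ i, ‖y i‖ = 1) ∧
        (∀ i, ∀ x ∈ A', ⟪x, y i⟫ ≤ 1) ∧ (∀ i, 0 < c i) ∧
        ∀ x : EE (k + 1 + 1), ∑ i, c i * ⟪x, y i⟫ ^ 2 = ‖x‖ ^ 2 := by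
  obtain ⟨M, hdet, hball, hmax⟩ := john_normalize hA.compact hA.pos hA.ball
  set T := actEquiv M hdet with hT
  set A' : Set (EE (k + 1 + 1)) := act M⁻¹ '' A with hA'
  have hAT : A' = T.symm '' A := rfl
  have hAc : IsCompact A' := by
    rw [hAT]
    exact image_compact T.symm hA.compact
  have hAv : Convex ℝ A' := by
    rw [hAT]
    exact image_convex T.symm hA.convex
  have hAs : ∀ x ∈ A', -x ∈ A' := image_symm _ hA.sym
  refine ⟨A', ⟨one_pos, hAc, hAv, hAs, hball⟩, ?_, ?_, ?_⟩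
  · rw [hAT]
    exact ratio_image T.symm hA.compact hA.convex
  · exact outer_of_dual (Nat.succ_pos _) hAs (john_dual (Nat.succ_pos _) hAc hAv hball hmax)
  · exact exists_decomp (Nat.succ_pos _) hAc hAv hball hmax

/-- The projection bodies of a body with a small dilate are small. -/
lemma volume_projBodyOf_le {X Y : Set (EE (k + 1 + 1))} (hX : IsCompact X) (hY : IsCompact Y) {t : ℝ}
    (ht : 0 < t) (h : X ⊆ t • Y) :
    (volume (projBodyOf X)).toReal ≤ t ^ ((k + 1) * (k + 1 + 1)) * (volume (projBodyOf Y)).toReal := by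
  have hsub : projBodyOf X ⊆ t ^ (k + 1) • projBodyOf Y := by
    intro x hx
    refine (mem_smul_set_iff_inv_smul_mem₀ (by positivity) _ _).mpr ?_
    intro u hu
    have h1 := hx u hu
    have h2 := projVol_le_of_subset hX hY ht.le h hu
    rw [real_inner_smul_left, inv_mul_le_iff₀ (by positivity)]
    exact h1.trans h2
  have := volume_le_of_subset_smul (projBodyOf_compact hY) (by positivity) hsub
  rwa [← pow_mul] at this

/-- **The minimizer.** -/
theorem exists_minimizer :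
    ∃ A : Set (EE (k + 1 + 1)), SymBody A 1 ∧ ∀ (C : Set (EE (k + 1 + 1))) (ρ : ℝ), SymBody C ρ → ratio A ≤ ratio C := by
  set S : Set ℝ := {R | ∃ (A : Set (EE (k + 1 + 1))) (ρ : ℝ), SymBody A ρ ∧ R = ratio A} with hS
  have hball : SymBody (Metric.closedBall (0 : EE (k + 1 + 1)) 1) 1 :=
    ⟨one_pos, isCompact_closedBall _ _, convex_closedBall _ _, fun x hx => by simpa using hx, subset_rfl⟩
  have hSne : S.Nonempty := ⟨_, _, 1, hball, rfl⟩
  have hSbdd : BddBelow S := by
    refine ⟨0, ?_⟩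
    rintro _ ⟨A, ρ, -, rfl⟩
    exact ratio_nonneg A
  set ρ₀ := sInf S with hρ₀
  have hseq : ∀ j : ℕ, ∃ X : Set (EE (k + 1 + 1)), SymBody X 1 ∧ ratio X < ρ₀ + 1 / ((j : ℝ) + 1) ∧
      X ⊆ Metric.closedBall 0 ((k + 1 + 1 : ℕ) : ℝ) := by
    intro j
    have h1 : ρ₀ < ρ₀ + 1 / ((j : ℝ) + 1) := by
      have : 0 < 1 / ((j : ℝ) + 1) := by positivity
      linarith
    obtain ⟨r, ⟨A, ρ, hA, rfl⟩, hr⟩ := exists_lt_of_csInf_lt hSne h1
    obtain ⟨X, hX, hrat, hout, -⟩ := john_form hA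
    exact ⟨X, hX, by rwa [hrat], hout⟩
  choose X hX hrat hout using hseq
  obtain ⟨X₀, φ, hφ, hc₀, hne₀, -, hconv⟩ := exists_HConv_subseq X (fun j => (hX j).compact)
    (fun j => (hX j).nonempty) hout
  have hcl := hc₀.isClosed
  have hv₀ := hconv.convex hcl (fun j => (hX (φ j)).convex)
  have hs₀ := hconv.symm hcl (fun j => (hX (φ j)).sym)
  have hb₀ := hconv.ball hcl (r := 1) (fun j => (hX (φ j)).ball)
  have H : ∀ η > 0, ∀ᶠ j in atTop, Sand (X (φ j)) X₀ η := fun η hη =>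
    hconv.sand (fun j => (hX (φ j)).convex) hv₀ one_pos (fun j => (hX (φ j)).ball) hb₀ hη
  have tV := tendsto_volume (fun j => (hX (φ j)).compact) hc₀ H
  have tL : Tendsto (fun j => (volume (projBodyOf (X (φ j)))).toReal) atTop
      (𝓝 (volume (projBodyOf X₀)).toReal) := by
    apply tendsto_of_sand ((k + 1) * (k + 1 + 1)) ENNReal.toReal_nonneg
    intro η hη
    filter_upwards [H η hη] with j hj
    have ht : 0 < 1 + η := by linarith
    exact ⟨volume_projBodyOf_le (hX _).compact hc₀ ht hj.1,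
      volume_projBodyOf_le hc₀ (hX _).compact ht hj.2⟩
  have hV₀ : 0 < (volume X₀).toReal := vol_pos_of_ball hc₀ one_pos hb₀
  have tR : Tendsto (fun j => ratio (X (φ j))) atTop (𝓝 (ratio X₀)) :=
    tL.div (tV.pow _) (by positivity)
  have t2 : Tendsto (fun j : ℕ => ρ₀ + 1 / (((φ j : ℕ) : ℝ) + 1)) atTop (𝓝 (ρ₀ + 0)) :=
    tendsto_const_nhds.add (tendsto_one_div_add_atTop_nhds_zero_nat.comp hφ.tendsto_atTop)
  rw [add_zero] at t2
  have hle : ratio X₀ ≤ ρ₀ := le_of_tendsto_of_tendsto' tR t2 fun j => (hrat (φ j)).le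
  refine ⟨X₀, ⟨one_pos, hc₀, hv₀, hs₀, hb₀⟩, fun C ρ hC => hle.trans ?_⟩
  exact csInf_le hSbdd ⟨C, ρ, hC, rfl⟩

/-- The volume of the section of a ball in dimension `m`: a positive number. -/
lemma disk_pos {n : ℕ} {r : ℝ} (hr : 0 < r) : 0 < (volume (Metric.closedBall (0 : EE n) r)).toReal :=
  vol_pos_of_ball (isCompact_closedBall _ _) hr subset_rfl

/-- The projection body of a body with a ball is a symmetric body. -/
lemma symBody_projBodyOf {A : Set (EE (k + 1 + 1))} (hA : IsCompact A) {ρ : ℝ}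
    (hρ : 0 < ρ) (hB : Metric.closedBall (0 : EE (k + 1 + 1)) ρ ⊆ A) :
    SymBody (projBodyOf A) (volume (Metric.closedBall (0 : EE (k + 1)) ρ)).toReal :=
  ⟨disk_pos hρ, projBodyOf_compact hA, projBodyOf_convex A, fun _ hx => projBodyOf_sym hA hx,
    ball_subset_projBodyOf hA hB⟩

lemma rootVol_pos {n : ℕ} {A : Set (EE n)} (h : 0 < (volume A).toReal) : 0 < rootVol A :=
  Real.rpow_pos_of_pos h _

/-- **The fixed point property of the minimizer.** -/
theorem minimizer_fixed {A : Set (EE (k + 1 + 1))} (hA : SymBody A 1)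
    (hmin : ∀ (C : Set (EE (k + 1 + 1))) (ρ : ℝ), SymBody C ρ → ratio A ≤ ratio C) :
    0 < ratio A * (volume A).toReal ^ k ∧
      projBodyOf (projBodyOf A) = (ratio A * (volume A).toReal ^ k) • A := by
  set V := (volume A).toReal with hV
  have hVpos : 0 < V := vol_pos_of_ball hA.compact one_pos hA.ball
  have hLs := symBody_projBodyOf hA.compact one_pos hA.ball
  set L := projBodyOf A with hL
  have hMs := symBody_projBodyOf hLs.compact hLs.pos hLs.ball
  set M := projBodyOf L with hMd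
  set ρ := ratio A with hρ
  have hLpos : 0 < (volume L).toReal := vol_pos_of_ball hLs.compact hLs.pos hLs.ball
  have hLval : (volume L).toReal = ρ * V ^ (k + 1) := by
    rw [hρ]
    unfold ratio
    rw [← hV, ← hL]
    field_simp
  have hρpos : 0 < ρ := by
    by_contra hcon
    have h0 : ρ = 0 := le_antisymm (not_lt.mp hcon) (ratio_nonneg A)
    rw [hLval, h0, zero_mul] at hLpos
    exact lt_irrefl _ hLpos
  set c := ρ * V ^ k with hc
  have hcpos : 0 < c := by positivity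
  refine ⟨hcpos, ?_⟩
  have hM1 : V ^ (k + 1) * (volume M).toReal ≤ (volume L).toReal ^ (k + 1 + 1) :=
    mink_general (m := k + 1) (Nat.succ_pos k) hA.compact hA.convex one_pos hA.ball
  have hM2 : ρ * (volume L).toReal ^ (k + 1) ≤ (volume M).toReal := by
    have h1 := hmin L _ hLs
    unfold ratio at h1
    rwa [le_div_iff₀ (by positivity)] at h1
  rw [hLval] at hM1 hM2
  have h3 : (volume M).toReal = c ^ (k + 1 + 1) * V := by
    apply le_antisymm
    · have h4 : V ^ (k + 1) * (volume M).toReal ≤ V ^ (k + 1) * (c ^ (k + 1 + 1) * V) := by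
        calc _ ≤ (ρ * V ^ (k + 1)) ^ (k + 1 + 1) := hM1
          _ = _ := by rw [hc]; ring
      exact le_of_mul_le_mul_left h4 (by positivity)
    · calc c ^ (k + 1 + 1) * V = ρ * (ρ * V ^ (k + 1)) ^ (k + 1) := by rw [hc]; ring
        _ ≤ _ := hM2
  have hMc := hMs.compact
  have hVeq : volume M = ENNReal.ofReal (c ^ (k + 1 + 1)) * volume A := by
    rw [← ENNReal.ofReal_toReal hMc.measure_lt_top.ne, h3,
      ENNReal.ofReal_mul (by positivity), ENNReal.ofReal_toReal hA.compact.measure_lt_top.ne]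
  have hg₀pos : 0 < rootVol A := rootVol_pos hVpos
  have hg₀ : rootVol A ^ (k + 1 + 1) = V := rootVol_pow (Nat.succ_ne_zero _) A
  set g₀ := rootVol A with hg₀d
  have he : 0 < c⁻¹ := inv_pos.mpr hcpos
  have htan := tangent_general (m := k + 1) (Nat.succ_pos k) hA.compact hA.convex one_pos hA.ball hg₀pos hg₀.symm he.le
  rw [← hL, ← hMd, hLval] at htan
  have hval : g₀ + c⁻¹ * (ρ * V ^ (k + 1) / g₀ ^ (k + 1)) = 2 * g₀ := by
    have e : ρ * V ^ (k + 1) = c * (g₀ ^ (k + 1) * g₀) := by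
      rw [hc, pow_succ V k, ← pow_succ g₀ (k + 1), hg₀]
      ring
    rw [e]
    field_simp
    ring
  rw [hval] at htan
  have hadd : volume (A + c⁻¹ • M) ≤ ENNReal.ofReal ((1 + c⁻¹ * c) ^ (k + 1 + 1)) * volume A := by
    have hcomp : IsCompact (A + c⁻¹ • M) := hA.compact.add (hMc.smul _)
    rw [← ENNReal.ofReal_toReal hcomp.measure_lt_top.ne,
      ← ENNReal.ofReal_toReal hA.compact.measure_lt_top.ne (a := volume A),
      ← ENNReal.ofReal_mul (by positivity)]
    apply ENNReal.ofReal_le_ofReal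
    rw [inv_mul_cancel₀ hcpos.ne']
    calc _ ≤ (2 * g₀) ^ (k + 1 + 1) := htan
      _ = (1 + 1) ^ (k + 1 + 1) * g₀ ^ (k + 1 + 1) := by
        rw [← mul_pow]
        congr 1
        ring
      _ = _ := by rw [hg₀]
  exact eq_smul_of_volume_add_le (m := k + 1) (Nat.succ_pos k) hA hMs hcpos he hVeq hadd

/-- The bound at the John position. -/
theorem fix_bound (hk : k ≠ 0) {r : ℝ} (hr : 0 ≤ r) (hP : PettyDim (k + 1) r) {ι : Type*} [Fintype ι]
    {A : Set (EE (k + 1 + 1))} (hA : SymBody A 1) {c₀ : ℝ} (hc₀ : 0 ≤ c₀)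
    (hfix : projBodyOf (projBodyOf A) ⊆ c₀ • A)
    (y : ι → EE (k + 1 + 1)) (c : ι → ℝ) (hc : ∀ i, 0 < c i) (hy : ∀ i, ‖y i‖ = 1)
    (hJ : ∀ x : EE (k + 1 + 1), ∑ i, c i * ⟪x, y i⟫ ^ 2 = ‖x‖ ^ 2)
    (hw : ∀ i, ∀ x ∈ A, ⟪x, y i⟫ ≤ 1) :
    r * (volume A).toReal ^ (((k + 1 : ℕ) : ℝ) - 1 + 1 / (((k + 1 : ℕ) : ℝ) + 1)) ≤ c₀ := by
  choose b hb using fun i => exists_basis (hy i)
  have hm2 : 2 ≤ k + 1 := by omega
  obtain ⟨i, hi⟩ := john_average hm2 hA.compact hA.convex hA.sym hA.ball y c hc hy hJ hw b hb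
  have hLp := isProjBody_projBodyOf hA.compact hA.convex one_pos hA.ball
  have hLs := symBody_projBodyOf hA.compact one_pos hA.ball
  have hMp := isProjBody_projBodyOf hLs.compact hLs.convex hLs.pos hLs.ball
  have h1 := slice (b i) hk hr hP hA.compact hA.convex hA.sym hA.ball hLp
  rw [hb i] at h1
  have h2 := mul_le_mul_of_nonneg_left hi hr
  refine h2.trans (h1.trans ?_)
  rw [← hMp.support _ (hy i)]
  apply csSup_le (hMp.nonempty.image _)
  rintro _ ⟨z, hz, rfl⟩
  obtain ⟨x, hx, rfl⟩ := hfix hz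
  simp only [real_inner_smul_left]
  have := hw i x hx
  nlinarith

/-- **The induction step.** -/
theorem petty_step (hk : k ≠ 0) {r : ℝ} (hr : 0 ≤ r) (hP : PettyDim (k + 1) r) :
    PettyDim (k + 1 + 1)
      (r * (volume (Metric.closedBall (0 : EE (k + 1 + 1)) 1)).toReal ^ (1 / (((k + 1 : ℕ) : ℝ) + 1))) := by
  obtain ⟨A₀, hA₀, hmin₀⟩ := exists_minimizer (k := k)
  obtain ⟨A, hA, hrat, -, ι, hι, y, c, hy, hw, hc, hJ⟩ := john_form hA₀
  have hmin : ∀ (C : Set (EE (k + 1 + 1))) (ρ : ℝ), SymBody C ρ → ratio A ≤ ratio C := by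
    rw [hrat]
    exact hmin₀
  obtain ⟨hcpos, hfix⟩ := minimizer_fixed hA hmin
  have hb := fix_bound hk hr hP hA hcpos.le hfix.subset y c hc hy hJ hw
  set V := (volume A).toReal with hV
  have hVpos : 0 < V := vol_pos_of_ball hA.compact one_pos hA.ball
  have hκ : (volume (Metric.closedBall (0 : EE (k + 1 + 1)) 1)).toReal ≤ V :=
    ENNReal.toReal_mono hA.compact.measure_lt_top.ne (measure_mono hA.ball)
  have hκpos : 0 < (volume (Metric.closedBall (0 : EE (k + 1 + 1)) 1)).toReal := disk_pos one_pos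
  set κ := (volume (Metric.closedBall (0 : EE (k + 1 + 1)) 1)).toReal with hκd
  set s : ℝ := 1 / (((k + 1 : ℕ) : ℝ) + 1) with hs
  have hs0 : 0 ≤ s := by positivity
  have he : V ^ (((k + 1 : ℕ) : ℝ) - 1 + s) = V ^ k * V ^ s := by
    rw [Real.rpow_add hVpos]
    congr 1
    rw [← Real.rpow_natCast]
    congr 1
    push_cast
    ring
  rw [he] at hb
  have hVk : 0 < V ^ k := by positivity
  have hρ : r * κ ^ s ≤ ratio A := by
    have h1 : V ^ k * (r * V ^ s) ≤ V ^ k * ratio A := by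
      calc _ = r * (V ^ k * V ^ s) := by ring
        _ ≤ _ := hb
        _ = _ := by ring
    have h2 := le_of_mul_le_mul_left h1 hVk
    have h3 : κ ^ s ≤ V ^ s := Real.rpow_le_rpow hκpos.le hκ hs0
    exact (mul_le_mul_of_nonneg_left h3 hr).trans h2
  set r' := r * κ ^ s with hr'
  have hr'0 : 0 ≤ r' := mul_nonneg hr (Real.rpow_nonneg hκpos.le _)
  -- all symmetric bodies
  have hall : ∀ (C : Set (EE (k + 1 + 1))) (ρ : ℝ), SymBody C ρ →
      r' * (volume C).toReal ^ (k + 1) ≤ (volume (projBodyOf C)).toReal := by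
    intro C ρ hC
    have h1 := hρ.trans (hmin C ρ hC)
    have hCpos : 0 < (volume C).toReal := vol_pos_of_ball hC.compact hC.pos hC.ball
    unfold ratio at h1
    rwa [le_div_iff₀ (by positivity)] at h1
  intro K hK hKv hi
  obtain ⟨x₀, hx₀⟩ := hi
  obtain ⟨ρ, hρ0, hball⟩ := Metric.nhds_basis_closedBall.mem_iff.mp (mem_interior_iff_mem_nhds.mp hx₀)
  set K₁ := (fun x => x + (-x₀)) '' K with hK₁
  have hK₁c : IsCompact K₁ := hK.image (by fun_prop)
  have hK₁v : Convex ℝ K₁ := by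
    rintro _ ⟨x, hx, rfl⟩ _ ⟨z, hz, rfl⟩ a e ha he hae
    refine ⟨a • x + e • z, hKv hx hz ha he hae, ?_⟩
    have : a • (x + -x₀) + e • (z + -x₀) = a • x + e • z + (a + e) • (-x₀) := by
      rw [smul_add, smul_add, add_smul]
      abel
    simp only at this ⊢
    rw [this, hae, one_smul]
  have hB₁ : Metric.closedBall (0 : EE (k + 1 + 1)) ρ ⊆ K₁ := by
    intro z hz
    refine ⟨z + x₀, hball ?_, by simp⟩
    rw [mem_closedBall_iff_norm, add_sub_cancel_right]
    simpa using hz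
  have hV₁ : volume K₁ = volume K := by
    rw [hK₁, Set.image_add_right, measure_preimage_add_right]
  have hPi : projBodyOf K₁ = projBodyOf K := projBodyOf_translate hK _
  have hLs := symBody_projBodyOf hK₁c hρ0 hB₁
  have h1 := hall _ _ hLs
  have h2 := mink_general (m := k + 1) (Nat.succ_pos k) hK₁c hK₁v hρ0 hB₁
  rw [hPi] at h1 h2 hLs
  rw [hV₁] at h2
  have hLpos : 0 < (volume (projBodyOf K)).toReal := vol_pos_of_ball hLs.compact hLs.pos hLs.ball
  simp only [Nat.add_sub_cancel]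
  have h3 : (volume (projBodyOf K)).toReal ^ (k + 1) * (r' * (volume K).toReal ^ (k + 1))
      ≤ (volume (projBodyOf K)).toReal ^ (k + 1) * (volume (projBodyOf K)).toReal := by
    calc _ = (volume K).toReal ^ (k + 1) * (r' * (volume (projBodyOf K)).toReal ^ (k + 1)) := by ring
      _ ≤ (volume K).toReal ^ (k + 1) * (volume (projBodyOf (projBodyOf K))).toReal :=
          mul_le_mul_of_nonneg_left h1 (by positivity)
      _ ≤ _ := h2
      _ = _ := by ring
  exact le_of_mul_le_mul_left h3 (by positivity)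

end

end Vale.Agent.Lib.P237.PN
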